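import Vale.Agent.P088.R2.H516.B.Def
import Vale.Agent.P088.R2.H593.W.Core3

/-!
# Zone B1: the exact identity on test functions (helper464's `Dat`)

`S = D² + K²/4`, `R = D.K`. `Err` collects every term of the identity besides the four squares,
`Q(b', c)` and the convexity terms.
-/

open MeasureTheory Set

noncomputable section

namespace Vale.Agent.P088.R2.H593.B

open Vale.Agent.P088.HY.H593W
open Vale.Agent.P088.R2.H464.EP Vale.Agent.P088.R2.H961.B.T Vale.Agent.P088.R2.H516.B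

variable {ι E : Type} [Fintype ι] [DecidableEq ι] [NormedAddCommGroup E] [NormedSpace ℝ E]
  [MeasurableSpace E] [BorelSpace E] [FiniteDimensional ℝ E]
  (μ : Measure E) [μ.IsAddHaarMeasure] (S : Dat ι E)

theorem osc_inv : (S.osc μ).Inv S.EI where
  l x := by
    have h : S.EE * S.EI = 1 := by rw [Dat.EE, Dat.EI, ← map_mul, S.inv, map_one]
    exact LinearMap.congr_fun h x
  r x := by
    have h : S.EI * S.EE = 1 := by rw [Dat.EE, Dat.EI, ← map_mul, mul_comm, S.inv, map_one]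
    exact LinearMap.congr_fun h x

theorem osc_D2 (x : TE E) : (S.osc μ).D2 x = S.D2 x := by
  rw [Osc.D2_apply, Dat.D2, LinearMap.sum_apply]; rfl

theorem osc_Ds2 (x : TE E) : (S.osc μ).Ds2 x = S.Ds2 x := by
  rw [Osc.Ds2_apply, Dat.Ds2, LinearMap.sum_apply]; rfl

theorem osc_LDD (x : TE E) : (S.osc μ).LDD x = lD S x := by
  rw [Osc.LDD_apply, lD, LinearMap.sum_apply]; rfl

theorem osc_LS (x : TE E) : (S.osc μ).LS x = lDs S x := by
  rw [Osc.LS_apply, lDs, LinearMap.sum_apply]; rfl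

theorem osc_BB (x : TE E) : (S.osc μ).BB x = S.BB x := by
  rw [Osc.BB_apply, Osc.N_apply, Dat.BB, LinearMap.add_apply, LinearMap.sum_apply]
  rfl

theorem osc_R (x : TE E) : (S.osc μ).R S.EI x = Ro S x := by
  rw [Osc.R_apply, Osc.Dv_apply, Osc.LDD_apply, osc_D2, map_sum, Ro, LinearMap.sum_apply,
    Finset.smul_sum, ← Finset.sum_add_distrib]
  refine Finset.sum_congr rfl fun i _ => ?_
  have h1 : S.D i * S.v i = S.D i * S.K i - (1 / 2 : ℝ) • (S.EI * (S.L i * (S.D i * S.D2))) := by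
    rw [Dat.v, mul_sub, mul_smul_comm]
    congr 2
    have h0 : S.L i * S.EI = S.EI * S.L i := mlc _ _
    have h5 : S.D i * S.EI = S.EI * S.D i := S.D_ml (fun k => S.ae' k) i
    rw [← mul_assoc, ← mul_assoc, S.D_L, mul_assoc (S.L i), h5, ← mul_assoc, h0, mul_assoc,
      mul_assoc]
  have h2 := LinearMap.congr_fun h1 x
  change S.D i (S.v i x) + (1 / 2 : ℝ) • S.EI (S.L i (S.D i (S.D2 x))) = (S.D i * S.K i) x
  have h3 : S.D i (S.v i x) = (S.D i * S.K i) x - (1 / 2 : ℝ) •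
      S.EI (S.L i (S.D i (S.D2 x))) := h2
  rw [h3, sub_add_cancel]

theorem adj_R : Adj μ (Ro S) (Rs S) :=
  Adj.sum fun i _ => by
    have h3 := (S.adj_D μ i).mul (S.adj_K μ i)
    have h4 : S.Ks i * S.Ds i = S.Ds i * S.Ks i :=
      adj_eq ((S.adj_D μ i).mul (S.adj_K μ i)) ((S.adj_K μ i).mul (S.adj_D μ i))
        (S.K_D i i).symm
    rwa [h4] at h3

theorem osc_Rs (x : TE E) : (S.osc μ).Rs S.EI x = Rs S x := by
  have h1 : ∀ y z, ip μ ((S.osc μ).R S.EI y) z = ip μ y ((S.osc μ).Rs S.EI z) := by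
    intro y z
    have hI := osc_inv μ S
    rw [Osc.R_apply, Osc.Rs_apply]
    have e1 : ip μ ((S.osc μ).Dv y) z = ip μ y ((S.osc μ).Dsvs z) := (S.osc μ).adDv y z
    have e2 : ip μ (S.EI ((S.osc μ).LDD ((S.osc μ).D2 y))) z =
        ip μ y (S.EI ((S.osc μ).LS ((S.osc μ).Ds2 z))) := by
      have a1 : ip μ (S.EI ((S.osc μ).LDD ((S.osc μ).D2 y))) z =
        ip μ ((S.osc μ).LDD ((S.osc μ).D2 y)) (S.EI z) := hI.ad _ _
      have a2 : ip μ ((S.osc μ).LDD ((S.osc μ).D2 y)) (S.EI z) =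
        ip μ ((S.osc μ).D2 y) ((S.osc μ).LS (S.EI z)) := (S.osc μ).adLDD _ _
      have a3 : ip μ ((S.osc μ).D2 y) ((S.osc μ).LS (S.EI z)) =
        ip μ y ((S.osc μ).Ds2 ((S.osc μ).LS (S.EI z))) := (S.osc μ).adD2 _ _
      rw [a1, a2, a3, ← hI.LS, ← hI.Ds2, (S.osc μ).Ds2LS]
    rw [map_add, map_smul, LinearMap.add_apply, LinearMap.smul_apply, map_add, map_smul, e1, e2]
  have h5 : ip μ ((S.osc μ).Rs S.EI x - Rs S x) ((S.osc μ).Rs S.EI x - Rs S x) = 0 := by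
    set d := (S.osc μ).Rs S.EI x - Rs S x
    have e3 : ip μ d ((S.osc μ).Rs S.EI x) = ip μ d (Rs S x) := by
      rw [← h1, ← adj_R μ S, osc_R]
    have e4 : ip μ d d = ip μ d ((S.osc μ).Rs S.EI x) - ip μ d (Rs S x) := by
      rw [← map_sub]
    rw [e4, e3, sub_self]
  exact sub_eq_zero.1 (ip_self_eq_zero μ h5)

/-- Everything in the identity besides the squares, `Q` and `cv`. -/
def Err (b c : TE E) : ℝ :=
  (S.osc μ).Er S.EI b c - ip μ (K2 S b) (lD S c) - 2 * ip μ (S.EI (lD S (S.D2 c))) (lD S c) +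
    ((1 / 2) * ip μ (S.Ds2 b) (K2s S b) + (1 / 16) * ip μ (K2s S b) (K2s S b) -
      (1 / 2) * ip μ (S.D2 b) (K2 S b) - (1 / 16) * ip μ (K2 S b) (K2 S b)) +
    (1 / 2) * (ip μ (K2s S b) (Rs S c) - ip μ (Ro S b) (K2 S c))

/-- `|S^* b + R^* c|² + |R b - S c|²`. -/
def Tf (b c : TE E) : ℝ :=
  nn μ 1 (S.Ds2 b + (1 / 4 : ℝ) • K2s S b + Rs S c) + nn μ 1 (Ro S b - So S c)

/-- `Q(b', c)`, `b' = b + (1 / 2E) l.D^* c`. -/
def Qb (b c : TE E) : ℝ := (S.osc μ).Q ((S.osc μ).bp S.EI b c) c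

theorem nn_one (f : TE E) : nn μ 1 f = ip μ f f := by
  rw [nn, map_one]; rfl

theorem So_apply (x : TE E) : So S x = S.D2 x + (1 / 4 : ℝ) • K2 S x := rfl

/-- **The exact identity on test functions.** -/
theorem T_te (b c : TE E) : Tf μ S b c =
    nn μ 1 (So S b + (2 : ℝ) • lD S c) + nn μ 1 (Ro S b) + nn μ 1 (So S c) +
      nn μ 1 (Ro S c + (2 : ℝ) • lD S c) + Qb μ S b c + (S.osc μ).cv c + Err μ S b c := by
  have h := (osc_inv μ S).T_eq (K2 S) (K2s S) b c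
  simp only [osc_D2, osc_Ds2, osc_R, osc_Rs, osc_LDD] at h
  rw [Tf, Err, Qb]
  simp only [nn_one, So_apply]
  have e : ∀ x y, (S.osc μ).ip x y = ip μ x y := fun _ _ => rfl
  simp only [e] at h
  linarith

end Vale.Agent.P088.R2.H593.B
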