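import Vale.Agent.P088.R2.H593.B.Te

/-!
# Zone B1: assembly of the black box

`∑ |σ_i|² + (T - SQ)(b, c) ≥ c₀ (∑ |σ_i|² + M') - C cost` from the core inequality, the energy
bounds and the bound of the error terms.
-/

open MeasureTheory Set

noncomputable section

namespace Vale.Agent.P088.R2.H593.B

open Vale.Agent.P088.HY.H593W
open Vale.Agent.P088.R2.H464.EP Vale.Agent.P088.R2.H961.B.T Vale.Agent.P088.R2.H516.B

/-! ## The scalar part -/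

theorem num_er {B D eps X r a3 r3 M sc : ℝ} (hB : 1 ≤ B) (hD : 13 ≤ D) (he0 : 0 ≤ eps)
    (he : 16 * (B * D) * eps ≤ 1) (hr : 0 ≤ r) (ha3 : a3 ≤ X) (hr3 : r3 ≤ r)
    (hX : 0 ≤ X) (hM0 : 0 ≤ M) (hM : M ≤ D * X) (hsc : sc ≤ 2 * eps ^ 2 * a3 + 2 * r3) :
    B * ((eps + 1 / (8 * (B * D))) * M + 8 * (B * D) * (sc + eps ^ 2 * M)) ≤
      (1 / 4) * X + 16 * (B ^ 2 * D) * r := by
  have hBD : 1 ≤ B * D := by nlinarith
  have hBD0 : 0 < B * D := by linarith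
  set t : ℝ := B * D * eps with ht
  have ht0 : 0 ≤ t := by positivity
  have ht1 : t ≤ 1 / 16 := by linarith
  have ht2 : t ^ 2 ≤ 1 / 256 := by nlinarith
  have h1 : B * ((eps + 1 / (8 * (B * D))) * M) ≤ B * ((eps + 1 / (8 * (B * D))) * (D * X)) := by
    have : 0 ≤ eps + 1 / (8 * (B * D)) := by positivity
    gcongr
  have h2 : B * ((eps + 1 / (8 * (B * D))) * (D * X)) = (t + 1 / 8) * X := by
    rw [ht]; field_simp
  have h3 : (t + 1 / 8) * X ≤ (3 / 16) * X := by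
    apply mul_le_mul_of_nonneg_right _ hX; linarith
  have h4 : sc + eps ^ 2 * M ≤ eps ^ 2 * ((2 + D) * X) + 2 * r := by
    have h5 := mul_le_mul_of_nonneg_left hM (sq_nonneg eps)
    have h6 := mul_le_mul_of_nonneg_left ha3 (sq_nonneg eps)
    have h7 : eps ^ 2 * ((2 + D) * X) = 2 * (eps ^ 2 * X) + eps ^ 2 * (D * X) := by ring
    rw [h7]
    linarith
  have h5 : B * (8 * (B * D)) * (sc + eps ^ 2 * M) ≤
      B * (8 * (B * D)) * (eps ^ 2 * ((2 + D) * X) + 2 * r) :=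
    mul_le_mul_of_nonneg_left h4 (by positivity)
  have h6 : B * (8 * (B * D)) * (eps ^ 2 * ((2 + D) * X) + 2 * r) =
      (8 * B ^ 2 * D * (2 + D) * eps ^ 2) * X + 16 * (B ^ 2 * D) * r := by ring
  have h7 : 8 * B ^ 2 * D * (2 + D) * eps ^ 2 ≤ 1 / 16 := by
    have h8 : 8 * B ^ 2 * D * (2 + D) * eps ^ 2 = 8 * t ^ 2 + 16 * (B ^ 2 * D * eps ^ 2) := by
      rw [ht]; ring
    have h9 : B ^ 2 * D * eps ^ 2 * 13 ≤ t ^ 2 := by
      have : t ^ 2 = B ^ 2 * D * eps ^ 2 * D := by rw [ht]; ring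
      rw [this]
      exact mul_le_mul_of_nonneg_left hD (by positivity)
    rw [h8]
    linarith
  have h8 : (8 * B ^ 2 * D * (2 + D) * eps ^ 2) * X ≤ (1 / 16) * X :=
    mul_le_mul_of_nonneg_right h7 hX
  have h9 : B * ((eps + 1 / (8 * (B * D))) * M + 8 * (B * D) * (sc + eps ^ 2 * M)) =
      B * ((eps + 1 / (8 * (B * D))) * M) + B * (8 * (B * D)) * (sc + eps ^ 2 * M) := by ring
  rw [h9]
  linarith

theorem num_M {A eps Q Y M0 nl a1 a3 r1 r3 sb sc : ℝ} (hA : 1 ≤ A) (he0 : 0 ≤ eps)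
    (e1 : eps ≤ 1) (hQ : M0 ≤ A * Q) (hQ0 : 0 ≤ Q) (hnl : nl ≤ A * M0) (ha3 : 0 ≤ a3)
    (hY : a1 + a3 + r1 + r3 ≤ Y) (ha1 : 0 ≤ a1) (hr1 : 0 ≤ r1) (hr3 : 0 ≤ r3)
    (hsb : sb ≤ 3 * a1 + 12 * nl + 3 * r1) (hsc : sc ≤ 2 * eps ^ 2 * a3 + 2 * r3) :
    M0 + sb + sc ≤ 13 * A ^ 2 * (Q + Y) := by
  have hA2 : 1 ≤ A ^ 2 := one_le_pow₀ hA
  have h1 : A * M0 ≤ A ^ 2 * Q := by
    have := mul_le_mul_of_nonneg_left hQ (by linarith : 0 ≤ A)
    calc A * M0 ≤ A * (A * Q) := this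
      _ = A ^ 2 * Q := by ring
  have h2 : A * Q ≤ A ^ 2 * Q := by
    have : A ≤ A ^ 2 := by nlinarith
    exact mul_le_mul_of_nonneg_right this hQ0
  have h3 : 2 * eps ^ 2 * a3 ≤ 2 * a3 := by
    have : eps ^ 2 ≤ 1 := pow_le_one₀ he0 e1
    have := mul_le_mul_of_nonneg_right this ha3
    linarith
  have h4 : Y ≤ A ^ 2 * Y := le_mul_of_one_le_left (by linarith) hA2
  have h5 : 13 * A ^ 2 * (Q + Y) = 13 * (A ^ 2 * Q) + 13 * (A ^ 2 * Y) := by ring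
  rw [h5]
  linarith

/-- The scalar part of the assembly. -/
theorem asm_num {A B eps Q cv M0 nl a1 a2 a3 a4 s1 s4 r1 r2 r3 r4 sb sc x1 x4 Er : ℝ}
    (hA : 1 ≤ A) (hB : 1 ≤ B) (he0 : 0 ≤ eps) (he : 16 * (B * (13 * A ^ 2)) * eps ≤ 1)
    (hcv : 0 ≤ cv) (hM0 : 0 ≤ M0) (hQ : M0 ≤ A * Q)
    (hnl : nl ≤ A * M0) (ha1 : 0 ≤ a1) (ha2 : 0 ≤ a2) (ha3 : 0 ≤ a3)
    (ha4 : 0 ≤ a4) (hr1 : 0 ≤ r1) (hr2 : 0 ≤ r2) (hr3 : 0 ≤ r3) (hr4 : 0 ≤ r4)
    (hsb0 : 0 ≤ sb) (hsc0 : 0 ≤ sc)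
    (hsb : sb ≤ 3 * a1 + 12 * nl + 3 * r1) (hsc : sc ≤ 2 * eps ^ 2 * a3 + 2 * r3)
    (hs1 : s1 ≤ 2 * a1 + 8 * nl) (hs4 : s4 ≤ 2 * a4 + 8 * nl)
    (hx1 : - (nl / (16 * A ^ 2) + 64 * A ^ 2 * r1) ≤ x1)
    (hx4 : - (nl / (16 * A ^ 2) + 64 * A ^ 2 * r4) ≤ x4)
    (hEr : ∀ K : ℝ, 1 ≤ K → |Er| ≤ B * ((eps + 1 / K) * (M0 + sb + sc) +
      K * (sc + eps ^ 2 * (M0 + sb + sc)))) :
    (1 / (60 * A ^ 2)) * (s1 + a2 + a3 + s4 + (M0 + sb + sc)) ≤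
      a1 + a2 + a3 + a4 + x1 + x4 + Q + cv + Er +
        (1000 * B ^ 2 * A ^ 2) * (r1 + r2 + r3 + r4) := by
  have hA2 : 1 ≤ A ^ 2 := one_le_pow₀ hA
  have hA0 : 0 < A := by linarith
  have hQ0 : 0 ≤ Q := by
    have h := hM0.trans hQ
    exact nonneg_of_mul_nonneg_right h hA0
  have hB2 : 1 ≤ B ^ 2 := one_le_pow₀ hB
  have hD1 : 13 ≤ 13 * A ^ 2 := by linarith
  have hBD : 1 ≤ B * (13 * A ^ 2) := by nlinarith
  have e1 : eps ≤ 1 := by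
    have : 16 * 1 * eps ≤ 16 * (B * (13 * A ^ 2)) * eps := by gcongr
    linarith
  set Y : ℝ := a1 + a2 + a3 + a4 + cv + (r1 + r2 + r3 + r4) with hY
  have hY0 : 0 ≤ Y := by positivity
  set r : ℝ := r1 + r2 + r3 + r4 with hr
  have hr0 : 0 ≤ r := by positivity
  have hM := num_M (Y := Y) hA he0 e1 hQ hQ0 hnl ha3 (by rw [hY]; linarith) ha1 hr1 hr3 hsb hsc
  have hE := (hEr (8 * (B * (13 * A ^ 2))) (by linarith)).trans
    (num_er (X := Q + Y) (r := r) hB hD1 he0 he hr0 (by rw [hY]; linarith) (by rw [hr]; linarith)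
      (by positivity) (by positivity) hM hsc)
  have hEr' := (abs_le.1 hE).1
  have h1 : A * M0 ≤ A ^ 2 * Q := by
    have := mul_le_mul_of_nonneg_left hQ (by linarith : 0 ≤ A)
    calc A * M0 ≤ A * (A * Q) := this
      _ = A ^ 2 * Q := by ring
  have hnlQ : nl ≤ A ^ 2 * Q := hnl.trans h1
  have hn16 : nl / (16 * A ^ 2) ≤ Q / 16 := by
    rw [div_le_div_iff₀ (by positivity) (by norm_num)]
    linarith
  have hx : -(Q / 8 + 64 * A ^ 2 * r) ≤ x1 + x4 := by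
    have h2 : 64 * A ^ 2 * (r1 + r4) ≤ 64 * A ^ 2 * r :=
      mul_le_mul_of_nonneg_left (by rw [hr]; linarith) (by positivity)
    linarith
  have hs : s1 + a2 + a3 + s4 + (M0 + sb + sc) ≤ 30 * A ^ 2 * (Q + Y) := by
    have h2 : s1 + a2 + a3 + s4 ≤ 2 * Y + 16 * (A ^ 2 * Q) := by rw [hY]; linarith
    have h3 : Y ≤ A ^ 2 * Y := le_mul_of_one_le_left hY0 hA2
    have h4 : 30 * A ^ 2 * (Q + Y) = 30 * (A ^ 2 * Q) + 30 * (A ^ 2 * Y) := by ring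
    have h5 : 13 * A ^ 2 * (Q + Y) = 13 * (A ^ 2 * Q) + 13 * (A ^ 2 * Y) := by ring
    have h6 : 0 ≤ A ^ 2 * Q := by positivity
    have h7 : 0 ≤ A ^ 2 * Y := by positivity
    linarith
  have hc : (1 / (60 * A ^ 2)) * (s1 + a2 + a3 + s4 + (M0 + sb + sc)) ≤ (Q + Y) / 2 := by
    rw [one_div, inv_mul_le_iff₀ (by positivity)]
    linarith
  have hBA1 : 1 ≤ B ^ 2 * A ^ 2 := by
    calc (1 : ℝ) = 1 * 1 := by ring
      _ ≤ B ^ 2 * A ^ 2 := mul_le_mul hB2 hA2 (by norm_num) (by positivity)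
  have hBA2 : A ^ 2 ≤ B ^ 2 * A ^ 2 := le_mul_of_one_le_left (by positivity) hB2
  have hfin : (64 * A ^ 2 + 1 + 16 * (B ^ 2 * (13 * A ^ 2))) * r ≤
      1000 * B ^ 2 * A ^ 2 * r := by
    apply mul_le_mul_of_nonneg_right _ hr0
    linarith
  have hYr : a1 + a2 + a3 + a4 + cv = Y - r := by rw [hY]; ring
  have e3 : (64 * A ^ 2 + 1 + 16 * (B ^ 2 * (13 * A ^ 2))) * r =
      64 * A ^ 2 * r + r + 16 * (B ^ 2 * (13 * A ^ 2)) * r := by ring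
  rw [e3] at hfin
  linarith

/-! ## Norms -/

variable {ι E : Type} [Fintype ι] [DecidableEq ι] [NormedAddCommGroup E] [NormedSpace ℝ E]

theorem dv_zero {f : TE E} {z : E} (hz : z ∉ tsupport f.fn) (v : E) : (dv v f).fn z = 0 := by
  have h : z ∉ tsupport (fderiv ℝ f.fn) := fun h => hz (tsupport_fderiv_subset ℝ h)
  have h1 := image_eq_zero_of_notMem_tsupport h
  change fderiv ℝ f.fn z v = 0
  rw [h1]; rfl

theorem fn_zero {f : TE E} {z : E} (hz : z ∉ tsupport f.fn) : f.fn z = 0 :=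
  image_eq_zero_of_notMem_tsupport hz

theorem D_zero (S : Dat ι E) {f : TE E} {z : E} (hz : z ∉ tsupport f.fn) (i : ι) :
    (S.D i f).fn z = 0 := by
  have h1 := dv_zero hz (S.a i)
  have h2 := fn_zero hz
  have : (S.D i f).fn z = (dv (S.a i) f).fn z + ((S.e * S.q i : Sm E) : E → ℝ) z * f.fn z := rfl
  rw [this, h1, h2]; ring

variable [MeasurableSpace E] [BorelSpace E] [FiniteDimensional ℝ E]
  (μ : Measure E) [μ.IsAddHaarMeasure]

theorem nn_eq (θ : Sm E) (f : TE E) : nn μ θ f = ∫ z, (θ : E → ℝ) z * f.fn z ^ 2 ∂μ := by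
  rw [nn, ip_apply]
  refine integral_congr_ae (Filter.Eventually.of_forall fun z => ?_)
  simp only [ml_apply]
  ring

theorem nn_int (θ : Sm E) (f : TE E) : Integrable (fun z => (θ : E → ℝ) z * f.fn z ^ 2) μ := by
  have h := integrable_mul μ (ml θ f) f
  refine h.congr (Filter.Eventually.of_forall fun z => ?_)
  simp only [ml_apply]
  ring

theorem nn_nonneg {θ : Sm E} (h : ∀ z, 0 ≤ (θ : E → ℝ) z) (f : TE E) : 0 ≤ nn μ θ f := by
  rw [nn_eq]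
  exact integral_nonneg fun z => mul_nonneg (h z) (sq_nonneg _)

theorem nn1_nonneg (f : TE E) : 0 ≤ nn μ 1 f := nn_nonneg μ (fun _ => zero_le_one) f

theorem nn_mono {θ θ' : Sm E} {f : TE E} (h : ∀ z, f.fn z ≠ 0 → (θ : E → ℝ) z ≤ (θ' : E → ℝ) z) :
    nn μ θ f ≤ nn μ θ' f := by
  rw [nn_eq, nn_eq]
  refine integral_mono (nn_int μ θ f) (nn_int μ θ' f) fun z => ?_
  by_cases hz : f.fn z = 0
  · simp [hz]
  · exact mul_le_mul_of_nonneg_right (h z hz) (sq_nonneg _)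

theorem nn_smul_w (c : ℝ) (θ : Sm E) (f : TE E) : nn μ (c • θ) f = c * nn μ θ f := by
  rw [nn, map_smul, LinearMap.smul_apply, map_smul]; rfl

theorem nn_le_c {θ : Sm E} {f : TE E} {c : ℝ} (h : ∀ z, f.fn z ≠ 0 → (θ : E → ℝ) z ≤ c) :
    nn μ θ f ≤ c * nn μ 1 f := by
  rw [← nn_smul_w]
  refine nn_mono μ fun z hz => (h z hz).trans (le_of_eq ?_)
  change c = c * 1
  rw [mul_one]

theorem nn_add_le {θ : Sm E} (h : ∀ z, 0 ≤ (θ : E → ℝ) z) (f g : TE E) :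
    nn μ θ (f + g) ≤ 2 * nn μ θ f + 2 * nn μ θ g := by
  rw [nn_eq, nn_eq, nn_eq, ← integral_const_mul, ← integral_const_mul,
    ← integral_add ((nn_int μ θ f).const_mul 2) ((nn_int μ θ g).const_mul 2)]
  refine integral_mono (nn_int μ θ (f + g)) (((nn_int μ θ f).const_mul 2).add
    ((nn_int μ θ g).const_mul 2)) fun z => ?_
  simp only [TE.add_fn]
  have h1 : (f.fn z + g.fn z) ^ 2 ≤ 2 * f.fn z ^ 2 + 2 * g.fn z ^ 2 := by
    nlinarith [sq_nonneg (f.fn z - g.fn z)]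
  have h2 := mul_le_mul_of_nonneg_left h1 (h z)
  linarith

theorem nn_add3_le (f g k : TE E) :
    nn μ 1 (f + g + k) ≤ 3 * nn μ 1 f + 3 * nn μ 1 g + 3 * nn μ 1 k := by
  simp only [nn_one, map_add, LinearMap.add_apply]
  have h1 := ip_self_nonneg μ (f - g)
  have h2 := ip_self_nonneg μ (f - k)
  have h3 := ip_self_nonneg μ (g - k)
  have e1 := ip_comm μ f g
  have e2 := ip_comm μ f k
  have e3 := ip_comm μ g k
  simp only [map_sub, LinearMap.sub_apply] at h1 h2 h3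
  linarith

theorem nn_smul (c : ℝ) (f : TE E) : nn μ 1 (c • f) = c ^ 2 * nn μ 1 f := by
  simp only [nn_one, map_smul, LinearMap.smul_apply, smul_eq_mul]; ring

theorem ip_ge {t : ℝ} (ht : 0 < t) (f g : TE E) :
    - (t * nn μ 1 g + nn μ 1 f / t) ≤ 2 * ip μ f g := by
  have h := ip_self_nonneg μ (f + t • g)
  simp only [map_add, map_smul, LinearMap.add_apply, LinearMap.smul_apply, smul_eq_mul,
    ip_comm μ g f] at h
  rw [nn_one, nn_one]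
  have h2 : -(t * ip μ g g + ip μ f f / t) = -(t * (t * ip μ g g) + ip μ f f) / t := by
    field_simp
  rw [h2, div_le_iff₀ ht]
  nlinarith

variable (S : Dat ι E)

theorem lD_le {Z : Set E} {Lam : ℝ} (hl : ∀ z ∈ Z, ∀ i, |(S.l1 i : E → ℝ) z| ≤ Lam) {c : TE E}
    (hc : Su Z c) : nn μ 1 (lD S c) ≤ (Fintype.card ι * Lam ^ 2) * ∑ i, nn μ 1 (S.D i c) := by
  have e : ∀ z, (lD S c).fn z = ∑ i, (S.l1 i : E → ℝ) z * (S.D i c).fn z := by
    intro z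
    rw [lD, LinearMap.sum_apply, sum_fn]; rfl
  simp only [nn_eq]
  rw [← integral_finset_sum _ fun i _ => nn_int μ 1 (S.D i c), ← integral_const_mul]
  refine integral_mono (nn_int μ 1 (lD S c)) ((integrable_finset_sum _ fun i _ =>
    nn_int μ 1 (S.D i c)).const_mul _) fun z => ?_
  simp only [e]
  have h1 : ((1 : Sm E) : E → ℝ) z = 1 := rfl
  simp only [h1, one_mul]
  by_cases hz : z ∈ Z
  · refine (Finset.sum_mul_sq_le_sq_mul_sq _ _ _).trans ?_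
    refine mul_le_mul_of_nonneg_right ?_ (Finset.sum_nonneg fun i _ => sq_nonneg _)
    calc ∑ i, (S.l1 i : E → ℝ) z ^ 2 ≤ ∑ _i : ι, Lam ^ 2 :=
          Finset.sum_le_sum fun i _ => sq_le_sq' (abs_le.1 (hl z hz i)).1 (abs_le.1 (hl z hz i)).2
      _ = Fintype.card ι * Lam ^ 2 := by rw [Finset.sum_const, Finset.card_univ, nsmul_eq_mul]
  · have h2 : ∀ i, (S.D i c).fn z = 0 := D_zero S fun h => hz (hc h)
    simp [h2]

/-! ## The black box -/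

/-- The cost. -/
def cost (b c s1 s2 s3 s4 : TE E) : ℝ :=
  nn μ 1 (So S b - s1) + nn μ 1 (Ro S b - s2) + nn μ (S.e' * mu S) (So S c - s3) +
    nn μ 1 (Ro S c - s4)

/-- `|S b|² + |R b|² + |S c|² + |R c|²`. -/
def Sq (b c : TE E) : ℝ :=
  nn μ 1 (So S b) + nn μ 1 (Ro S b) + nn μ 1 (So S c) + nn μ 1 (Ro S c)

/-- `b' = b + (1 / 2E) l.D^* c`. -/
def bp (b c : TE E) : TE E := b + (1 / 2 : ℝ) • S.EI (lDs S c)

/-- `e'_i = D_i^* b' + v_i^* c / 2`. -/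
def ep (i : ι) (b c : TE E) : TE E := S.Ds i (bp S b c) + (1 / 2 : ℝ) • S.vs i c

/-- `∑ |e'_i|²_E + |E b'|² + |Dc|² + E |c|²`. -/
def M0 (b c : TE E) : ℝ :=
  ∑ i, nn μ S.e (ep S i b c) + nn μ (S.e * S.e) (bp S b c) + ∑ i, nn μ 1 (S.D i c) + nn μ S.e c

/-- `M0 + |S b|² + (μ / E) |S c|²`. -/
def Mp (b c : TE E) : ℝ :=
  M0 μ S b c + nn μ 1 (So S b) + nn μ (S.e' * mu S) (So S c)

theorem expand (b c s1 s2 s3 s4 : TE E) :
    nn μ 1 s1 + nn μ 1 s2 + nn μ 1 s3 + nn μ 1 s4 + (Tf μ S b c - Sq μ S b c) =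
      nn μ 1 (s1 + (2 : ℝ) • lD S c) + nn μ 1 s2 + nn μ 1 s3 + nn μ 1 (s4 + (2 : ℝ) • lD S c) +
        4 * ip μ (So S b - s1) (lD S c) + 4 * ip μ (Ro S c - s4) (lD S c) + Qb μ S b c +
        (S.osc μ).cv c + Err μ S b c := by
  rw [T_te, Sq]
  have e1 := ip_comm μ (lD S c) (So S b)
  have e2 := ip_comm μ (lD S c) (Ro S c)
  have e3 := ip_comm μ (lD S c) s1
  have e4 := ip_comm μ (lD S c) s4
  simp only [nn_one, map_add, map_sub, map_smul, LinearMap.add_apply, LinearMap.sub_apply,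
    LinearMap.smul_apply, smul_eq_mul]
  linarith

/-- **The black box**, from the core inequality `M0 ≤ A Q(b', c)` and the bound of `Err`. -/
theorem box_of {Z : Set E} {N : Sm E} {Lam eps A B : ℝ} (hZ : Zn S Z N Lam eps)
    (he' : ∀ z, 0 ≤ ((S.e' * mu S : Sm E) : E → ℝ) z) (hmu : ∀ z, 1 ≤ (mu S : E → ℝ) z)
    (he0 : ∀ z, 0 ≤ (S.e : E → ℝ) z)
    {b c s1 s2 s3 s4 : TE E} (hc : Su Z c) (h3 : Su Z s3)
    (hA : 1 ≤ A) (hB : 1 ≤ B) (hA' : Fintype.card ι * Lam ^ 2 ≤ A)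
    (hε : 16 * (B * (13 * A ^ 2)) * eps ≤ 1)
    (hQ : M0 μ S b c ≤ A * Qb μ S b c) (hcv : 0 ≤ (S.osc μ).cv c)
    (hEr : ∀ K : ℝ, 1 ≤ K → |Err μ S b c| ≤ B * ((eps + 1 / K) * Mp μ S b c +
      K * (nn μ (S.e' * mu S) (So S c) + eps ^ 2 * Mp μ S b c))) :
    (1 / (60 * A ^ 2)) * (nn μ 1 s1 + nn μ 1 s2 + nn μ 1 s3 + nn μ 1 s4 + Mp μ S b c) ≤
      nn μ 1 s1 + nn μ 1 s2 + nn μ 1 s3 + nn μ 1 s4 + (Tf μ S b c - Sq μ S b c) +
        (1000 * B ^ 2 * A ^ 2) * cost μ S b c s1 s2 s3 s4 := by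
  have hA0 : 0 < A := by linarith
  have hM0 : 0 ≤ M0 μ S b c := by
    have h1 : 0 ≤ ∑ i, nn μ S.e (ep S i b c) := Finset.sum_nonneg fun i _ => nn_nonneg μ he0 _
    have h2 : 0 ≤ nn μ (S.e * S.e) (bp S b c) :=
      nn_nonneg μ (fun z => mul_self_nonneg _) _
    have h3 : 0 ≤ ∑ i, nn μ 1 (S.D i c) := Finset.sum_nonneg fun i _ => nn1_nonneg μ _
    have h4 := nn_nonneg μ he0 c
    rw [M0]; positivity
  have hnl : nn μ 1 (lD S c) ≤ A * M0 μ S b c := by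
    refine (lD_le μ S hZ.l1 hc).trans ?_
    have h3 : 0 ≤ ∑ i, nn μ 1 (S.D i c) := Finset.sum_nonneg fun i _ => nn1_nonneg μ _
    refine (mul_le_mul_of_nonneg_right hA' h3).trans (mul_le_mul_of_nonneg_left ?_ hA0.le)
    have h1 : 0 ≤ ∑ i, nn μ S.e (ep S i b c) := Finset.sum_nonneg fun i _ => nn_nonneg μ he0 _
    have h2 : 0 ≤ nn μ (S.e * S.e) (bp S b c) :=
      nn_nonneg μ (fun z => mul_self_nonneg _) _
    have h4 := nn_nonneg μ he0 c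
    rw [M0]; linarith
  have hsb : nn μ 1 (So S b) ≤ 3 * nn μ 1 (s1 + (2 : ℝ) • lD S c) + 12 * nn μ 1 (lD S c) +
      3 * nn μ 1 (So S b - s1) := by
    have h := nn_add3_le μ (s1 + (2 : ℝ) • lD S c) (-(2 : ℝ) • lD S c) (So S b - s1)
    have e : s1 + (2 : ℝ) • lD S c + (-(2 : ℝ)) • lD S c + (So S b - s1) = So S b := by module
    rw [e, nn_smul] at h
    linarith
  have hsc : nn μ (S.e' * mu S) (So S c) ≤ 2 * eps ^ 2 * nn μ 1 s3 +
      2 * nn μ (S.e' * mu S) (So S c - s3) := by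
    have h := nn_add_le μ he' s3 (So S c - s3)
    have e : s3 + (So S c - s3) = So S c := by abel
    rw [e] at h
    have h2 : nn μ (S.e' * mu S) s3 ≤ eps ^ 2 * nn μ 1 s3 := by
      refine nn_le_c μ fun z hz => ?_
      have hzZ : z ∈ Z := h3 (subset_tsupport _ hz)
      have h5 := hZ.m3 z hzZ
      have h6 : (S.e : E → ℝ) z * (S.e' : E → ℝ) z = 1 := by
        have := congrArg (fun f : Sm E => (f : E → ℝ) z) S.inv
        exact this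
      have h7 := hmu z
      have h8 : ((S.e' * mu S : Sm E) : E → ℝ) z = (S.e' : E → ℝ) z * (mu S : E → ℝ) z := rfl
      have h9 : 0 ≤ (S.e' : E → ℝ) z := by
        have h10 := he' z
        rw [h8] at h10
        exact nonneg_of_mul_nonneg_left h10 (by linarith)
      rw [h8]
      have h11 : (mu S : E → ℝ) z ≤ (mu S : E → ℝ) z ^ 3 := by
        have : 1 ≤ (mu S : E → ℝ) z ^ 2 := one_le_pow₀ h7
        calc (mu S : E → ℝ) z = (mu S : E → ℝ) z * 1 := by ring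
          _ ≤ (mu S : E → ℝ) z * (mu S : E → ℝ) z ^ 2 :=
            mul_le_mul_of_nonneg_left this (by linarith)
          _ = _ := by ring
      calc (S.e' : E → ℝ) z * (mu S : E → ℝ) z ≤ (S.e' : E → ℝ) z * (eps ^ 2 * (S.e : E → ℝ) z) :=
            mul_le_mul_of_nonneg_left (h11.trans h5) h9
        _ = eps ^ 2 * ((S.e : E → ℝ) z * (S.e' : E → ℝ) z) := by ring
        _ = eps ^ 2 := by rw [h6, mul_one]
    linarith
  have hs : ∀ s : TE E, nn μ 1 s ≤ 2 * nn μ 1 (s + (2 : ℝ) • lD S c) + 8 * nn μ 1 (lD S c) := by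
    intro s
    have h := nn_add_le μ (θ := 1) (fun _ => zero_le_one) (s + (2 : ℝ) • lD S c)
      (-(2 : ℝ) • lD S c)
    have e : s + (2 : ℝ) • lD S c + (-(2 : ℝ)) • lD S c = s := by module
    rw [e, nn_smul] at h
    linarith
  have hx : ∀ f : TE E, -(nn μ 1 (lD S c) / (16 * A ^ 2) + 64 * A ^ 2 * nn μ 1 f) ≤
      4 * ip μ f (lD S c) := by
    intro f
    have h := ip_ge μ (t := 1 / (32 * A ^ 2)) (by positivity) f (lD S c)
    have e1 : nn μ 1 f / (1 / (32 * A ^ 2)) = 32 * A ^ 2 * nn μ 1 f := by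
      field_simp
    rw [e1] at h
    have e2 : nn μ 1 (lD S c) / (16 * A ^ 2) = 2 * (1 / (32 * A ^ 2) * nn μ 1 (lD S c)) := by
      field_simp; ring
    rw [e2]
    linarith
  have key := asm_num (A := A) (B := B) (eps := eps) (Q := Qb μ S b c) (cv := (S.osc μ).cv c)
    (M0 := M0 μ S b c) (nl := nn μ 1 (lD S c)) (a1 := nn μ 1 (s1 + (2 : ℝ) • lD S c))
    (a2 := nn μ 1 s2) (a3 := nn μ 1 s3) (a4 := nn μ 1 (s4 + (2 : ℝ) • lD S c))
    (s1 := nn μ 1 s1) (s4 := nn μ 1 s4) (r1 := nn μ 1 (So S b - s1)) (r2 := nn μ 1 (Ro S b - s2))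
    (r3 := nn μ (S.e' * mu S) (So S c - s3)) (r4 := nn μ 1 (Ro S c - s4))
    (sb := nn μ 1 (So S b)) (sc := nn μ (S.e' * mu S) (So S c))
    (x1 := 4 * ip μ (So S b - s1) (lD S c)) (x4 := 4 * ip μ (Ro S c - s4) (lD S c))
    (Er := Err μ S b c) hA hB hZ.e0.le hε hcv hM0 hQ hnl (nn1_nonneg μ _) (nn1_nonneg μ _)
    (nn1_nonneg μ _) (nn1_nonneg μ _) (nn1_nonneg μ _) (nn1_nonneg μ _) (nn_nonneg μ he' _)
    (nn1_nonneg μ _) (nn1_nonneg μ _) (nn_nonneg μ he' _) hsb hsc (hs s1) (hs s4) (hx _) (hx _)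
    (fun K hK => hEr K hK)
  rw [expand, cost, Mp]
  linarith

end Vale.Agent.P088.R2.H593.B
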