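import Vale.Agent.P088.R2.H593.B.Asm
import Vale.Agent.P088.R2.H516.B.Err3
import Vale.Agent.P088.R2.H676.C.Fin
import Vale.Agent.P088.R2.H856.B.Fin

/-!
# Zone B1: the black box

For the model `W = E |q|² / 2 + φ(p)`, `E = E₀ e^{2 l(p)}`, `l`, `φ` convex, `n ≥ 3`, and test functions
`b`, `c`, `s₁, …, s₄` supported in the zone: `∑ |s_i|² + (T - SQ)(b, c) ≥ c₀ (∑ |s_i|² + Mp) - C cost`.
-/

open MeasureTheory Set
open scoped ContDiff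

noncomputable section

namespace Vale.Agent.P088.R2.H593.B

open Vale.Agent.P088.HY.H593W
open Vale.Agent.P088.R2.H464.EP Vale.Agent.P088.R2.H961.B.T Vale.Agent.P088.R2.H516.B

variable {ι E : Type} [Fintype ι] [DecidableEq ι] [NormedAddCommGroup E] [NormedSpace ℝ E]
  [MeasurableSpace E] [BorelSpace E] [FiniteDimensional ℝ E]
  (μ : Measure E) [μ.IsAddHaarMeasure] (S : Dat ι E)

theorem qq_nn (z : E) : 0 ≤ (S.qq : E → ℝ) z := by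
  have h : (S.qq : E → ℝ) z = ∑ k, (S.q k : E → ℝ) z * (S.q k : E → ℝ) z := by
    rw [Dat.qq]
    simp only [AddSubmonoidClass.coe_finsetSum, MulMemClass.coe_mul, Finset.sum_apply,
      Pi.mul_apply]
  rw [h]
  exact Finset.sum_nonneg fun k _ => mul_self_nonneg _

theorem mu_ge (he : ∀ z, 0 < (S.e : E → ℝ) z) (z : E) : 1 ≤ (mu S : E → ℝ) z := by
  have h : (mu S : E → ℝ) z = 1 + (S.e : E → ℝ) z * (S.qq : E → ℝ) z := rfl
  rw [h]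
  have := mul_nonneg (he z).le (qq_nn S z)
  linarith

theorem e'_pos (he : ∀ z, 0 < (S.e : E → ℝ) z) (z : E) : 0 < (S.e' : E → ℝ) z := by
  have h6 : (S.e : E → ℝ) z * (S.e' : E → ℝ) z = 1 :=
    congrArg (fun f : Sm E => (f : E → ℝ) z) S.inv
  by_contra h
  push Not at h
  have := mul_nonpos_of_nonneg_of_nonpos (he z).le h
  linarith

theorem e'mu_nn (he : ∀ z, 0 < (S.e : E → ℝ) z) (z : E) :
    0 ≤ ((S.e' * mu S : Sm E) : E → ℝ) z := by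
  have h : ((S.e' * mu S : Sm E) : E → ℝ) z = (S.e' : E → ℝ) z * (mu S : E → ℝ) z := rfl
  rw [h]
  exact mul_nonneg (e'_pos S he z).le (by linarith [mu_ge S he z])

/-- The constant of the error terms. -/
def CE (n : ℕ) (Lam CB : ℝ) : ℝ := 12800 * ((n : ℝ) + 1) ^ 4 * Lam ^ 4 * CB

theorem CE_pre (n : ℕ) {Lam : ℝ} (hL : 1 ≤ Lam) : 1 ≤ 12800 * ((n : ℝ) + 1) ^ 4 * Lam ^ 4 := by
  have hn1 : (1 : ℝ) ≤ (n : ℝ) + 1 := by
    have := Nat.cast_nonneg (α := ℝ) n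
    linarith
  have h1 : (1 : ℝ) ≤ ((n : ℝ) + 1) ^ 4 := one_le_pow₀ hn1
  have h2 : (1 : ℝ) ≤ Lam ^ 4 := one_le_pow₀ hL
  have h3 : (1 : ℝ) ≤ ((n : ℝ) + 1) ^ 4 * Lam ^ 4 := by
    calc (1 : ℝ) = 1 * 1 := by ring
      _ ≤ _ := mul_le_mul h1 h2 (by norm_num) (by positivity)
  linarith

theorem CE_one (n : ℕ) {Lam CB : ℝ} (hL : 1 ≤ Lam) (hCB : 1 ≤ CB) : 1 ≤ CE n Lam CB := by
  rw [CE]
  calc (1 : ℝ) = 1 * 1 := by ring
    _ ≤ _ := mul_le_mul (CE_pre n hL) hCB (by norm_num) (by have := CE_pre n hL; linarith)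

theorem er_num {D CB K eps M sc MS e : ℝ} (hD : 1 ≤ D) (hCB : 0 ≤ CB) (hK : 0 ≤ K)
    (hM : 0 ≤ M) (hsc : 0 ≤ sc) (hMS : MS = CB * (sc + eps ^ 2 * M))
    (h : e ≤ K * MS + D * (K⁻¹ + eps) * (CB * M)) :
    e ≤ D * CB * ((eps + 1 / K) * M + K * (sc + eps ^ 2 * M)) := by
  have h0 : 0 ≤ K * MS := by
    rw [hMS]
    have := mul_nonneg (sq_nonneg eps) hM
    positivity
  have h1 : K * MS ≤ D * (K * MS) := le_mul_of_one_le_left h0 hD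
  have h2 : D * CB * ((eps + 1 / K) * M + K * (sc + eps ^ 2 * M)) =
      D * (K * MS) + D * (K⁻¹ + eps) * (CB * M) := by
    rw [hMS]; ring
  rw [h2]
  linarith

theorem Mp_nonneg (he : ∀ z, 0 < (S.e : E → ℝ) z) (b c : TE E) : 0 ≤ Mp μ S b c := by
  have he0 : ∀ z, 0 ≤ (S.e : E → ℝ) z := fun z => (he z).le
  have h1 : 0 ≤ ∑ i, nn μ S.e (ep S i b c) := Finset.sum_nonneg fun i _ => nn_nonneg μ he0 _
  have h2 : 0 ≤ nn μ (S.e * S.e) (bp S b c) :=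
    nn_nonneg μ (fun z => mul_self_nonneg _) _
  have h3 : 0 ≤ ∑ i, nn μ 1 (S.D i c) := Finset.sum_nonneg fun i _ => nn1_nonneg μ _
  have h4 := nn_nonneg μ he0 c
  have h5 := nn1_nonneg μ (So S b)
  have h6 := nn_nonneg μ (e'mu_nn S he) (So S c)
  rw [Mp, M0]
  linarith

variable {μ} {S} in
/-- The black box from the core inequality and the list of bounds. -/
theorem box_mid (w : Wd S) {Z : Set E} {N : Sm E} {Lam eps A CB : ℝ} (hZ : Zn S Z N Lam eps)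
    {b c s1 s2 s3 s4 : TE E} (hb : Su Z b) (hc : Su Z c) (h3 : Su Z s3)
    (hA : 1 ≤ A) (hCB : 1 ≤ CB) (hA' : Fintype.card ι * Lam ^ 2 ≤ A)
    (hε : 208 * (CE (Fintype.card ι) Lam CB * A ^ 2) * eps ≤ 1)
    (hQ : M0 μ S b c ≤ A * Qb μ S b c) (hcv : 0 ≤ (S.osc μ).cv c)
    (hBd : Bd μ S w N b c (CB * Mp μ S b c)
      (CB * (nn μ (S.e' * mu S) (So S c) + eps ^ 2 * Mp μ S b c))) :
    (1 / (60 * A ^ 2)) * (nn μ 1 s1 + nn μ 1 s2 + nn μ 1 s3 + nn μ 1 s4 + Mp μ S b c) ≤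
      nn μ 1 s1 + nn μ 1 s2 + nn μ 1 s3 + nn μ 1 s4 + (Tf μ S b c - Sq μ S b c) +
        (1000 * CE (Fintype.card ι) Lam CB ^ 2 * A ^ 2) * cost μ S b c s1 s2 s3 s4 := by
  have hL := hZ.L1
  have hCE := CE_one (Fintype.card ι) hL hCB
  have hMp := Mp_nonneg μ S w.he b c
  have hsc := nn_nonneg μ (e'mu_nn S w.he) (So S c)
  have hε' : 16 * (CE (Fintype.card ι) Lam CB * (13 * A ^ 2)) * eps ≤ 1 := by
    refine (le_of_eq ?_).trans hε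
    ring
  have hMS : 0 ≤ CB * (nn μ (S.e' * mu S) (So S c) + eps ^ 2 * Mp μ S b c) :=
    mul_nonneg (by linarith) (add_nonneg hsc (mul_nonneg (sq_nonneg _) hMp))
  refine box_of μ S hZ (e'mu_nn S w.he) (mu_ge S w.he) (fun z => (w.he z).le) hc h3 hA hCE hA'
    hε' hQ hcv ?_
  intro K hK
  exact er_num (CE_pre (Fintype.card ι) hL) (by linarith) (by linarith) hMp hsc rfl
    (Err_le μ w hZ hb hc hBd (K := K) (by linarith) hMS)

/-! ## The model -/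

/-- The constant of the core. -/
def cA (n : ℕ) (Lam : ℝ) : ℝ := 12 * ((n : ℝ) + 1) * Lam ^ 2

/-- The constant of the error terms. -/
def cE (n : ℕ) (Lam : ℝ) : ℝ := CE n Lam (H856.B.CB n Lam)

/-- The smallness. -/
def eps0 (n : ℕ) (Lam : ℝ) : ℝ := 1 / (208 * (cE n Lam * cA n Lam ^ 2))

/-- The constant of the margin. -/
def c0 (n : ℕ) (Lam : ℝ) : ℝ := 1 / (60 * cA n Lam ^ 2)

/-- The constant of the cost. -/
def C0 (n : ℕ) (Lam : ℝ) : ℝ := 1000 * cE n Lam ^ 2 * cA n Lam ^ 2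

theorem CB_one (n : ℕ) {Lam : ℝ} (hL : 1 ≤ Lam) : 1 ≤ H856.B.CB n Lam := by
  have h1 : 1 ≤ H856.B.QQ n Lam := by
    have hn := Nat.cast_nonneg (α := ℝ) n
    have : 1 ≤ Lam ^ 2 := one_le_pow₀ hL
    rw [H856.B.QQ]
    nlinarith
  have h2 : 1 ≤ H856.B.QQ n Lam ^ 7 := one_le_pow₀ h1
  rw [H856.B.CB]
  linarith

theorem cA_one (n : ℕ) {Lam : ℝ} (hL : 1 ≤ Lam) : 1 ≤ cA n Lam := by
  have hn := Nat.cast_nonneg (α := ℝ) n
  have : 1 ≤ Lam ^ 2 := one_le_pow₀ hL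
  rw [cA]
  nlinarith

theorem cE_one (n : ℕ) {Lam : ℝ} (hL : 1 ≤ Lam) : 1 ≤ cE n Lam := CE_one n hL (CB_one n hL)

theorem eps0_pos (n : ℕ) {Lam : ℝ} (hL : 1 ≤ Lam) : 0 < eps0 n Lam := by
  have h1 := cE_one n hL
  have h2 := cA_one n hL
  rw [eps0]; positivity

theorem c0_pos (n : ℕ) {Lam : ℝ} (hL : 1 ≤ Lam) : 0 < c0 n Lam := by
  have h2 := cA_one n hL
  rw [c0]; positivity

theorem eps_a (n : ℕ) {Lam eps : ℝ} (hL : 1 ≤ Lam) (he : eps ≤ eps0 n Lam) :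
    208 * (cE n Lam * cA n Lam ^ 2) * eps ≤ 1 := by
  have h1 := cE_one n hL
  have h2 := cA_one n hL
  have h3 : 0 < 208 * (cE n Lam * cA n Lam ^ 2) := by positivity
  have h4 := mul_le_mul_of_nonneg_left he h3.le
  rw [eps0, mul_one_div, div_self h3.ne'] at h4
  exact h4

theorem eps_b (n : ℕ) {Lam eps : ℝ} (hL : 1 ≤ Lam) (h0 : 0 < eps) (he : eps ≤ eps0 n Lam) :
    H856.B.CB n Lam * eps ^ 2 ≤ 1 := by
  have h1 := CB_one n hL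
  have h2 := cA_one n hL
  have h3 := eps_a n hL he
  have h4 : H856.B.CB n Lam ≤ cE n Lam := by
    rw [cE, CE]
    exact le_mul_of_one_le_left (by linarith) (CE_pre n hL)
  have h5 : 1 ≤ cA n Lam ^ 2 := one_le_pow₀ h2
  have h6 : cE n Lam * eps ≤ 208 * (cE n Lam * cA n Lam ^ 2) * eps := by
    have : 0 ≤ cE n Lam := by linarith
    have h7 : cE n Lam ≤ cE n Lam * cA n Lam ^ 2 := le_mul_of_one_le_right this h5
    have h8 : cE n Lam ≤ 208 * (cE n Lam * cA n Lam ^ 2) := by linarith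
    exact mul_le_mul_of_nonneg_right h8 h0.le
  have h9 : H856.B.CB n Lam * eps ≤ 1 :=
    (mul_le_mul_of_nonneg_right h4 h0.le).trans (h6.trans h3)
  have h10 : eps ≤ 1 := by
    have : 1 * eps ≤ H856.B.CB n Lam * eps := mul_le_mul_of_nonneg_right h1 h0.le
    linarith
  calc H856.B.CB n Lam * eps ^ 2 = (H856.B.CB n Lam * eps) * eps := by ring
    _ ≤ 1 * 1 := mul_le_mul h9 h10 h0.le (by norm_num)
    _ = 1 := by ring

theorem osc_bp (b c : TE E) : (S.osc μ).bp S.EI b c = bp S b c := by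
  rw [Osc.bp, osc_LS, bp]

theorem Mp_eq (b c : TE E) : H856.B.M1 μ S b c = Mp μ S b c := rfl

section
open Vale.Agent.P088.R2.H961.S (Fram)
open Vale.Agent.P088.R2.H676.C (tD)

variable {P : Type} [NormedAddCommGroup P] [NormedSpace ℝ P] {π : E →L[ℝ] P} (F : Fram ι π)
  (E₀ : ℝ) (hE : 0 < E₀) (l φ : P → ℝ) (cl : ContDiff ℝ ∞ l) (cφ : ContDiff ℝ ∞ φ)

theorem tD_e (z : E) : 0 < ((tD F E₀ hE l φ cl cφ).e : E → ℝ) z :=
  mul_pos hE (Real.exp_pos _)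

/-- The weights exist. -/
theorem exists_wd : Nonempty (Wd (tD F E₀ hE l φ cl cφ)) := by
  set T := tD F E₀ hE l φ cl cφ with hT
  have h1 : ∀ z, (mu T : E → ℝ) z ≠ 0 := fun z => by
    have := mu_ge T (tD_e F E₀ hE l φ cl cφ) z
    linarith
  refine ⟨⟨tD_e F E₀ hE l φ cl cφ, ⟨fun z => ((mu T : E → ℝ) z)⁻¹, (scd (mu T)).inv h1⟩, ?_⟩⟩
  ext z
  exact mul_inv_cancel₀ (h1 z)

variable {μ} {F E₀ hE l φ cl cφ}
variable (hn : 3 ≤ Fintype.card ι)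
  (pl : ∀ z (x : ι → ℝ), 0 ≤ ∑ i, ∑ j, ((tD F E₀ hE l φ cl cφ).l2 i j : E → ℝ) z * x i * x j)
  (pφ : ∀ z (x : ι → ℝ), 0 ≤ ∑ i, ∑ j, ((tD F E₀ hE l φ cl cφ).φ2 i j : E → ℝ) z * x i * x j)
  (w : Wd (tD F E₀ hE l φ cl cφ)) {Z : Set E} {N : Sm E} {Lam eps : ℝ}
  (hZ : Zn (tD F E₀ hE l φ cl cφ) Z N Lam eps)
  (hC : H856.B.Zc (tD F E₀ hE l φ cl cφ) Z N Lam)
  (hl : ∀ z ∈ Z, 1 ≤ Lam * ∑ j, ((tD F E₀ hE l φ cl cφ).l1 j : E → ℝ) z ^ 2)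
  (he : eps ≤ eps0 (Fintype.card ι) Lam)
include hZ hC he

omit hZ hC he in
variable (μ) in
theorem core_ok (hn : 3 ≤ Fintype.card ι)
    (pl : ∀ z (x : ι → ℝ), 0 ≤ ∑ i, ∑ j, ((tD F E₀ hE l φ cl cφ).l2 i j : E → ℝ) z * x i * x j)
    (pφ : ∀ z (x : ι → ℝ), 0 ≤ ∑ i, ∑ j, ((tD F E₀ hE l φ cl cφ).φ2 i j : E → ℝ) z * x i * x j)
    {Z : Set E} {N : Sm E} {Lam : ℝ} (hL : 1 ≤ Lam)
    (hC : H856.B.Zc (tD F E₀ hE l φ cl cφ) Z N Lam)
    (hl : ∀ z ∈ Z, 1 ≤ Lam * ∑ j, ((tD F E₀ hE l φ cl cφ).l1 j : E → ℝ) z ^ 2)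
    {b c : TE E} (hs : Su Z c) : M0 μ (tD F E₀ hE l φ cl cφ) b c ≤
      cA (Fintype.card ι) Lam * Qb μ (tD F E₀ hE l φ cl cφ) b c := by
  have hlam : (0 : ℝ) < 1 / Lam := by positivity
  have h1 := H676.C.core_box μ F hn E₀ hE l φ cl cφ pl pφ hlam
    (bp (tD F E₀ hE l φ cl cφ) b c) c (fun z hz => by
      have := hl z (hs hz)
      rw [div_le_iff₀ (by linarith)]
      linarith) (fun z hz => by
      refine (hC.lf z (hs hz)).trans (le_of_eq ?_)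
      exact Finset.sum_congr rfl fun j _ => mul_comm _ _)
  have h2 : min 1 (1 / Lam) = 1 / Lam := min_eq_right (by
    rw [div_le_one (by linarith)]; exact hL)
  rw [h2] at h1
  have h3 : Qb μ (tD F E₀ hE l φ cl cφ) b c = ((tD F E₀ hE l φ cl cφ).osc μ).Q
      (bp (tD F E₀ hE l φ cl cφ) b c) c := by
    rw [Qb, osc_bp]
  have h4 : 1 / Lam / 12 * M0 μ (tD F E₀ hE l φ cl cφ) b c ≤ Qb μ (tD F E₀ hE l φ cl cφ) b c := by
    rw [h3]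
    exact h1
  have hM : 0 ≤ M0 μ (tD F E₀ hE l φ cl cφ) b c := by
    have he0 : ∀ z, 0 ≤ ((tD F E₀ hE l φ cl cφ).e : E → ℝ) z :=
      fun z => (tD_e F E₀ hE l φ cl cφ z).le
    have h1 : 0 ≤ ∑ i, nn μ (tD F E₀ hE l φ cl cφ).e (ep (tD F E₀ hE l φ cl cφ) i b c) :=
      Finset.sum_nonneg fun i _ => nn_nonneg μ he0 _
    have h2 : 0 ≤ nn μ ((tD F E₀ hE l φ cl cφ).e * (tD F E₀ hE l φ cl cφ).e)
        (bp (tD F E₀ hE l φ cl cφ) b c) := nn_nonneg μ (fun z => mul_self_nonneg _) _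
    have h3 : 0 ≤ ∑ i, nn μ 1 ((tD F E₀ hE l φ cl cφ).D i c) :=
      Finset.sum_nonneg fun i _ => nn1_nonneg μ _
    have h4 := nn_nonneg μ he0 c
    rw [M0]
    linarith
  set Q := Qb μ (tD F E₀ hE l φ cl cφ) b c
  set M := M0 μ (tD F E₀ hE l φ cl cφ) b c
  have h5 : M ≤ 12 * Lam * Q := by
    have h6 : M = 12 * Lam * (1 / Lam / 12 * M) := by field_simp
    rw [h6]
    exact mul_le_mul_of_nonneg_left h4 (by positivity)
  have hQ : 0 ≤ Q := by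
    have h7 : 0 ≤ 12 * Lam * Q := hM.trans h5
    exact nonneg_of_mul_nonneg_right h7 (by positivity)
  refine h5.trans (mul_le_mul_of_nonneg_right ?_ hQ)
  have hn0 := Nat.cast_nonneg (α := ℝ) (Fintype.card ι)
  have h8 : Lam ≤ Lam ^ 2 := by nlinarith
  have h9 : 0 ≤ (Fintype.card ι : ℝ) * Lam ^ 2 := by positivity
  rw [cA]
  linarith

/-- The list of bounds in terms of `Mp`. -/
theorem box_bd {b c : TE E} (hb : Su Z b) (hs : Su Z c) :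
    Bd μ (tD F E₀ hE l φ cl cφ) w N b c
      (H856.B.CB (Fintype.card ι) Lam * Mp μ (tD F E₀ hE l φ cl cφ) b c)
      (H856.B.CB (Fintype.card ι) Lam * (nn μ ((tD F E₀ hE l φ cl cφ).e' *
        mu (tD F E₀ hE l φ cl cφ)) (So (tD F E₀ hE l φ cl cφ) c) +
        eps ^ 2 * Mp μ (tD F E₀ hE l φ cl cφ) b c)) :=
  H856.B.bnd μ hZ hC w (eps_b _ hZ.L1 hZ.e0 he) hb hs

include hn pl pφ hl in
/-- **The black box of zone B1.** -/
theorem box {b c s1 s2 s3 s4 : TE E} (hb : Su Z b) (hs : Su Z c) (h3 : Su Z s3) :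
    c0 (Fintype.card ι) Lam * (nn μ 1 s1 + nn μ 1 s2 + nn μ 1 s3 + nn μ 1 s4 +
      Mp μ (tD F E₀ hE l φ cl cφ) b c) ≤
      nn μ 1 s1 + nn μ 1 s2 + nn μ 1 s3 + nn μ 1 s4 +
        (Tf μ (tD F E₀ hE l φ cl cφ) b c - Sq μ (tD F E₀ hE l φ cl cφ) b c) +
        C0 (Fintype.card ι) Lam * cost μ (tD F E₀ hE l φ cl cφ) b c s1 s2 s3 s4 := by
  obtain ⟨w⟩ := exists_wd F E₀ hE l φ cl cφ
  have hA := cA_one (Fintype.card ι) hZ.L1
  refine box_mid w hZ hb hs h3 hA (CB_one _ hZ.L1) ?_ (eps_a _ hZ.L1 he)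
    (core_ok μ hn pl pφ hZ.L1 hC hl hs) (H676.C.cv_TE μ F hn E₀ hE l φ cl cφ pl pφ c)
    (box_bd w hZ hC he hb hs)
  have hn0 := Nat.cast_nonneg (α := ℝ) (Fintype.card ι)
  have h9 : 0 ≤ Lam ^ 2 := sq_nonneg _
  have h10 : 0 ≤ (Fintype.card ι : ℝ) * Lam ^ 2 := mul_nonneg hn0 h9
  rw [cA]
  linarith

end

end Vale.Agent.P088.R2.H593.B
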