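import Vale.Agent.P088.R2.H593.B.Nr

/-!
# Zone B1: the one-cell statement

The black box with operators near the model operators: true `S b`, `R b`, `S c`, `R c` (any
elements near the model ones) in the cost, the true form instead of `Tf - Sq`, and the fifth cost
`∑ ∫ d2 |D_i K_j c|²`.
-/

open MeasureTheory Set
open scoped ContDiff

noncomputable section

namespace Vale.Agent.P088.R2.H593.B

open Vale.Agent.P088.R2.H464.EP Vale.Agent.P088.R2.H961.B.T Vale.Agent.P088.R2.H516.B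
open Vale.Agent.P088.R2.H856.B (QQ)

/-! ## Constants -/

/-- The constant of the list for `c`. -/
def BB (n : ℕ) (Lam : ℝ) : ℝ := 624 * QQ n Lam * H856.B.CB n Lam

/-- The constant of the smallness. -/
def KK (n : ℕ) (Lam Cf : ℝ) : ℝ :=
  3 * Cf * H856.B.CB n Lam + 1504 * C0 n Lam * (((n : ℝ) + 1) ^ 2) ^ 2 * BB n Lam

/-- The smallness of the perturbation. -/
def eta0 (n : ℕ) (Lam Cf : ℝ) : ℝ := c0 n Lam / (2 * (KK n Lam Cf + 1))

/-- The constant of the cost. -/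
def C1 (n : ℕ) (Lam : ℝ) : ℝ := 40 * ((n : ℝ) + 1) ^ 2 * C0 n Lam

theorem QQ_one (n : ℕ) {Lam : ℝ} (hL : 1 ≤ Lam) : 1 ≤ QQ n Lam := by
  have hn := Nat.cast_nonneg (α := ℝ) n
  have : 1 ≤ Lam ^ 2 := one_le_pow₀ hL
  rw [QQ]
  nlinarith

theorem CB_le_BB (n : ℕ) {Lam : ℝ} (hL : 1 ≤ Lam) : H856.B.CB n Lam ≤ BB n Lam := by
  have h1 := CB_one n hL
  have h2 := QQ_one n hL
  rw [BB]
  exact le_mul_of_one_le_left (by linarith) (by linarith)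

theorem BB_ge (n : ℕ) {Lam : ℝ} (hL : 1 ≤ Lam) :
    160 + 464 * QQ n Lam * H856.B.CB n Lam ≤ BB n Lam := by
  have h1 := CB_one n hL
  have h2 := QQ_one n hL
  have h3 : 1 * 1 ≤ QQ n Lam * H856.B.CB n Lam := mul_le_mul h2 h1 (by norm_num) (by linarith)
  rw [BB]
  linarith

theorem C0_nn (n : ℕ) (Lam : ℝ) : 0 ≤ C0 n Lam := by
  rw [C0]
  positivity

theorem c0_le_one (n : ℕ) {Lam : ℝ} (hL : 1 ≤ Lam) : c0 n Lam ≤ 1 := by
  have h1 := cA_one n hL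
  have h2 : 1 ≤ cA n Lam ^ 2 := one_le_pow₀ h1
  rw [c0, div_le_one (by positivity)]
  linarith

theorem KK_nn (n : ℕ) {Lam Cf : ℝ} (hL : 1 ≤ Lam) (hCf : 0 ≤ Cf) : 0 ≤ KK n Lam Cf := by
  have h1 := CB_one n hL
  have h2 := QQ_one n hL
  have h3 := C0_nn n Lam
  have h4 : 0 ≤ BB n Lam := by rw [BB]; positivity
  rw [KK]
  positivity

theorem eta0_pos (n : ℕ) {Lam Cf : ℝ} (hL : 1 ≤ Lam) (hCf : 0 ≤ Cf) : 0 < eta0 n Lam Cf := by
  have h1 := KK_nn n hL hCf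
  have h2 := c0_pos n hL
  rw [eta0]
  positivity

theorem eta0_le (n : ℕ) {Lam Cf eta : ℝ} (hL : 1 ≤ Lam) (hCf : 0 ≤ Cf)
    (h : eta ≤ eta0 n Lam Cf) (h0 : 0 ≤ eta) : eta ≤ 1 ∧ KK n Lam Cf * eta ≤ c0 n Lam / 2 := by
  have h1 := KK_nn n hL hCf
  have h2 := c0_pos n hL
  have h3 := c0_le_one n hL
  rw [eta0, le_div_iff₀ (by positivity)] at h
  constructor
  · nlinarith
  · nlinarith

/-! ## Scalar assembly -/

/-- The scalar part. -/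
theorem cell_num {c0 C0 n2 Cf eta CB BB X Mp G Ft r1 r2 r3 r4 r1' r2' r3' r4' E1 E2 E3 E4 F5 sc
    eps Lb Lc : ℝ} (hC0 : 0 ≤ C0) (hn : 1 ≤ n2) (hCf : 0 ≤ Cf) (h0 : 0 ≤ eta) (h1 : eta ≤ 1)
    (hCB : 0 ≤ CB) (hBB : CB ≤ BB) (hMp : 0 ≤ Mp) (hF5 : 0 ≤ F5)
    (hr : 0 ≤ r1' + r2' + r3' + r4')
    (hbox : c0 * (X + Mp) ≤ X + G + C0 * (r1 + r2 + r3 + r4))
    (hF : |Ft - G| ≤ Cf * eta * (CB * Mp + CB * (sc + eps ^ 2 * Mp))) (hsc : sc ≤ Mp)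
    (he : eps ^ 2 ≤ 1) (a1 : r1 ≤ 2 * r1' + 2 * E1) (a2 : r2 ≤ 2 * r2' + 2 * E2)
    (a3 : r3 ≤ 2 * r3' + 2 * E3) (a4 : r4 ≤ 2 * r4' + 2 * E4)
    (b1 : E1 ≤ 48 * n2 * eta ^ 2 * Lb) (b2 : E2 ≤ 48 * n2 * eta ^ 2 * Lb)
    (b3 : E3 ≤ 48 * n2 * eta ^ 2 * Lc) (b4 : E4 ≤ 20 * n2 * F5 + 44 * n2 * eta ^ 2 * Lc)
    (hLb : Lb ≤ 4 * n2 * (CB * Mp)) (hLc : Lc ≤ 4 * n2 * (BB * Mp))
    (hK : (3 * Cf * CB + 1504 * C0 * n2 ^ 2 * BB) * eta ≤ c0 / 2) :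
    c0 / 2 * (X + Mp) ≤ X + Ft + 40 * n2 * C0 * (r1' + r2' + r3' + r4' + F5) ∨ X < 0 := by
  by_cases hX : X < 0
  · exact Or.inr hX
  left
  push Not at hX
  have hBM : CB * Mp ≤ BB * Mp := mul_le_mul_of_nonneg_right hBB hMp
  have hB0 : 0 ≤ BB * Mp := (mul_nonneg hCB hMp).trans hBM
  have hLb' : Lb ≤ 4 * n2 * (BB * Mp) :=
    hLb.trans (mul_le_mul_of_nonneg_left hBM (by linarith))
  have he2 : eta ^ 2 ≤ eta := by nlinarith
  -- the sum of the errors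
  have q1 : 48 * n2 * eta ^ 2 * Lb ≤ 192 * (n2 ^ 2 * eta ^ 2 * (BB * Mp)) := by
    have := mul_le_mul_of_nonneg_left hLb' (by positivity : 0 ≤ 48 * n2 * eta ^ 2)
    refine this.trans (le_of_eq ?_)
    ring
  have q2 : 48 * n2 * eta ^ 2 * Lc ≤ 192 * (n2 ^ 2 * eta ^ 2 * (BB * Mp)) := by
    have := mul_le_mul_of_nonneg_left hLc (by positivity : 0 ≤ 48 * n2 * eta ^ 2)
    refine this.trans (le_of_eq ?_)
    ring
  have q3 : 44 * n2 * eta ^ 2 * Lc ≤ 176 * (n2 ^ 2 * eta ^ 2 * (BB * Mp)) := by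
    have := mul_le_mul_of_nonneg_left hLc (by positivity : 0 ≤ 44 * n2 * eta ^ 2)
    refine this.trans (le_of_eq ?_)
    ring
  have q4 : n2 ^ 2 * eta ^ 2 * (BB * Mp) ≤ n2 ^ 2 * eta * (BB * Mp) := by
    gcongr
  have s1 : r1 + r2 + r3 + r4 ≤ 2 * (r1' + r2' + r3' + r4') + 40 * n2 * F5 +
      1504 * (n2 ^ 2 * eta * (BB * Mp)) := by linarith
  have s2 := mul_le_mul_of_nonneg_left s1 hC0
  -- the error of the form
  have t1 : CB * Mp + CB * (sc + eps ^ 2 * Mp) ≤ 3 * (CB * Mp) := by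
    have u1 : sc + eps ^ 2 * Mp ≤ 2 * Mp := by
      have := mul_le_mul_of_nonneg_right he hMp
      linarith
    have := mul_le_mul_of_nonneg_left u1 hCB
    linarith
  have t2 := hF.trans (mul_le_mul_of_nonneg_left t1 (mul_nonneg hCf h0))
  have t3 := (abs_le.1 t2).1
  have t4 := mul_le_mul_of_nonneg_right hK hMp
  have t5 : (3 * Cf * CB + 1504 * C0 * n2 ^ 2 * BB) * eta * Mp =
      Cf * eta * (3 * (CB * Mp)) + C0 * (1504 * (n2 ^ 2 * eta * (BB * Mp))) := by ring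
  rw [t5] at t4
  have t6 : C0 * (2 * (r1' + r2' + r3' + r4')) ≤ 40 * n2 * C0 * (r1' + r2' + r3' + r4') := by
    have : C0 * 2 ≤ 40 * n2 * C0 := by nlinarith
    calc _ = (C0 * 2) * (r1' + r2' + r3' + r4') := by ring
      _ ≤ _ := mul_le_mul_of_nonneg_right this hr
  have t7 : C0 * (40 * n2 * F5) = 40 * n2 * C0 * F5 := by ring
  have t8 : 0 ≤ c0 / 2 := by
    refine le_trans (mul_nonneg ?_ h0) hK
    have : 0 ≤ BB := hCB.trans hBB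
    positivity
  have t9 : 0 ≤ c0 / 2 * X := mul_nonneg t8 hX
  have t10 : C0 * (2 * (r1' + r2' + r3' + r4') + 40 * n2 * F5 +
      1504 * (n2 ^ 2 * eta * (BB * Mp))) = C0 * (2 * (r1' + r2' + r3' + r4')) +
        C0 * (40 * n2 * F5) + C0 * (1504 * (n2 ^ 2 * eta * (BB * Mp))) := by ring
  rw [t10] at s2
  linarith

/-! ## The lists -/

variable {ι E : Type} [Fintype ι] [DecidableEq ι] [NormedAddCommGroup E] [NormedSpace ℝ E]
  [MeasurableSpace E] [BorelSpace E] [FiniteDimensional ℝ E]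
  (μ : Measure E) [μ.IsAddHaarMeasure] {S : Dat ι E} (w : Wd S) {Z : Set E} {N : Sm E}
  {Lam eps : ℝ}

theorem cardS : (Fintype.card (ι ⊕ ι) : ℝ) = 2 * Fintype.card ι := by
  rw [Fintype.card_sum, Nat.cast_add]; ring

theorem sum_le_c {κ : Type*} [Fintype κ] {f : κ → ℝ} {M : ℝ} (h : ∀ k, f k ≤ M) :
    ∑ k, f k ≤ Fintype.card κ * M := by
  calc ∑ k, f k ≤ ∑ _k : κ, M := Finset.sum_le_sum fun k _ => h k
    _ = _ := by rw [Finset.sum_const, Finset.card_univ, nsmul_eq_mul]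

theorem Lb_le {b c : TE E} {M MS : ℝ} (hB : Bd μ S w N b c M MS) (hM : 0 ≤ M) :
    Lb μ w b ≤ 4 * ((Fintype.card ι : ℝ) + 1) ^ 2 * M := by
  have h1 : ∀ k, nn μ (S.e * w.mi) (AA S k b) ≤ M := by
    intro k
    rcases k with i | i
    · rw [AA, H856.B.Ak_inl]; exact hB.b1 0 i
    · rw [AA, H856.B.Ak_inr]; exact hB.b1 2 i
  have h2 : ∀ k l, nn μ (w.mi * w.mi) (AA S k (AA S l b)) ≤ M := by
    intro k l
    rcases k with i | i <;> rcases l with j | j <;>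
      simp only [AA, H856.B.Ak_inl, H856.B.Ak_inr]
    · exact hB.b2 0 i 0 j
    · exact hB.b2 0 i 2 j
    · exact hB.b2 2 i 0 j
    · exact hB.b2 2 i 2 j
  have s1 := sum_le_c h1
  have s2 := sum_le_c fun k => sum_le_c (h2 k)
  rw [cardS] at s1 s2
  have s3 := hB.b0
  have hn := Nat.cast_nonneg (α := ℝ) (Fintype.card ι)
  have hnM := mul_nonneg hn hM
  rw [Lb]
  have : 4 * ((Fintype.card ι : ℝ) + 1) ^ 2 * M =
      2 * (Fintype.card ι : ℝ) * (2 * Fintype.card ι * M) + 8 * (Fintype.card ι * M) + 4 * M := by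
    ring
  rw [this]
  linarith

theorem KD (i j : ι) (c : TE E) : S.K i (S.D j c) = S.D j (S.K i c) := by
  have h := LinearMap.congr_fun (Ak_comm (H856.B.vv S) S.w (Sum.inr i) (Sum.inl j)) c
  simp only [Module.End.mul_apply, H856.B.Ak_inl, H856.B.Ak_inr] at h
  exact h

theorem AKc_le (hZ : Zn S Z N Lam eps) (hC : H856.B.Zc S Z N Lam) {b c : TE E} (hc : Su Z c)
    {M MS Mq : ℝ} (hB : Bd μ S w N b c M MS) (hS : nn μ (S.e' * mu S) (So S c) ≤ Mq)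
    (k : ι ⊕ ι) (i : ι) : nn μ (S.e' * mu S) (AA S k (S.K i c)) ≤
      160 * Mq + 464 * QQ (Fintype.card ι) Lam * M := by
  have h1 := H856.B.KA_le μ hZ hC w hc k i
  have h2 := (hB.c1K i).1
  have h3 := QQ_one (Fintype.card ι) hZ.L1
  have h4 := H856.B.nn_nonneg μ (H856.B.wt_emi w).1 (S.K i c)
  have h5 : eps ^ 2 ≤ 1 := pow_le_one₀ hZ.e0.le hZ.e1
  have h6 : 464 * QQ (Fintype.card ι) Lam * eps ^ 2 * nn μ (S.e * w.mi) (S.K i c) ≤
      464 * QQ (Fintype.card ι) Lam * 1 * M := by gcongr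
  have h7 : nn μ (S.e' * mu S) (AA S k (S.K i c)) ≤ _ := h1
  linarith

theorem AAc_le (hZ : Zn S Z N Lam eps) (hC : H856.B.Zc S Z N Lam) {b c : TE E} (hc : Su Z c)
    {M MS Mq : ℝ} (hM : 0 ≤ M) (hB : Bd μ S w N b c M MS)
    (hS : nn μ (S.e' * mu S) (So S c) ≤ Mq) (k l : ι ⊕ ι) :
    nn μ (S.e' * w.mi) (AA S k (AA S l c)) ≤ 160 * Mq + 464 * QQ (Fintype.card ι) Lam * M := by
  have h3 := QQ_one (Fintype.card ι) hZ.L1
  have hq : 0 ≤ Mq := (H856.B.nn_nonneg μ (H856.B.wt_e'mu w).1 _).trans hS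
  have hmn : ∀ f : TE E, nn μ (S.e' * w.mi) f ≤ nn μ (S.e' * mu S) f := fun f => by
    refine nn_mono μ fun z _ => ?_
    rw [H856.B.sm_mul, H856.B.sm_mul]
    have h8 := H856.B.mi_le w z
    have h9 := H856.B.mu_ge w z
    have h10 := H856.B.e'_pos w z
    gcongr
    linarith
  have hK := fun k i => (hmn _).trans (AKc_le μ w hZ hC hc hB hS k i)
  rcases l with j | j
  · rcases k with i | i
    · simp only [AA, H856.B.Ak_inl]
      have := (hB.c2 i j).1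
      have h4 : M ≤ QQ (Fintype.card ι) Lam * M := le_mul_of_one_le_left hM h3
      linarith
    · have h5 := hK (Sum.inl j) i
      simp only [AA, H856.B.Ak_inl, H856.B.Ak_inr] at h5 ⊢
      rw [KD]
      exact h5
  · have h5 := hK k j
    simp only [AA, H856.B.Ak_inr] at h5 ⊢
    exact h5

theorem Lc_le (hZ : Zn S Z N Lam eps) (hC : H856.B.Zc S Z N Lam) {b c : TE E} (hc : Su Z c)
    {M MS Mq B : ℝ} (hM : 0 ≤ M) (hB : Bd μ S w N b c M MS)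
    (hS : nn μ (S.e' * mu S) (So S c) ≤ Mq) (h1 : M ≤ B)
    (h2 : 160 * Mq + 464 * QQ (Fintype.card ι) Lam * M ≤ B) :
    Lc μ w c ≤ 4 * ((Fintype.card ι : ℝ) + 1) ^ 2 * B := by
  have hB0 : 0 ≤ B := hM.trans h1
  have a1 : ∀ k, nn μ 1 (AA S k c) ≤ B := by
    intro k
    rcases k with i | i
    · rw [AA, H856.B.Ak_inl]; exact (hB.c1 i).1.trans h1
    · rw [AA, H856.B.Ak_inr]
      refine le_trans ?_ ((hB.c1K i).1.trans h1)
      refine H856.B.nn_mono μ (Z := Z)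
        (by rw [← H856.B.Ak_inr]; exact H856.B.su_Ak _ _ _ hc) fun z hz => ?_
      rw [H856.B.sm_one, H856.B.sm_mul, ← H856.B.mi_val w z]
      have h9 := H856.B.e_ge w hZ hz
      have h10 := H856.B.mi_pos w z
      gcongr
  have a2 : ∀ k l, nn μ (S.e' * w.mi) (AA S k (AA S l c)) ≤ B := fun k l =>
    (AAc_le μ w hZ hC hc hM hB hS k l).trans h2
  have a3 : ∀ j, nn μ (S.e * w.mi) (S.K j c) ≤ B := fun j => (hB.c1K j).1.trans h1
  have a4 : nn μ (S.e * w.mi) c ≤ B := by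
    refine le_trans ?_ (hB.c0.trans h1)
    refine H856.B.nn_mono μ hc fun z hz => ?_
    have e1 : ((S.e * w.mi * (N + mu S) ^ 2 : Sm E) : E → ℝ) z =
      (S.e : E → ℝ) z * (w.mi : E → ℝ) z * ((N : E → ℝ) z + (mu S : E → ℝ) z) ^ 2 := rfl
    rw [e1, H856.B.sm_mul]
    have h4 := (H856.B.mi_pos w z).le
    have h5 := (w.he z).le
    have h6 := H856.B.mu_ge w z
    have h7 := hZ.N0 z hz
    exact le_mul_of_one_le_right (mul_nonneg h5 h4) (one_le_pow₀ (by linarith))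
  have s1 := sum_le_c a1
  have s2 := sum_le_c fun k => sum_le_c (a2 k)
  have s3 := sum_le_c a3
  rw [cardS] at s1 s2
  have hn := Nat.cast_nonneg (α := ℝ) (Fintype.card ι)
  have hnM := mul_nonneg hn hB0
  rw [Lc]
  have : 4 * ((Fintype.card ι : ℝ) + 1) ^ 2 * B =
      2 * (Fintype.card ι : ℝ) * (2 * Fintype.card ι * B) + 8 * (Fintype.card ι * B) + 4 * B := by
    ring
  rw [this]
  linarith

theorem nn_tri {θ : Sm E} (hθ : ∀ z, 0 ≤ (θ : E → ℝ) z) (f x s : TE E) :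
    nn μ θ (f - s) ≤ 2 * nn μ θ (x - s) + 2 * nn μ θ (x - f) := by
  have h := H856.B.nn_sub_le μ hθ (x - s) (x - f)
  have e : x - s - (x - f) = f - s := by abel
  rwa [e] at h

/-! ## The one-cell statement -/

theorem su_So {f : TE E} (hf : Su Z f) : Su Z (So S f) := by
  rw [← H856.B.Sk_vv]
  exact H856.B.su_Sk _ _ _ hf

theorem su_Ro {f : TE E} (hf : Su Z f) : Su Z (Ro S f) := by
  rw [Ro, LinearMap.sum_apply]
  refine H856.B.su_sum _ fun i _ => ?_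
  rw [Module.End.mul_apply, ← H856.B.Ak_inl, ← H856.B.Ak_inr]
  exact H856.B.su_Ak _ _ _ (H856.B.su_Ak _ _ _ hf)

/-- The one-cell statement from the black box and the list of bounds. -/
theorem cell_mid (hZ : Zn S Z N Lam eps) (hC : H856.B.Zc S Z N Lam) {Cf eta : ℝ} (hCf : 0 ≤ Cf)
    (heta : 0 ≤ eta) (hη : eta ≤ eta0 (Fintype.card ι) Lam Cf)
    {del h : E → ℝ} (hs : Sz S Z del h eta) {d2 : Sm E}
    (hd2 : ∀ z ∈ Z, del z ^ 2 ≤ (d2 : E → ℝ) z) (hd2' : ∀ z, 0 ≤ (d2 : E → ℝ) z)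
    {b c s1 s2 s3 s4 xb yb xc yc : TE E} (hb : Su Z b) (hc : Su Z c)
    (nxb : NrS S Z del h b xb) (nyb : NrR S Z del h b yb)
    (nxc : NrS S Z del h c xc) (nyc : NrR S Z del h c yc)
    (hbox : c0 (Fintype.card ι) Lam * (nn μ 1 s1 + nn μ 1 s2 + nn μ 1 s3 + nn μ 1 s4 +
      Mp μ S b c) ≤ nn μ 1 s1 + nn μ 1 s2 + nn μ 1 s3 + nn μ 1 s4 +
        (Tf μ S b c - Sq μ S b c) + C0 (Fintype.card ι) Lam * cost μ S b c s1 s2 s3 s4)
    (hBd : Bd μ S w N b c (H856.B.CB (Fintype.card ι) Lam * Mp μ S b c)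
      (H856.B.CB (Fintype.card ι) Lam *
        (nn μ (S.e' * mu S) (So S c) + eps ^ 2 * Mp μ S b c)))
    {Ft : ℝ} (hF : ∀ M MS, Bd μ S w N b c M MS →
      |Ft - (Tf μ S b c - Sq μ S b c)| ≤ Cf * eta * (M + MS)) :
    c0 (Fintype.card ι) Lam / 2 * (nn μ 1 s1 + nn μ 1 s2 + nn μ 1 s3 + nn μ 1 s4 +
      Mp μ S b c) ≤ nn μ 1 s1 + nn μ 1 s2 + nn μ 1 s3 + nn μ 1 s4 + Ft +
        C1 (Fintype.card ι) Lam * (nn μ 1 (xb - s1) + nn μ 1 (yb - s2) +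
          nn μ (S.e' * mu S) (xc - s3) + nn μ 1 (yc - s4) + F5 μ S d2 c) := by
  have hL := hZ.L1
  rw [cost] at hbox
  have hMp := Mp_nonneg μ S w.he b c
  have hCB := CB_one (Fintype.card ι) hL
  have hM0 : 0 ≤ H856.B.CB (Fintype.card ι) Lam * Mp μ S b c :=
    mul_nonneg (by linarith) hMp
  have hsc : nn μ (S.e' * mu S) (So S c) ≤ Mp μ S b c := (H856.B.M1_parts μ w b c).2.2.2
  obtain ⟨e1, e2⟩ := eta0_le (Fintype.card ι) hL hCf hη heta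
  have w1 : ∀ z, 0 ≤ ((1 : Sm E) : E → ℝ) z := H856.B.one_nn
  have w3 := (H856.B.wt_e'mu w).1
  have b1 := dS_b w μ hZ hs (H856.B.su_sub nxb.su (su_So hb)) fun z hz => by
    rw [TE.sub_fn]; exact nxb.le z hz
  have b2 := dS_b w μ hZ hs (f := b) (H856.B.su_sub nyb.su (su_Ro hb)) fun z hz => by
    rw [TE.sub_fn]; exact dR_pw w hZ hs hz (nyb.le z hz)
  have b3 := dS_c w μ hZ hs (H856.B.su_sub nxc.su (su_So hc)) fun z hz => by
    rw [TE.sub_fn]; exact nxc.le z hz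
  have b4 := dR_c w μ hZ hs hd2 hd2' (H856.B.su_sub nyc.su (su_Ro hc)) fun z hz => by
    rw [TE.sub_fn]; exact nyc.le z hz
  have l1 := Lb_le μ w hBd hM0
  have hBB : H856.B.CB (Fintype.card ι) Lam * Mp μ S b c ≤
      BB (Fintype.card ι) Lam * Mp μ S b c :=
    mul_le_mul_of_nonneg_right (CB_le_BB _ hL) hMp
  have hBB2 : 160 * Mp μ S b c + 464 * QQ (Fintype.card ι) Lam *
      (H856.B.CB (Fintype.card ι) Lam * Mp μ S b c) ≤ BB (Fintype.card ι) Lam * Mp μ S b c := by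
    have := mul_le_mul_of_nonneg_right (BB_ge (Fintype.card ι) hL) hMp
    linarith
  have l2 := Lc_le μ w hZ hC hc hM0 hBd hsc hBB hBB2
  have hn1 : (1 : ℝ) ≤ ((Fintype.card ι : ℝ) + 1) ^ 2 := by
    have := Nat.cast_nonneg (α := ℝ) (Fintype.card ι)
    exact one_le_pow₀ (by linarith)
  have hF5 : 0 ≤ F5 μ S d2 c := Finset.sum_nonneg fun i _ => Finset.sum_nonneg fun j _ =>
    nn_nonneg μ hd2' _
  have hr : 0 ≤ nn μ 1 (xb - s1) + nn μ 1 (yb - s2) + nn μ (S.e' * mu S) (xc - s3) +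
      nn μ 1 (yc - s4) := by
    have := nn_nonneg μ w1 (xb - s1)
    have := nn_nonneg μ w1 (yb - s2)
    have := nn_nonneg μ w3 (xc - s3)
    have := nn_nonneg μ w1 (yc - s4)
    linarith
  have hX : 0 ≤ nn μ 1 s1 + nn μ 1 s2 + nn μ 1 s3 + nn μ 1 s4 := by
    have := nn_nonneg μ w1 s1
    have := nn_nonneg μ w1 s2
    have := nn_nonneg μ w1 s3
    have := nn_nonneg μ w1 s4
    linarith
  rcases cell_num (C0_nn _ _) hn1 hCf heta e1 (by linarith) (CB_le_BB (Fintype.card ι) hL) hMp hF5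
    hr hbox (hF _ _ hBd) hsc (pow_le_one₀ hZ.e0.le hZ.e1) (nn_tri μ w1 _ xb s1)
    (nn_tri μ w1 _ yb s2) (nn_tri μ w3 _ xc s3) (nn_tri μ w1 _ yc s4) b1 b2 b3 b4 l1 l2 e2
    with h | h
  · rw [C1]
    exact h
  · linarith

section
open Vale.Agent.P088.R2.H961.S (Fram)
open Vale.Agent.P088.R2.H676.C (tD)

variable {P : Type} [NormedAddCommGroup P] [NormedSpace ℝ P] {π : E →L[ℝ] P} {F : Fram ι π}
  {E₀ : ℝ} {hE : 0 < E₀} {l φ : P → ℝ} {cl : ContDiff ℝ ∞ l} {cφ : ContDiff ℝ ∞ φ}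

omit w in
/-- **The one-cell statement.** -/
theorem cell (hn : 3 ≤ Fintype.card ι)
    (pl : ∀ z (x : ι → ℝ), 0 ≤ ∑ i, ∑ j, ((tD F E₀ hE l φ cl cφ).l2 i j : E → ℝ) z * x i * x j)
    (pφ : ∀ z (x : ι → ℝ), 0 ≤ ∑ i, ∑ j, ((tD F E₀ hE l φ cl cφ).φ2 i j : E → ℝ) z * x i * x j)
    (w : Wd (tD F E₀ hE l φ cl cφ))
    (hZ : Zn (tD F E₀ hE l φ cl cφ) Z N Lam eps)
    (hC : H856.B.Zc (tD F E₀ hE l φ cl cφ) Z N Lam)
    (hl : ∀ z ∈ Z, 1 ≤ Lam * ∑ j, ((tD F E₀ hE l φ cl cφ).l1 j : E → ℝ) z ^ 2)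
    (he : eps ≤ eps0 (Fintype.card ι) Lam)
    {Cf eta : ℝ} (hCf : 0 ≤ Cf) (heta : 0 ≤ eta) (hη : eta ≤ eta0 (Fintype.card ι) Lam Cf)
    {del h : E → ℝ} (hs : Sz (tD F E₀ hE l φ cl cφ) Z del h eta) {d2 : Sm E}
    (hd2 : ∀ z ∈ Z, del z ^ 2 ≤ (d2 : E → ℝ) z) (hd2' : ∀ z, 0 ≤ (d2 : E → ℝ) z)
    {b c s1 s2 s3 s4 xb yb xc yc : TE E} (hb : Su Z b) (hc : Su Z c) (h3 : Su Z s3)
    (nxb : NrS (tD F E₀ hE l φ cl cφ) Z del h b xb) (nyb : NrR (tD F E₀ hE l φ cl cφ) Z del h b yb)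
    (nxc : NrS (tD F E₀ hE l φ cl cφ) Z del h c xc) (nyc : NrR (tD F E₀ hE l φ cl cφ) Z del h c yc)
    {Ft : ℝ} (hF : ∀ M MS, Bd μ (tD F E₀ hE l φ cl cφ) w N b c M MS →
      |Ft - (Tf μ (tD F E₀ hE l φ cl cφ) b c - Sq μ (tD F E₀ hE l φ cl cφ) b c)| ≤
        Cf * eta * (M + MS)) :
    c0 (Fintype.card ι) Lam / 2 * (nn μ 1 s1 + nn μ 1 s2 + nn μ 1 s3 + nn μ 1 s4 +
      Mp μ (tD F E₀ hE l φ cl cφ) b c) ≤
      nn μ 1 s1 + nn μ 1 s2 + nn μ 1 s3 + nn μ 1 s4 + Ft +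
        C1 (Fintype.card ι) Lam * (nn μ 1 (xb - s1) + nn μ 1 (yb - s2) +
          nn μ ((tD F E₀ hE l φ cl cφ).e' * mu (tD F E₀ hE l φ cl cφ)) (xc - s3) +
          nn μ 1 (yc - s4) + F5 μ (tD F E₀ hE l φ cl cφ) d2 c) :=
  cell_mid μ w hZ hC hCf heta hη hs hd2 hd2' hb hc nxb nyb nxc nyc
    (box (μ := μ) hn pl pφ hZ hC hl he hb hc h3) (box_bd (μ := μ) w hZ hC he hb hc) hF

omit w in
/-- The second derivatives `A_k K_i c`. -/
theorem cell_AK (w : Wd (tD F E₀ hE l φ cl cφ))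
    (hZ : Zn (tD F E₀ hE l φ cl cφ) Z N Lam eps)
    (hC : H856.B.Zc (tD F E₀ hE l φ cl cφ) Z N Lam)
    (he : eps ≤ eps0 (Fintype.card ι) Lam)
    {b c : TE E} (hb : Su Z b) (hc : Su Z c) (k : ι ⊕ ι) (i : ι) :
    nn μ ((tD F E₀ hE l φ cl cφ).e' * mu (tD F E₀ hE l φ cl cφ))
      (AA (tD F E₀ hE l φ cl cφ) k ((tD F E₀ hE l φ cl cφ).K i c)) ≤
        BB (Fintype.card ι) Lam * Mp μ (tD F E₀ hE l φ cl cφ) b c := by
  have hMp := Mp_nonneg μ (tD F E₀ hE l φ cl cφ) w.he b c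
  have h1 := AKc_le μ w hZ hC hc (box_bd (μ := μ) w hZ hC he hb hc)
    (Mq := Mp μ (tD F E₀ hE l φ cl cφ) b c) (H856.B.M1_parts μ w b c).2.2.2 k i
  have h2 := mul_le_mul_of_nonneg_right (BB_ge (Fintype.card ι) hZ.L1) hMp
  linarith

end

end Vale.Agent.P088.R2.H593.B
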