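import Vale.Agent.P088.R2.H593.B.Asm
import Vale.Agent.P088.R2.H961.F.Bd
import Vale.Agent.P088.R2.H856.B.Wgt
import Vale.Agent.P088.R2.H551.E.Dens

/-!
# Zone B1: dictionary between the slots (`Sl`) and the operators on test functions (`TE`)

`slo X s`: the slot with directions `X i`, metric `s`, scale `1`. `P`, `Q` of the slot are `Pv W`,
`Pv (-W)`. For the model `X = a + b / 2`, `Y = -a + b / 2`: `P_x = S + R`, `P_y = S - R`, and
`∫ sta = 4 (Tf - Sq)`.
-/

open MeasureTheory Set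
open scoped ContDiff

noncomputable section

namespace Vale.Agent.P088.R2.H593.B

open Vale.Agent.P088.HY.H593W
open Vale.Agent.P088.R2.H464.EP Vale.Agent.P088.R2.H961.B.T Vale.Agent.P088.R2.H516.B
open Vale.Agent.P088.R2.H961.GW (Sl)
open Vale.Agent.P088.R2.H961.F (dd Pv Pv_exp al be Xv Yv id1 dd_X dd_Y)

variable {ι E : Type} [NormedAddCommGroup E] [NormedSpace ℝ E]

/-- The slot with directions `X i` and metric `s`. -/
def slo (X : ι → E) (s : ι → ι → Sm E) : Sl E ι where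
  ρ _ := 1
  e := X
  s i j := (s i j : E → ℝ)
  k _ _ := 0

variable (X : ι → E) (s : ι → ι → Sm E)

theorem slo_DT (i : ι) (x : TE E) : (slo X s).D i x.fn = (dv (X i) x).fn :=
  funext fun _ => one_mul _

theorem slo_DS (i : ι) (g : Sm E) : (slo X s).D i (g : E → ℝ) = (ds (X i) g : E → ℝ) :=
  funext fun _ => one_mul _

theorem dd_zero (v : E) : dd (0 : Sm E) v = dv v := by
  rw [dd, map_zero, map_zero, add_zero]

variable [Fintype ι]

/-- `P` of the slot at a point. -/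
theorem P_pt (v W : Sm E) (x : TE E) (z : E) :
    (slo X s).P (v : E → ℝ) (W : E → ℝ) x.fn z =
      ∑ i, ∑ j, ((s i j : E → ℝ) z * ((dv (X i) (dv (X j) x)).fn z +
        2 * ((ds (X i) W : E → ℝ) z * (dv (X j) x).fn z) +
        (ds (X i) (ds (X j) W) : E → ℝ) z * x.fn z +
        (ds (X i) W : E → ℝ) z * (ds (X j) W : E → ℝ) z * x.fn z) +
        (ds (X i) (s i j) : E → ℝ) z * ((dv (X j) x).fn z + (ds (X j) W : E → ℝ) z * x.fn z)) +
      (v : E → ℝ) z * x.fn z := by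
  have e1 : ∀ i j, (slo X s).D i ((s i j : E → ℝ)) z = (ds (X i) (s i j) : E → ℝ) z :=
    fun i j => congrFun (slo_DS X s i (s i j)) z
  have e2 : ∀ i j, (slo X s).s i j = (s i j : E → ℝ) := fun _ _ => rfl
  have e3 : ∀ i z, (slo X s).k i z = 0 := fun _ _ => rfl
  unfold Sl.P Sl.K Sl.F Sl.Γ Sl.Λ
  simp only [slo_DT, slo_DS, e1, e2, e3, zero_mul, add_zero, Finset.mul_sum, Finset.sum_mul]
  have key : ∀ A V K F : ℝ, A + V + K + F = A + K + F + V := by intros; ring
  rw [key]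
  congr 1
  simp only [← Finset.sum_add_distrib]
  refine Finset.sum_congr rfl fun i _ => Finset.sum_congr rfl fun j _ => ?_
  ring

/-- `Q` of the slot at a point. -/
theorem Q_pt (v W : Sm E) (x : TE E) (z : E) :
    (slo X s).Q (v : E → ℝ) (W : E → ℝ) x.fn z =
      ∑ i, ∑ j, ((s i j : E → ℝ) z * ((dv (X i) (dv (X j) x)).fn z -
        2 * ((ds (X i) W : E → ℝ) z * (dv (X j) x).fn z) -
        (ds (X i) (ds (X j) W) : E → ℝ) z * x.fn z +
        (ds (X i) W : E → ℝ) z * (ds (X j) W : E → ℝ) z * x.fn z) +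
        (ds (X i) (s i j) : E → ℝ) z * ((dv (X j) x).fn z - (ds (X j) W : E → ℝ) z * x.fn z)) +
      (v : E → ℝ) z * x.fn z := by
  have e1 : ∀ i j, (slo X s).D i ((s i j : E → ℝ)) z = (ds (X i) (s i j) : E → ℝ) z :=
    fun i j => congrFun (slo_DS X s i (s i j)) z
  have e2 : ∀ i j, (slo X s).s i j = (s i j : E → ℝ) := fun _ _ => rfl
  have e3 : ∀ i z, (slo X s).k i z = 0 := fun _ _ => rfl
  unfold Sl.Q Sl.K Sl.F Sl.Γ Sl.Λ
  simp only [slo_DT, slo_DS, e1, e2, e3, zero_mul, add_zero, Finset.mul_sum, Finset.sum_mul]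
  have key : ∀ A V K F : ℝ, A + V - K + F = A - K + F + V := by intros; ring
  rw [key]
  congr 1
  simp only [← Finset.sum_add_distrib, ← Finset.sum_sub_distrib]
  refine Finset.sum_congr rfl fun i _ => Finset.sum_congr rfl fun j _ => ?_
  ring

/-- `Pv` at a point. -/
theorem Pv_pt (hs : ∀ i j, s i j = s j i) (v W : Sm E) (x : TE E) (z : E) :
    (Pv W X s v x).fn z =
      ∑ i, ∑ j, ((s i j : E → ℝ) z * ((dv (X i) (dv (X j) x)).fn z +
        2 * ((ds (X i) W : E → ℝ) z * (dv (X j) x).fn z) +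
        (ds (X i) (ds (X j) W) : E → ℝ) z * x.fn z +
        (ds (X i) W : E → ℝ) z * (ds (X j) W : E → ℝ) z * x.fn z) +
        (ds (X i) (s i j) : E → ℝ) z * ((dv (X j) x).fn z + (ds (X j) W : E → ℝ) z * x.fn z)) +
      (v : E → ℝ) z * x.fn z := by
  have e1 : ∀ i j, ((al X s W i j : Sm E) : E → ℝ) z = (ds (X i) (s i j) : E → ℝ) z +
      2 * ((s i j : E → ℝ) z * (ds (X i) W : E → ℝ) z) := fun i j => by
    rw [al, H856.B.sm_add, H856.B.sm_mul, H856.B.sm_mul, H856.B.sm_two]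
  have e2 : ∀ i j, ((be X s W i j : Sm E) : E → ℝ) z =
      (s i j : E → ℝ) z * ((ds (X i) W : E → ℝ) z * (ds (X j) W : E → ℝ) z) +
        ((ds (X i) (s i j) : E → ℝ) z * (ds (X j) W : E → ℝ) z +
          (s i j : E → ℝ) z * (ds (X i) (ds (X j) W) : E → ℝ) z) := fun i j => by
    rw [be, H856.B.sm_add, H856.B.sm_add, H856.B.sm_mul, H856.B.sm_mul, H856.B.sm_mul,
      H856.B.sm_mul]
  rw [Pv_exp W 0 X hs v, sub_zero]
  simp only [LinearMap.add_apply, LinearMap.sum_apply, Module.End.mul_apply, TE.add_fn, sum_fn,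
    ml_apply, dd_zero, e1, e2]
  rw [← add_assoc]
  congr 1
  simp only [← Finset.sum_add_distrib]
  refine Finset.sum_congr rfl fun i _ => Finset.sum_congr rfl fun j _ => ?_
  ring

/-- `P` of the slot. -/
theorem P_slo (hs : ∀ i j, s i j = s j i) (v W : Sm E) (x : TE E) :
    (slo X s).P (v : E → ℝ) (W : E → ℝ) x.fn = (Pv W X s v x).fn :=
  funext fun z => by rw [P_pt, Pv_pt X s hs]

/-- `Q` of the slot. -/
theorem Q_slo (hs : ∀ i j, s i j = s j i) (v W : Sm E) (x : TE E) :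
    (slo X s).Q (v : E → ℝ) (W : E → ℝ) x.fn = (Pv (-W) X s v x).fn :=
  funext fun z => by
    rw [Q_pt, Pv_pt X s hs]
    congr 1
    refine Finset.sum_congr rfl fun i _ => Finset.sum_congr rfl fun j _ => ?_
    simp only [map_neg, H856.B.sm_neg]
    ring

/-! ## The model -/

section model

variable [DecidableEq ι]

omit [Fintype ι] in
theorem id1_symm (i j : ι) : (id1 i j : Sm E) = id1 j i := by
  unfold id1
  simp only [eq_comm]

theorem Pv_id (W : Sm E) : Pv W X id1 0 = ∑ i, dd W (X i) * dd W (X i) := by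
  unfold Pv
  rw [map_zero, add_zero]
  refine Finset.sum_congr rfl fun i _ => ?_
  rw [Finset.sum_eq_single i]
  · rw [id1, if_pos rfl, map_one, mul_one]
  · intro j _ hj
    rw [id1, if_neg (Ne.symm hj), map_zero, mul_zero, zero_mul]
  · intro h
    exact absurd (Finset.mem_univ i) h

variable (S : Dat ι E)

omit [Fintype ι] in
theorem dd_neg (W : Sm E) (v : E) : dd (-W) v = dv v - ml (ds v W) := by
  rw [dd, map_neg, map_neg, sub_eq_add_neg]

theorem dd_a (i : ι) : dd S.w (S.a i) = S.D i := by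
  rw [← H856.B.Ak_inl S i]; rfl

theorem dd_b (i : ι) : dd S.w (S.b i) = S.K i := by
  rw [← H856.B.Ak_inr S i]; rfl

theorem dd_an (i : ι) : dd (-S.w) (S.a i) = -S.Ds i := by
  rw [← H856.B.As_inl S i, dd_neg, H856.B.As, H856.B.vv, Sum.elim_inl]; abel

theorem dd_bn (i : ι) : dd (-S.w) (S.b i) = -S.Ks i := by
  rw [← H856.B.As_inr S i, dd_neg, H856.B.As, H856.B.vv, Sum.elim_inr]; abel

theorem sq_add' {A B : Op E} (h : B * A = A * B) :
    (A + (1 / 2 : ℝ) • B) * (A + (1 / 2 : ℝ) • B) = A * A + (1 / 4 : ℝ) • (B * B) + A * B := by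
  rw [add_mul, mul_add, mul_add, smul_mul_assoc, smul_mul_assoc, mul_smul_comm, mul_smul_comm, h]
  module

theorem sq_sub' {A B : Op E} (h : B * A = A * B) :
    (-A + (1 / 2 : ℝ) • B) * (-A + (1 / 2 : ℝ) • B) =
      A * A + (1 / 4 : ℝ) • (B * B) - A * B := by
  rw [add_mul, mul_add, mul_add, smul_mul_assoc, smul_mul_assoc, mul_smul_comm, mul_smul_comm,
    neg_mul_neg, neg_mul, mul_neg, h]
  module

/-- `P_x = S + R`. -/
theorem Px_model : Pv S.w (Xv S.a S.b) id1 0 = So S + Ro S := by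
  rw [Pv_id, So, Ro, Dat.D2, K2, Finset.smul_sum, ← Finset.sum_add_distrib,
    ← Finset.sum_add_distrib]
  refine Finset.sum_congr rfl fun i _ => ?_
  rw [dd_X, dd_a, dd_b]
  exact sq_add' (S.K_D i i)

/-- `P_y = S - R`. -/
theorem Py_model : Pv S.w (Yv S.a S.b) id1 0 = So S - Ro S := by
  rw [Pv_id, So, Ro, Dat.D2, K2, Finset.smul_sum, ← Finset.sum_add_distrib,
    ← Finset.sum_sub_distrib]
  refine Finset.sum_congr rfl fun i _ => ?_
  rw [dd_Y, dd_a, dd_b]
  exact sq_sub' (S.K_D i i)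

/-- `S^*`. -/
def Ss (S : Dat ι E) : Op E := S.Ds2 + (1 / 4 : ℝ) • K2s S

theorem Ks_Ds (i : ι) : S.Ks i * S.Ds i = S.Ds i * S.Ks i := by
  have h := H961.F.dd_comm (-S.w) (S.b i) (S.a i)
  rwa [dd_an, dd_bn, neg_mul_neg, neg_mul_neg] at h

/-- `Q_x = S^* + R^*`. -/
theorem Qx_model : Pv (-S.w) (Xv S.a S.b) id1 0 = Ss S + Rs S := by
  rw [Pv_id, Ss, Rs, Dat.Ds2, K2s, Finset.smul_sum, ← Finset.sum_add_distrib,
    ← Finset.sum_add_distrib]
  refine Finset.sum_congr rfl fun i _ => ?_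
  rw [dd_X, dd_an, dd_bn, ← sq_add' (Ks_Ds S i)]
  rw [show -S.Ds i + (1 / 2 : ℝ) • -S.Ks i = -(S.Ds i + (1 / 2 : ℝ) • S.Ks i) by module,
    neg_mul_neg]

/-- `Q_y = S^* - R^*`. -/
theorem Qy_model : Pv (-S.w) (Yv S.a S.b) id1 0 = Ss S - Rs S := by
  rw [Pv_id, Ss, Rs, Dat.Ds2, K2s, Finset.smul_sum, ← Finset.sum_add_distrib,
    ← Finset.sum_sub_distrib]
  refine Finset.sum_congr rfl fun i _ => ?_
  rw [dd_Y, dd_an, dd_bn, ← sq_sub' (Ks_Ds S i)]
  rw [show -(-S.Ds i) + (1 / 2 : ℝ) • -S.Ks i = -(-S.Ds i + (1 / 2 : ℝ) • S.Ks i) by module,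
    neg_mul_neg]

/-- The first slot of the model. -/
def s0 (S : Dat ι E) : Sl E ι := slo (Xv S.a S.b) id1

/-- The second slot of the model. -/
def t0 (S : Dat ι E) : Sl E ι := slo (Yv S.a S.b) id1

theorem Ps0 (x : TE E) : (s0 S).P (fun _ => 0) (S.w : E → ℝ) x.fn = (So S x + Ro S x).fn := by
  have h := P_slo (Xv S.a S.b) id1 id1_symm 0 S.w x
  rw [Px_model] at h
  exact h

theorem Pt0 (x : TE E) : (t0 S).P (fun _ => 0) (S.w : E → ℝ) x.fn = (So S x - Ro S x).fn := by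
  have h := P_slo (Yv S.a S.b) id1 id1_symm 0 S.w x
  rw [Py_model] at h
  exact h

theorem Qs0 (x : TE E) : (s0 S).Q (fun _ => 0) (S.w : E → ℝ) x.fn = (Ss S x + Rs S x).fn := by
  have h := Q_slo (Xv S.a S.b) id1 id1_symm 0 S.w x
  rw [Qx_model] at h
  exact h

theorem Qt0 (x : TE E) : (t0 S).Q (fun _ => 0) (S.w : E → ℝ) x.fn = (Ss S x - Rs S x).fn := by
  have h := Q_slo (Yv S.a S.b) id1 id1_symm 0 S.w x
  rw [Qy_model] at h
  exact h

end model

/-! ## The slots are admissible -/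

omit [Fintype ι] in
theorem slo_ok {U : Set E} (hU : IsOpen U) (hs : ∀ i j, s i j = s j i) :
    (slo X s).Ok U (fun _ => 1) where
  op := hU
  tp _ _ := one_pos
  ts := contDiffOn_const
  rs := contDiffOn_const
  ss i j := (scd (s i j)).contDiffOn
  ks _ := contDiffOn_const
  sy i j z := by
    change ((s i j : Sm E) : E → ℝ) z = ((s j i : Sm E) : E → ℝ) z
    rw [hs]
  th z _ i := by
    have e1 : (slo X s).D i (fun _ => 1) z = 0 := by
      rw [Sl.D]; simp
    have e2 : fderiv ℝ (slo X s).ρ z ((slo X s).e i) = 0 := by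
      have : (slo X s).ρ = fun _ => (1 : ℝ) := rfl
      rw [this]; simp
    have e3 : (slo X s).k i z = 0 := rfl
    rw [e1, e2, e3]; ring

end Vale.Agent.P088.R2.H593.B
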