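import Vale.Agent.P088.R2.H593.B.Dic

/-!
# Zone B1: the form of the model

For the model slots `s0`, `t0`: `T (b + c, b - c) = 4 Tf b c`, `∫ sqd = 4 Sq b c`,
`∫ sta = 4 (Tf b c - Sq b c)`.
-/

open MeasureTheory Set
open scoped ContDiff

noncomputable section

namespace Vale.Agent.P088.R2.H593.B

open Vale.Agent.P088.HY.H593W
open Vale.Agent.P088.R2.H464.EP Vale.Agent.P088.R2.H961.B.T Vale.Agent.P088.R2.H516.B
open Vale.Agent.P088.R2.H961.GW (Sl)
open Vale.Agent.P088.R2.H961.F (dd Pv Xv Yv id1)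

variable {ι E : Type} [NormedAddCommGroup E] [NormedSpace ℝ E]

theorem te_fn {U : Set E} {x : TE E} (h : Su U x) : H961.GW.Te U x.fn := ⟨x.cd, x.cs, h⟩

/-- The slots commute. -/
theorem slo_cm {U : Set E} (hU : IsOpen U) (X Y : ι → E) (s t : ι → ι → Sm E)
    (h1 : ∀ z ∈ U, ∀ i k l, (ds (X i) (t k l) : E → ℝ) z = 0)
    (h2 : ∀ z ∈ U, ∀ k i j, (ds (Y k) (s i j) : E → ℝ) z = 0) :
    H961.GW.Cm (slo X s) (slo Y t) U where
  cc f hf z hz i k := by
    have hs : IsSymmSndFDerivAt ℝ f z := (H961.GW.Sm.at hU hf hz).isSymmSndFDerivAt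
      (by rw [minSmoothness_of_isRCLikeNormedField]; exact WithTop.coe_le_coe.2 le_top)
    have h3 : DifferentiableAt ℝ (fderiv ℝ f) z := by
      have h : ContDiffOn ℝ ∞ (fderiv ℝ f) U := hf.fderiv_of_isOpen hU (by norm_num)
      exact ((h z hz).contDiffAt (hU.mem_nhds hz)).differentiableAt (by simp)
    have e1 : ∀ u v : E, fderiv ℝ (fun w => fderiv ℝ f w v) z u =
        fderiv ℝ (fderiv ℝ f) z u v := by
      intro u v
      have := fderiv_clm_apply h3 (differentiableAt_const v)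
      rw [this]
      simp
    have d1 : (slo X s).D i f = fun w => fderiv ℝ f w (X i) := funext fun w => one_mul _
    have d2 : (slo Y t).D k f = fun w => fderiv ℝ f w (Y k) := funext fun w => one_mul _
    have d3 : ∀ g : E → ℝ, (slo X s).D i g z = fderiv ℝ g z (X i) := fun g => one_mul _
    have d4 : ∀ g : E → ℝ, (slo Y t).D k g z = fderiv ℝ g z (Y k) := fun g => one_mul _
    rw [d3, d4, d1, d2, e1, e1]
    exact hs.eq _ _
  s1 z hz i k l := (congrFun (slo_DS X s i (t k l)) z).trans (h1 z hz i k l)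
  k1 z _ i k := by
    have : (slo Y t).k k = fun _ => (0 : ℝ) := rfl
    rw [this, Sl.D]; simp
  s2 z hz k i j := (congrFun (slo_DS Y t k (s i j)) z).trans (h2 z hz k i j)
  k2 z _ k i := by
    have : (slo X s).k i = fun _ => (0 : ℝ) := rfl
    rw [this, Sl.D]; simp

theorem ds_id1 [DecidableEq ι] (v : E) (i j : ι) (z : E) :
    (ds v (id1 i j : Sm E) : E → ℝ) z = 0 := by
  have h : (ds v (id1 i j : Sm E)) = 0 := by
    unfold id1
    split
    · rw [ds_one]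
    · rw [map_zero]
  rw [h]; rfl

variable [Fintype ι] [DecidableEq ι] [MeasureSpace E] [BorelSpace E] [FiniteDimensional ℝ E]
  [(volume : Measure E).IsAddHaarMeasure]

omit [Fintype ι] [DecidableEq ι] in
/-- `∫_U x²`. -/
theorem In_sq {U : Set E} {x : TE E} (hx : Su U x) :
    H961.GW.In U (fun _ => 1) (fun z => x.fn z ^ 2) = nn volume 1 x := by
  rw [nn_eq, H961.GW.In]
  have e : ∀ z, (1 : ℝ) * x.fn z ^ 2 = ((1 : Sm E) : E → ℝ) z * x.fn z ^ 2 := fun _ => rfl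
  simp only [e]
  refine setIntegral_eq_integral_of_forall_compl_eq_zero fun z hz => ?_
  rw [image_eq_zero_of_notMem_tsupport fun h => hz (hx h)]
  ring

variable (S : Dat ι E)

theorem su_Ss {Z : Set E} {f : TE E} (hf : Su Z f) : Su Z (Ss S f) := by
  have h1 : ∀ (g : TE E) (i : ι), Su Z g → Su Z (S.Ds i g) := fun g i hg => by
    rw [← H856.B.As_inl]; exact H856.B.su_As _ _ _ hg
  have h2 : ∀ (g : TE E) (i : ι), Su Z g → Su Z (S.Ks i g) := fun g i hg => by
    rw [← H856.B.As_inr]; exact H856.B.su_As _ _ _ hg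
  rw [Ss, LinearMap.add_apply, LinearMap.smul_apply, Dat.Ds2, K2s, LinearMap.sum_apply,
    LinearMap.sum_apply]
  refine H856.B.su_add (H856.B.su_sum _ fun i _ => ?_)
    (H856.B.su_smul (H856.B.su_sum _ fun i _ => ?_) _)
  · exact h1 _ _ (h1 _ _ hf)
  · exact h2 _ _ (h2 _ _ hf)

theorem su_Rs {Z : Set E} {f : TE E} (hf : Su Z f) : Su Z (Rs S f) := by
  rw [Rs, LinearMap.sum_apply]
  refine H856.B.su_sum _ fun i _ => ?_
  rw [Module.End.mul_apply, ← H856.B.As_inl, ← H856.B.As_inr]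
  exact H856.B.su_As _ _ _ (H856.B.su_As _ _ _ hf)

theorem su_So' {Z : Set E} {f : TE E} (hf : Su Z f) : Su Z (So S f) := by
  rw [← H856.B.Sk_vv]
  exact H856.B.su_Sk _ _ _ hf

theorem su_Ro' {Z : Set E} {f : TE E} (hf : Su Z f) : Su Z (Ro S f) := by
  rw [Ro, LinearMap.sum_apply]
  refine H856.B.su_sum _ fun i _ => ?_
  rw [Module.End.mul_apply, ← H856.B.Ak_inl, ← H856.B.Ak_inr]
  exact H856.B.su_Ak _ _ _ (H856.B.su_Ak _ _ _ hf)

variable {U : Set E} {b c : TE E}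

/-- `T(b + c, b - c) = 4 Tf(b, c)` for the model. -/
theorem TT_model (hb : Su U b) (hc : Su U c) :
    H961.GW.TT (s0 S) (t0 S) U (fun _ => 1) (fun _ => 0) (fun _ => 0) (S.w : E → ℝ)
      (b + c).fn (b - c).fn = 4 * Tf volume S b c := by
  have h1 : Su U (b + c) := H856.B.su_add hb hc
  have h2 : Su U (b - c) := H856.B.su_sub hb hc
  have e1 : (fun z => ((s0 S).Q (fun _ => 0) (S.w : E → ℝ) (b + c).fn z +
      (t0 S).Q (fun _ => 0) (S.w : E → ℝ) (b - c).fn z) ^ 2) =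
      fun z => ((2 : ℝ) • (S.Ds2 b + (1 / 4 : ℝ) • K2s S b + Rs S c)).fn z ^ 2 := by
    rw [Qs0, Qt0]
    funext z
    have e : (2 : ℝ) • (S.Ds2 b + (1 / 4 : ℝ) • K2s S b + Rs S c) =
        (Ss S (b + c) + Rs S (b + c)) + (Ss S (b - c) - Rs S (b - c)) := by
      simp only [Ss, map_add, map_sub, LinearMap.add_apply, LinearMap.smul_apply]
      module
    rw [e]; rfl
  have e2 : (fun z => ((t0 S).P (fun _ => 0) (S.w : E → ℝ) (b + c).fn z -
      (s0 S).P (fun _ => 0) (S.w : E → ℝ) (b - c).fn z) ^ 2) =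
      fun z => ((2 : ℝ) • (So S c - Ro S b)).fn z ^ 2 := by
    rw [Ps0, Pt0]
    funext z
    have e : (2 : ℝ) • (So S c - Ro S b) =
        (So S (b + c) - Ro S (b + c)) - (So S (b - c) + Ro S (b - c)) := by
      simp only [map_add, map_sub]
      module
    rw [e]; rfl
  have s1 : Su U ((2 : ℝ) • (S.Ds2 b + (1 / 4 : ℝ) • K2s S b + Rs S c)) :=
    H856.B.su_smul (H856.B.su_add (su_Ss S hb) (su_Rs S hc)) _
  have s2 : Su U ((2 : ℝ) • (So S c - Ro S b)) :=
    H856.B.su_smul (H856.B.su_sub (su_So' S hc) (su_Ro' S hb)) _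
  rw [H961.GW.TT, e1, e2, In_sq s1, In_sq s2, Tf, nn_smul, nn_smul]
  have e3 : nn volume 1 (So S c - Ro S b) = nn volume 1 (Ro S b - So S c) := by
    rw [← neg_sub, nn_one, nn_one]
    simp only [map_neg, LinearMap.neg_apply, neg_neg]
  rw [e3]; ring

/-- `∫ sqd = 4 Sq(b, c)` for the model. -/
theorem sqd_model (hU : IsOpen U) (hb : Su U b) (hc : Su U c) :
    H961.GW.In U (fun _ => 1) (H551.E.sqd (s0 S) (t0 S) (fun _ => 0) (fun _ => 0) (S.w : E → ℝ)
      (b + c).fn (b - c).fn) = 4 * Sq volume S b c := by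
  have h1 : Su U (b + c) := H856.B.su_add hb hc
  have h2 : Su U (b - c) := H856.B.su_sub hb hc
  have e1 : H551.E.sqd (s0 S) (t0 S) (fun _ => 0) (fun _ => 0) (S.w : E → ℝ)
      (b + c).fn (b - c).fn = fun z => (So S (b + c) + Ro S (b + c)).fn z ^ 2 +
      (So S (b - c) - Ro S (b - c)).fn z ^ 2 + (So S (b + c) - Ro S (b + c)).fn z ^ 2 +
      (So S (b - c) + Ro S (b - c)).fn z ^ 2 := by
    funext z
    rw [H551.E.sqd, Ps0, Pt0, Pt0, Ps0]
  have a1 : ∀ {x : TE E}, Su U x → Su U (So S x + Ro S x) := fun hx =>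
    H856.B.su_add (su_So' S hx) (su_Ro' S hx)
  have a2 : ∀ {x : TE E}, Su U x → Su U (So S x - Ro S x) := fun hx =>
    H856.B.su_sub (su_So' S hx) (su_Ro' S hx)
  have q : ∀ {x : TE E}, Su U x → H961.GW.Te U (fun z => x.fn z ^ 2) := fun hx =>
    (te_fn hx).sq hU
  have ts : H961.GW.Sm U (fun _ : E => (1 : ℝ)) := contDiffOn_const
  rw [e1, H961.GW.In_add hU ts (((q (a1 h1)).add hU (q (a2 h2))).add hU (q (a2 h1)))
    (q (a1 h2)), H961.GW.In_add hU ts ((q (a1 h1)).add hU (q (a2 h2))) (q (a2 h1)),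
    H961.GW.In_add hU ts (q (a1 h1)) (q (a2 h2)), In_sq (a1 h1), In_sq (a2 h2), In_sq (a2 h1),
    In_sq (a1 h2), Sq]
  simp only [nn_one, map_add, map_sub, LinearMap.add_apply, LinearMap.sub_apply]
  ring

/-- `∫ sta = 4 (Tf - Sq)(b, c)` for the model. -/
theorem sta_model (hU : IsOpen U) (hb : Su U b) (hc : Su U c) :
    H961.GW.In U (fun _ => 1) (H551.E.sta (s0 S) (t0 S) (fun _ => 0) (fun _ => 0) (S.w : E → ℝ)
      (b + c).fn (b - c).fn) = 4 * (Tf volume S b c - Sq volume S b c) := by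
  have h1 := te_fn (H856.B.su_add hb hc)
  have h2 := te_fn (H856.B.su_sub hb hc)
  have ok : (s0 S).Ok U (fun _ => 1) := slo_ok _ _ hU id1_symm
  have ot : (t0 S).Ok U (fun _ => 1) := slo_ok _ _ hU id1_symm
  have cm : H961.GW.Cm (s0 S) (t0 S) U := slo_cm hU _ _ _ _
    (fun z _ i k l => ds_id1 _ _ _ _) (fun z _ i k l => ds_id1 _ _ _ _)
  have z0 : H961.GW.Sm U (fun _ : E => (0 : ℝ)) := contDiffOn_const
  have hW : H961.GW.Sm U (S.w : E → ℝ) := (scd S.w).contDiffOn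
  have d0 : ∀ z ∈ U, ∀ k, (t0 S).D k (fun _ => 0) z = 0 := fun z _ k => by
    rw [Sl.D]; simp
  have d1 : ∀ z ∈ U, ∀ k, (s0 S).D k (fun _ => 0) z = 0 := fun z _ k => by
    rw [Sl.D]; simp
  have e1 := H551.E.T_dn ok ot cm z0 z0 d0 d1 hW h1 h2
  have e2 : H961.GW.In U (fun _ => 1) (H551.E.dn (s0 S) (t0 S) (fun _ => 0) (fun _ => 0)
      (S.w : E → ℝ) (b + c).fn (b - c).fn) =
      H961.GW.In U (fun _ => 1) (H551.E.sqd (s0 S) (t0 S) (fun _ => 0) (fun _ => 0)
        (S.w : E → ℝ) (b + c).fn (b - c).fn) +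
      H961.GW.In U (fun _ => 1) (H551.E.sta (s0 S) (t0 S) (fun _ => 0) (fun _ => 0)
        (S.w : E → ℝ) (b + c).fn (b - c).fn) := by
    unfold H551.E.dn
    exact H961.GW.In_add hU ok.ts (H551.E.tsqd ok ot z0 z0 hW h1 h2)
      (H551.E.tsta ok ot z0 z0 hW h1 h2)
  rw [TT_model S hb hc, e2, sqd_model S hU hb hc] at e1
  linarith

end Vale.Agent.P088.R2.H593.B
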