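import Vale.Agent.P088.R2.H593.B.Dic2
import Vale.Agent.P088.R2.H464.B.Fr2
import Vale.Agent.P088.R2.H856.B.Bnd

/-!
# Zone B1: helper464's comparison of the star forms, in terms of the list of bounds

For a cell `x` of a family `G` with model `T : Dat`: if the star forms differ by
`C ∫ D` whenever `η Qd ≤ D` (`fr2`), then `|∫ sta / 4 - (Tf - Sq)| ≤ Cf η (M + MS)` for every list
`Bd T w N b c M MS`.
-/

open MeasureTheory Set
open scoped ContDiff

noncomputable section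

namespace Vale.Agent.P088.R2.H593.B

open Vale.Agent.P088.R2.H464.EP Vale.Agent.P088.R2.H961.B.T Vale.Agent.P088.R2.H516.B
open Vale.Agent.P088.R2.H961.GW (Sl)
open Vale.Agent.P088.R2.H961.F (dd Pv Xv Yv id1)
open Vale.Agent.P088.R2.H464.B (Ge SX SY zr Qd SD SK Dst Dun Kst Kun)

variable {ι E : Type} [NormedAddCommGroup E] [NormedSpace ℝ E] [Fintype ι] [DecidableEq ι]

section alg

variable {α : Type*} (G : Ge α ι E) (x : α) (T : Dat ι E)

/-- The model slots. -/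
theorem SX_model (ha : G.a x = T.a) (hb : G.b x = T.b) : SX G zr zr x = s0 T := by
  unfold SX s0 slo
  rw [Sl.mk.injEq]
  refine ⟨rfl, ?_, ?_, rfl⟩
  · rw [ha, hb]; rfl
  · funext i j z
    unfold H464.B.sX H464.B.tS H464.B.idn zr id1
    split <;> simp

theorem SY_model (ha : G.a x = T.a) (hb : G.b x = T.b) : SY G zr zr x = t0 T := by
  unfold SY t0 slo
  rw [Sl.mk.injEq]
  refine ⟨rfl, ?_, ?_, rfl⟩
  · rw [ha, hb]; rfl
  · funext i j z
    unfold H464.B.sY H464.B.tS H464.B.idn zr id1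
    split <;> simp

variable {G x T}
variable {W₀ : α → E → ℝ}

theorem Dst_eq (ha : G.a x = T.a) (hW : W₀ x = (T.w : E → ℝ)) (f : TE E) (j : ι) (z : E) :
    Dst G W₀ (fun _ => f.fn) j x z = (T.Ds j f).fn z := by
  have h : (T.Ds j f).fn z = -(fderiv ℝ f.fn z (T.a j)) +
      fderiv ℝ (T.w : E → ℝ) z (T.a j) * f.fn z := by
    rw [← H856.B.As_inl]; rfl
  rw [h, Dst, Ge.da, Ge.da, ha, hW]
  ring

theorem Dun_eq (ha : G.a x = T.a) (hW : W₀ x = (T.w : E → ℝ)) (f : TE E) (j : ι) (z : E) :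
    Dun G W₀ (fun _ => f.fn) j x z = (T.D j f).fn z := by
  have h : (T.D j f).fn z = fderiv ℝ f.fn z (T.a j) +
      fderiv ℝ (T.w : E → ℝ) z (T.a j) * f.fn z := by
    rw [← H856.B.Ak_inl]; rfl
  rw [h, Dun, Ge.da, Ge.da, ha, hW]
  ring

theorem Kst_eq (hb : G.b x = T.b) (hW : W₀ x = (T.w : E → ℝ)) (f : TE E) (j : ι) (z : E) :
    Kst G W₀ (fun _ => f.fn) j x z = (T.Ks j f).fn z := by
  have h : (T.Ks j f).fn z = -(fderiv ℝ f.fn z (T.b j)) +
      fderiv ℝ (T.w : E → ℝ) z (T.b j) * f.fn z := by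
    rw [← H856.B.As_inr]; rfl
  rw [h, Kst, Ge.db, Ge.db, hb, hW]
  ring

theorem Kun_eq (hb : G.b x = T.b) (hW : W₀ x = (T.w : E → ℝ)) (f : TE E) (j : ι) (z : E) :
    Kun G W₀ (fun _ => f.fn) j x z = (T.K j f).fn z := by
  have h : (T.K j f).fn z = fderiv ℝ f.fn z (T.b j) +
      fderiv ℝ (T.w : E → ℝ) z (T.b j) * f.fn z := by
    rw [← H856.B.Ak_inr]; rfl
  rw [h, Kun, Ge.db, Ge.db, hb, hW]
  ring

end alg

theorem Qd_nn {α : Type*} {G : Ge α ι E} {x : α} {e μ ν W₀ β γ : α → E → ℝ} {z : E}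
    (h : 0 ≤ e x z / μ x z) : 0 ≤ Qd G W₀ e μ ν β γ x z := by
  have h1 := H464.B.SD_nn G W₀ β x z
  have h2 := H464.B.SK_nn G W₀ β x z
  have h3 := H464.B.SD_nn G W₀ γ x z
  have h4 := H464.B.SK_nn G W₀ γ x z
  unfold Qd
  positivity

/-- `θ f²` as a test function. -/
def sq (θ : Sm E) (f : TE E) : TE E := mS (ml θ f) f

omit [Fintype ι] [DecidableEq ι] in
theorem sq_fn (θ : Sm E) (f : TE E) (z : E) : (sq θ f).fn z = (θ : E → ℝ) z * f.fn z ^ 2 := by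
  rw [sq, mS_fn, ml_apply]; ring

/-- The density of the list of bounds. -/
def FQ (T : Dat ι E) (w : Wd T) (N : Sm E) (b c : TE E) : TE E :=
  sq (T.e * T.e) b +
    ((∑ j, (sq (T.e * w.mi) (T.Ds j b) + sq (T.e * w.mi) (T.D j b)) +
      ∑ j, (sq (T.e * w.mi) (T.Ks j b) + sq (T.e * w.mi) (T.K j b))) +
      sq (T.e * w.mi * (N + mu T) ^ 2) c +
      ∑ j, (sq (T.e * w.mi) (T.Ks j c) + sq (T.e * w.mi) (T.K j c))) +
    ∑ j, (sq 1 (T.Ds j c) + sq 1 (T.D j c))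

theorem FQ_fn (T : Dat ι E) (w : Wd T) (N : Sm E) (b c : TE E) (z : E) :
    (FQ T w N b c).fn z = (T.e : E → ℝ) z ^ 2 * b.fn z ^ 2 +
      (T.e : E → ℝ) z * (w.mi : E → ℝ) z *
        ((∑ j, ((T.Ds j b).fn z ^ 2 + (T.D j b).fn z ^ 2) +
          ∑ j, ((T.Ks j b).fn z ^ 2 + (T.K j b).fn z ^ 2)) +
          ((N : E → ℝ) z + (mu T : E → ℝ) z) ^ 2 * c.fn z ^ 2 +
          ∑ j, ((T.Ks j c).fn z ^ 2 + (T.K j c).fn z ^ 2)) +
      ∑ j, ((T.Ds j c).fn z ^ 2 + (T.D j c).fn z ^ 2) := by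
  have e1 : ((T.e * w.mi * (N + mu T) ^ 2 : Sm E) : E → ℝ) z =
    (T.e : E → ℝ) z * (w.mi : E → ℝ) z * ((N : E → ℝ) z + (mu T : E → ℝ) z) ^ 2 := rfl
  simp only [FQ, TE.add_fn, sum_fn, sq_fn, e1, H856.B.sm_mul, H856.B.sm_one, one_mul,
    mul_add, Finset.mul_sum]
  ring

theorem FQ_nn (T : Dat ι E) (w : Wd T) (N : Sm E) (b c : TE E) (z : E) :
    0 ≤ (FQ T w N b c).fn z := by
  have h1 := (w.he z).le
  have h2 := (H856.B.mi_pos w z).le
  rw [FQ_fn]
  positivity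

variable [MeasureSpace E] [BorelSpace E] [FiniteDimensional ℝ E]
  [(volume : Measure E).IsAddHaarMeasure]

theorem In_FQ {T : Dat ι E} {w : Wd T} {N : Sm E} {b c : TE E} {M MS : ℝ}
    (hB : Bd volume T w N b c M MS) :
    In volume (FQ T w N b c) ≤ (8 * (Fintype.card ι : ℝ) + 2) * M := by
  have e : ∀ (θ : Sm E) (f : TE E), In volume (sq θ f) = nn volume θ f := fun θ f => rfl
  have s : ∀ {f : ι → ℝ}, (∀ j, f j ≤ M + M) → ∑ j, f j ≤ Fintype.card ι * (M + M) := by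
    intro f hf
    calc ∑ j, f j ≤ ∑ _j : ι, (M + M) := Finset.sum_le_sum fun j _ => hf j
      _ = _ := by rw [Finset.sum_const, Finset.card_univ, nsmul_eq_mul]
  rw [FQ]
  simp only [map_add, map_sum, e]
  have h1 := hB.b0
  have h2 := s fun j => add_le_add (hB.b1 1 j) (hB.b1 0 j)
  have h3 := s fun j => add_le_add (hB.b1 3 j) (hB.b1 2 j)
  have h4 := hB.c0
  have h5 := s fun j => add_le_add (hB.c1K j).2 (hB.c1K j).1
  have h6 := s fun j => add_le_add (hB.c1 j).2 (hB.c1 j).1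
  change ∑ j, (nn volume (T.e * w.mi) (T.Ds j b) + nn volume (T.e * w.mi) (T.D j b)) ≤ _ at h2
  change ∑ j, (nn volume (T.e * w.mi) (T.Ks j b) + nn volume (T.e * w.mi) (T.K j b)) ≤ _ at h3
  simp only [Finset.sum_add_distrib] at h2 h3 h5 h6 ⊢
  linarith

theorem FQ_su {T : Dat ι E} {w : Wd T} {N : Sm E} {b c : TE E} {U : Set E} (hb : Su U b)
    (hc : Su U c) {z : E} (hz : z ∉ U) : (FQ T w N b c).fn z = 0 := by
  have h0 : ∀ {f : TE E}, Su U f → f.fn z = 0 := fun hf => H856.B.su_zero hf hz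
  have hD : ∀ {f : TE E} j, Su U f → (T.D j f).fn z = 0 := fun j hf =>
    h0 (by rw [← H856.B.Ak_inl]; exact H856.B.su_Ak _ _ _ hf)
  have hK : ∀ {f : TE E} j, Su U f → (T.K j f).fn z = 0 := fun j hf =>
    h0 (by rw [← H856.B.Ak_inr]; exact H856.B.su_Ak _ _ _ hf)
  have hDs : ∀ {f : TE E} j, Su U f → (T.Ds j f).fn z = 0 := fun j hf =>
    h0 (by rw [← H856.B.As_inl]; exact H856.B.su_As _ _ _ hf)
  have hKs : ∀ {f : TE E} j, Su U f → (T.Ks j f).fn z = 0 := fun j hf =>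
    h0 (by rw [← H856.B.As_inr]; exact H856.B.su_As _ _ _ hf)
  rw [FQ_fn]
  simp [h0 hb, h0 hc, hD _ hb, hD _ hc, hK _ hb, hK _ hc, hDs _ hb, hDs _ hc, hKs _ hb, hKs _ hc]

/-- **The glue**: helper464's `fr2` gives the hypothesis `hF` of the one-cell statement. -/
theorem hF_of {α : Type*} {G : Ge α ι E} {x : α} {e μ ν η : α → E → ℝ}
    {s d : ι → ι → α → E → ℝ} {W W₀ : α → E → ℝ} {C : ℝ} (hC : 0 ≤ C)
    (hfr : ∀ β γ D : E → ℝ,
      H961.GW.Te (G.Z x) β → H961.GW.Te (G.Z x) γ → IntegrableOn D (G.Z x) →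
      (∀ z ∈ G.Z x, η x z * Qd G W₀ e μ ν (fun _ => β) (fun _ => γ) x z ≤ D z) →
      |H961.GW.In (G.Z x) (fun _ => 1) (H551.E.sta (SX G s d x) (SY G s d x) (fun _ => 0)
          (fun _ => 0) (W x) (fun z => β z + γ z) fun z => β z - γ z) -
        H961.GW.In (G.Z x) (fun _ => 1) (H551.E.sta (SX G zr zr x) (SY G zr zr x) (fun _ => 0)
          (fun _ => 0) (W₀ x) (fun z => β z + γ z) fun z => β z - γ z)| ≤
            C * ∫ z in G.Z x, D z)
    {T : Dat ι E} {w : Wd T} {N : Sm E} (ha : G.a x = T.a) (hb : G.b x = T.b)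
    (hW : W₀ x = (T.w : E → ℝ)) {B eta : ℝ} (hB0 : 0 ≤ B) (he0 : 0 ≤ eta)
    (hη : ∀ z ∈ G.Z x, η x z ≤ eta)
    (q1 : ∀ z ∈ G.Z x, e x z ^ 2 ≤ B * (T.e : E → ℝ) z ^ 2)
    (q2 : ∀ z ∈ G.Z x, e x z / μ x z ≤ B * ((T.e : E → ℝ) z * (w.mi : E → ℝ) z))
    (q3 : ∀ z ∈ G.Z x, e x z / μ x z * ν x z ^ 2 ≤ B * ((T.e : E → ℝ) z * (w.mi : E → ℝ) z *
      ((N : E → ℝ) z + (mu T : E → ℝ) z) ^ 2)) (hB1 : 1 ≤ B)
    {b c : TE E} (sb : Su (G.Z x) b) (sc : Su (G.Z x) c) {M MS : ℝ}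
    (hBd : Bd volume T w N b c M MS) (hQ0 : ∀ z ∈ G.Z x, 0 ≤ Qd G W₀ e μ ν (fun _ => b.fn)
      (fun _ => c.fn) x z) :
    |1 / 4 * H961.GW.In (G.Z x) (fun _ => 1) (H551.E.sta (SX G s d x) (SY G s d x) (fun _ => 0)
        (fun _ => 0) (W x) (b + c).fn (b - c).fn) - (Tf volume T b c - Sq volume T b c)| ≤
      (C * B * (2 * (Fintype.card ι : ℝ) + 1)) * eta * (M + MS) := by
  have hU := G.op x
  have hn := Nat.cast_nonneg (α := ℝ) (Fintype.card ι)
  have hm := sta_model T hU sb sc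
  have h1 := hfr b.fn c.fn (fun z => ((eta * B) • FQ T w N b c).fn z) (te_fn sb) (te_fn sc)
    ((tint volume ((eta * B) • FQ T w N b c)).integrableOn) (fun z hz => by
      have a1 := q1 z hz
      have a2 := q2 z hz
      have a3 := q3 z hz
      have a4 := hη z hz
      have a5 := hQ0 z hz
      have e1 : SD G W₀ (fun _ => b.fn) x z = ∑ j, ((T.Ds j b).fn z ^ 2 + (T.D j b).fn z ^ 2) :=
        Finset.sum_congr rfl fun j _ => by rw [Dst_eq ha hW, Dun_eq ha hW]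
      have e2 : SK G W₀ (fun _ => b.fn) x z = ∑ j, ((T.Ks j b).fn z ^ 2 + (T.K j b).fn z ^ 2) :=
        Finset.sum_congr rfl fun j _ => by rw [Kst_eq hb hW, Kun_eq hb hW]
      have e3 : SK G W₀ (fun _ => c.fn) x z = ∑ j, ((T.Ks j c).fn z ^ 2 + (T.K j c).fn z ^ 2) :=
        Finset.sum_congr rfl fun j _ => by rw [Kst_eq hb hW, Kun_eq hb hW]
      have e4 : SD G W₀ (fun _ => c.fn) x z = ∑ j, ((T.Ds j c).fn z ^ 2 + (T.D j c).fn z ^ 2) :=
        Finset.sum_congr rfl fun j _ => by rw [Dst_eq ha hW, Dun_eq ha hW]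
      have key : Qd G W₀ e μ ν (fun _ => b.fn) (fun _ => c.fn) x z ≤
          B * (FQ T w N b c).fn z := by
        rw [Qd, e1, e2, e3, e4, FQ_fn]
        set X1 := ∑ j, ((T.Ds j b).fn z ^ 2 + (T.D j b).fn z ^ 2)
        set X2 := ∑ j, ((T.Ks j b).fn z ^ 2 + (T.K j b).fn z ^ 2)
        set X3 := ∑ j, ((T.Ks j c).fn z ^ 2 + (T.K j c).fn z ^ 2)
        set X4 := ∑ j, ((T.Ds j c).fn z ^ 2 + (T.D j c).fn z ^ 2)
        have x1 : 0 ≤ X1 := by positivity
        have x2 : 0 ≤ X2 := by positivity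
        have x3 : 0 ≤ X3 := by positivity
        have x4 : 0 ≤ X4 := by positivity
        have b1 := mul_le_mul_of_nonneg_right a1 (sq_nonneg (b.fn z))
        have b2 := mul_le_mul_of_nonneg_right a2 (add_nonneg (add_nonneg x1 x2) x3)
        have b3 := mul_le_mul_of_nonneg_right a3 (sq_nonneg (c.fn z))
        have b4 : X4 ≤ B * X4 := le_mul_of_one_le_left x4 hB1
        linarith
      have h3 := FQ_nn T w N b c z
      calc η x z * Qd G W₀ e μ ν (fun _ => b.fn) (fun _ => c.fn) x z ≤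
            eta * Qd G W₀ e μ ν (fun _ => b.fn) (fun _ => c.fn) x z :=
              mul_le_mul_of_nonneg_right a4 a5
        _ ≤ eta * (B * (FQ T w N b c).fn z) := mul_le_mul_of_nonneg_left key he0
        _ = _ := by rw [TE.smul_fn]; ring)
  have h2 : ∫ z in G.Z x, ((eta * B) • FQ T w N b c).fn z =
      eta * B * In volume (FQ T w N b c) := by
    rw [setIntegral_eq_integral_of_forall_compl_eq_zero fun z hz => by
      rw [TE.smul_fn, FQ_su sb sc hz, mul_zero]]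
    exact (map_smul (In volume) (eta * B) (FQ T w N b c))
  rw [h2, SX_model G x T ha hb, SY_model G x T ha hb, hW] at h1
  have h3 := In_FQ hBd
  have hMS : 0 ≤ MS := (H856.B.nn_nonneg volume (H856.B.wt_e'mu w).1 _).trans hBd.c3
  have h4 : C * (eta * B * In volume (FQ T w N b c)) ≤
      C * (eta * B * ((8 * (Fintype.card ι : ℝ) + 2) * M)) := by gcongr
  have h5 : 0 ≤ C * B * (2 * (Fintype.card ι : ℝ) + 1) * eta * MS := by positivity
  have hM : 0 ≤ M := (H856.B.nnee volume b).trans hBd.b0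
  have h6 : 0 ≤ C * B * eta * M := by positivity
  have hm' : H961.GW.In (G.Z x) (fun _ => 1) (H551.E.sta (s0 T) (t0 T) (fun _ => 0) (fun _ => 0)
      (T.w : E → ℝ) (fun z => b.fn z + c.fn z) fun z => b.fn z - c.fn z) =
      4 * (Tf volume T b c - Sq volume T b c) := hm
  rw [hm'] at h1
  change |1 / 4 * H961.GW.In (G.Z x) (fun _ => 1) (H551.E.sta (SX G s d x) (SY G s d x)
    (fun _ => 0) (fun _ => 0) (W x) (fun z => b.fn z + c.fn z) fun z => b.fn z - c.fn z) - _| ≤ _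
  set I := H961.GW.In (G.Z x) (fun _ => 1) (H551.E.sta (SX G s d x) (SY G s d x)
    (fun _ => 0) (fun _ => 0) (W x) (fun z => b.fn z + c.fn z) fun z => b.fn z - c.fn z)
  have h7 := abs_le.1 h1
  rw [abs_le]
  constructor
  · nlinarith [h7.1]
  · nlinarith [h7.2]

end Vale.Agent.P088.R2.H593.B
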