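import Vale.Agent.P088.R2.H593.B.Pw

/-!
# Zone B1: weighted norms of the perturbations of `S` and `R`
-/

open MeasureTheory Set

noncomputable section

namespace Vale.Agent.P088.R2.H593.B

open Vale.Agent.P088.R2.H464.EP Vale.Agent.P088.R2.H961.B.T Vale.Agent.P088.R2.H516.B

variable {ι E : Type} [Fintype ι] [DecidableEq ι] [NormedAddCommGroup E] [NormedSpace ℝ E]

/-! ## Scalar parts -/

theorem h_num {e e' m mi X Y K F : ℝ} (h1 : e * e' = 1) (h6 : m * mi = 1) (he : 0 < e)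
    (he' : 0 < e') (hmi : 0 < mi) (hme : m ≤ e) (h3 : e' ≤ mi)
    (hX : 0 ≤ X) (hY : 0 ≤ Y) (hK : 0 ≤ K) (hF : 0 ≤ F) :
    e' ^ 2 * (X + e * m * Y + e ^ 2 * F) ≤ e' * mi * X + Y + e * mi * K + e * mi * F := by
  have e1 : e' * m ≤ 1 := by
    rw [← h1, mul_comm e]
    exact mul_le_mul_of_nonneg_left hme he'.le
  have e2 : 1 ≤ e * mi := by
    rw [← h6]
    exact mul_le_mul_of_nonneg_right hme hmi.le
  have i1 : e' ^ 2 * X ≤ e' * mi * X := by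
    rw [sq]
    exact mul_le_mul_of_nonneg_right (mul_le_mul_of_nonneg_left h3 he'.le) hX
  have i2 : e' ^ 2 * (e * m * Y) ≤ 1 * Y := by
    have : e' ^ 2 * (e * m * Y) = (e * e') * (e' * m) * Y := by ring
    rw [this, h1, one_mul]
    exact mul_le_mul_of_nonneg_right e1 hY
  have i3 : e' ^ 2 * (e ^ 2 * F) ≤ e * mi * F := by
    have : e' ^ 2 * (e ^ 2 * F) = (e * e') ^ 2 * F := by ring
    rw [this, h1, one_pow]
    exact mul_le_mul_of_nonneg_right e2 hF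
  have i4 : 0 ≤ e * mi * K := by positivity
  have i5 : e' ^ 2 * (X + e * m * Y + e ^ 2 * F) =
      e' ^ 2 * X + e' ^ 2 * (e * m * Y) + e' ^ 2 * (e ^ 2 * F) := by ring
  rw [i5]
  linarith

theorem d_num {D d a e e' m mi X1 X2 X3 X4 X5 X6 F : ℝ} (h1 : e * e' = 1) (h6 : m * mi = 1)
    (he : 0 < e) (he' : 0 < e') (hmi : 0 < mi) (hm : 0 ≤ m) (ha : 0 ≤ a) (hD : D ≤ d)
    (hD2 : D ≤ a * mi ^ 2) (k1 : 0 ≤ X1) (k2 : 0 ≤ X2) (k3 : 0 ≤ X3) (k4 : 0 ≤ X4)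
    (k5 : 0 ≤ X5) (k6 : 0 ≤ X6) (kF : 0 ≤ F) :
    D * (X1 + m / e * (X2 + X3) + e * m * X4 + m ^ 2 * X5 + e * m * F) ≤
      d * X1 + a * (e' * mi * (X2 + X1 + (X6 + X3)) + (X5 + X4) + e * mi * X4 + e * mi * F) := by
  have hme : m / e = e' * m := by
    rw [div_eq_iff he.ne']
    calc m = m * (e * e') := by rw [h1, mul_one]
      _ = _ := by ring
  have r1 : mi ^ 2 * (e' * m * (X2 + X3)) = e' * mi * (X2 + X3) := by
    have : mi ^ 2 * (e' * m * (X2 + X3)) = e' * mi * (m * mi) * (X2 + X3) := by ring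
    rw [this, h6, mul_one]
  have r2 : mi ^ 2 * (e * m * X4) = e * mi * X4 := by
    have : mi ^ 2 * (e * m * X4) = e * mi * (m * mi) * X4 := by ring
    rw [this, h6, mul_one]
  have r3 : mi ^ 2 * (m ^ 2 * X5) = X5 := by
    have : mi ^ 2 * (m ^ 2 * X5) = (m * mi) ^ 2 * X5 := by ring
    rw [this, h6, one_pow, one_mul]
  have r4 : mi ^ 2 * (e * m * F) = e * mi * F := by
    have : mi ^ 2 * (e * m * F) = e * mi * (m * mi) * F := by ring
    rw [this, h6, mul_one]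
  have p1 := mul_le_mul_of_nonneg_right hD k1
  have p2 := mul_le_mul_of_nonneg_right hD2 (by positivity : 0 ≤ e' * m * (X2 + X3))
  have p3 := mul_le_mul_of_nonneg_right hD2 (by positivity : 0 ≤ e * m * X4)
  have p4 := mul_le_mul_of_nonneg_right hD2 (by positivity : 0 ≤ m ^ 2 * X5)
  have p5 := mul_le_mul_of_nonneg_right hD2 (by positivity : 0 ≤ e * m * F)
  rw [mul_assoc a, r1] at p2
  rw [mul_assoc a, r2] at p3
  rw [mul_assoc a, r3] at p4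
  rw [mul_assoc a, r4] at p5
  have q1 : 0 ≤ a * (e' * mi * (X1 + X6)) := by positivity
  have q2 : 0 ≤ a * X4 := by positivity
  rw [hme]
  have i1 : D * (X1 + e' * m * (X2 + X3) + e * m * X4 + m ^ 2 * X5 + e * m * F) =
      D * X1 + D * (e' * m * (X2 + X3)) + D * (e * m * X4) + D * (m ^ 2 * X5) +
        D * (e * m * F) := by ring
  have i2 : a * (e' * mi * (X2 + X1 + (X6 + X3)) + (X5 + X4) + e * mi * X4 + e * mi * F) =
      a * (e' * mi * (X2 + X3)) + a * (e' * mi * (X1 + X6)) + a * X5 + a * X4 +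
        a * (e * mi * X4) + a * (e * mi * F) := by ring
  rw [i1, i2]
  linarith

theorem r_num {t P P' D H n q q' A L eta e2 : ℝ} (hA : t ≤ 2 * (D * P ^ 2) + 2 * (H * P' ^ 2))
    (hD : 0 ≤ D) (hH : 0 ≤ H) (hP : P ^ 2 ≤ 10 * n * q) (hP' : P' ^ 2 ≤ 12 * n * q')
    (hn : 0 ≤ n) (hq' : 0 ≤ q') (h3 : D * q ≤ A + eta * L) (h4 : e2 * q' ≤ L)
    (h10 : H ≤ eta * e2) (heta : 0 ≤ eta) :
    t ≤ 20 * n * A + 44 * n * eta * L := by
  have a2 := mul_le_mul_of_nonneg_left hP hD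
  have a3 := mul_le_mul_of_nonneg_left hP' hH
  have a4 := mul_le_mul_of_nonneg_right h10 (by positivity : 0 ≤ 12 * n * q')
  have a6 := mul_le_mul_of_nonneg_left h3 (by positivity : 0 ≤ 10 * n)
  have a7 := mul_le_mul_of_nonneg_left (mul_le_mul_of_nonneg_left h4 heta)
    (by positivity : 0 ≤ 12 * n)
  have b1 : D * (10 * n * q) = 10 * n * (D * q) := by ring
  have b2 : eta * e2 * (12 * n * q') = 12 * n * (eta * (e2 * q')) := by ring
  rw [b1] at a2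
  rw [b2] at a4
  linarith

/-- The sizes of the perturbation: `δ μ ≤ η`, `h E ≤ η` on the zone. -/
structure Sz (S : Dat ι E) (Z : Set E) (del h : E → ℝ) (eta : ℝ) : Prop where
  d0 : ∀ z ∈ Z, 0 ≤ del z
  h0 : ∀ z ∈ Z, 0 ≤ h z
  dm : ∀ z ∈ Z, del z * (mu S : E → ℝ) z ≤ eta
  he : ∀ z ∈ Z, h z * (S.e : E → ℝ) z ≤ eta

/-- `x` is near `S f`. -/
structure NrS (S : Dat ι E) (Z : Set E) (del h : E → ℝ) (f x : TE E) : Prop where
  su : Su Z x
  le : ∀ z ∈ Z, |x.fn z - (So S f).fn z| ≤ (del z + h z) * P1 S f z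

/-- `y` is near `R f`. -/
structure NrR (S : Dat ι E) (Z : Set E) (del h : E → ℝ) (f y : TE E) : Prop where
  su : Su Z y
  le : ∀ z ∈ Z, |y.fn z - (Ro S f).fn z| ≤ del z * P2 S f z + h z * P1 S f z

variable {S : Dat ι E} (w : Wd S) {Z : Set E} {N : Sm E} {Lam eps eta : ℝ} {del h : E → ℝ}

section pw
include w

theorem eta_nn (hs : Sz S Z del h eta) {z : E} (hz : z ∈ Z) : 0 ≤ eta := by
  have h1 := hs.d0 z hz
  have h2 := H856.B.mu_ge w z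
  have h3 := hs.dm z hz
  have : 0 ≤ del z * (mu S : E → ℝ) z := mul_nonneg h1 (by linarith)
  linarith

theorem del_le (hs : Sz S Z del h eta) {z : E} (hz : z ∈ Z) :
    del z ≤ eta * (w.mi : E → ℝ) z := by
  have h1 := H856.B.mi_val w z
  have h2 := H856.B.mi_pos w z
  have h3 := mul_le_mul_of_nonneg_right (hs.dm z hz) h2.le
  rwa [mul_assoc, h1, mul_one] at h3

theorem h_le (hs : Sz S Z del h eta) {z : E} (hz : z ∈ Z) :
    h z ≤ eta * (S.e' : E → ℝ) z := by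
  have h1 := H856.B.e'_val (S := S) z
  have h2 := H856.B.e'_pos w z
  have h3 := mul_le_mul_of_nonneg_right (hs.he z hz) h2.le
  rwa [mul_assoc, h1, mul_one] at h3

theorem e'_le_mi (hZ : Zn S Z N Lam eps) {z : E} (hz : z ∈ Z) :
    (S.e' : E → ℝ) z ≤ (w.mi : E → ℝ) z := by
  have h1 := H856.B.e'_val (S := S) z
  have h2 := H856.B.e'_pos w z
  have h3 := H856.B.mi_val w z
  have h4 := H856.B.mi_pos w z
  have h5 := H856.B.e_ge w hZ hz
  calc (S.e' : E → ℝ) z = ((mu S : E → ℝ) z * (w.mi : E → ℝ) z) * (S.e' : E → ℝ) z := by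
        rw [h3, one_mul]
    _ ≤ ((S.e : E → ℝ) z * (w.mi : E → ℝ) z) * (S.e' : E → ℝ) z := by gcongr
    _ = (w.mi : E → ℝ) z * ((S.e : E → ℝ) z * (S.e' : E → ℝ) z) := by ring
    _ = _ := by rw [h1, mul_one]

/-- The square of the bound of `S`. -/
theorem dS_pw (hZ : Zn S Z N Lam eps) (hs : Sz S Z del h eta) {f : TE E} {t : ℝ} {z : E}
    (hz : z ∈ Z) (ht : |t| ≤ (del z + h z) * P1 S f z) :
    t ^ 2 ≤ 48 * ((Fintype.card ι : ℝ) + 1) ^ 2 * eta ^ 2 *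
      ((w.mi : E → ℝ) z ^ 2 * Q1 S f z) := by
  have h0 := eta_nn w hs hz
  have h1 := del_le w hs hz
  have h2 := h_le w hs hz
  have h3 := e'_le_mi w hZ hz
  have h4 := H856.B.mi_pos w z
  have h5 : del z + h z ≤ 2 * (eta * (w.mi : E → ℝ) z) := by
    have : eta * (S.e' : E → ℝ) z ≤ eta * (w.mi : E → ℝ) z := mul_le_mul_of_nonneg_left h3 h0
    linarith
  have h6 := P1_nn w f z
  have h7 := P1_sq w f z
  have h8 : |t| ≤ 2 * (eta * (w.mi : E → ℝ) z) * P1 S f z :=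
    ht.trans (mul_le_mul_of_nonneg_right h5 h6)
  calc t ^ 2 = |t| ^ 2 := (sq_abs t).symm
    _ ≤ (2 * (eta * (w.mi : E → ℝ) z) * P1 S f z) ^ 2 := by gcongr
    _ = 4 * (eta ^ 2 * (w.mi : E → ℝ) z ^ 2) * P1 S f z ^ 2 := by ring
    _ ≤ 4 * (eta ^ 2 * (w.mi : E → ℝ) z ^ 2) *
        (12 * ((Fintype.card ι : ℝ) + 1) ^ 2 * Q1 S f z) := by gcongr
    _ = _ := by ring

/-- The square of the bound of `R`, for `b`. -/
theorem dR_pw (hZ : Zn S Z N Lam eps) (hs : Sz S Z del h eta) {f : TE E} {t : ℝ} {z : E}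
    (hz : z ∈ Z) (ht : |t| ≤ del z * P2 S f z + h z * P1 S f z) :
    |t| ≤ (del z + h z) * P1 S f z := by
  have h1 := mul_le_mul_of_nonneg_left (P2_le w hZ f hz) (hs.d0 z hz)
  linarith

/-- The list for `c`. -/
def L1c (w : Wd S) (f : TE E) (z : E) : ℝ :=
  (S.e' : E → ℝ) z * (w.mi : E → ℝ) z * ∑ k, ∑ l, (AA S k (AA S l f)).fn z ^ 2 +
    ∑ k, (AA S k f).fn z ^ 2 +
    (S.e : E → ℝ) z * (w.mi : E → ℝ) z * ∑ j, (S.K j f).fn z ^ 2 +
    (S.e : E → ℝ) z * (w.mi : E → ℝ) z * f.fn z ^ 2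

theorem h2Q1 (hZ : Zn S Z N Lam eps) (f : TE E) {z : E} (hz : z ∈ Z) :
    (S.e' : E → ℝ) z ^ 2 * Q1 S f z ≤ L1c w f z := by
  rw [Q1, L1c]
  exact h_num (H856.B.e'_val (S := S) z) (H856.B.mi_val w z) (w.he z) (H856.B.e'_pos w z)
    (H856.B.mi_pos w z) (H856.B.e_ge w hZ hz) (e'_le_mi w hZ hz) (by positivity)
    (by positivity) (by positivity) (by positivity)

theorem sumAA2 (f : TE E) (z : E) : ∑ k, ∑ l, (AA S k (AA S l f)).fn z ^ 2 =
    ∑ i, ∑ j, (S.D i (S.D j f)).fn z ^ 2 + ∑ i, ∑ j, (S.D i (S.K j f)).fn z ^ 2 +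
      (∑ i, ∑ j, (S.K i (S.D j f)).fn z ^ 2 + ∑ i, ∑ j, (S.K i (S.K j f)).fn z ^ 2) := by
  simp only [Fintype.sum_sum_type, AA, H856.B.Ak_inl, H856.B.Ak_inr, Finset.sum_add_distrib]
  ring

theorem sumAA1 (f : TE E) (z : E) : ∑ k, (AA S k f).fn z ^ 2 =
    ∑ i, (S.D i f).fn z ^ 2 + ∑ i, (S.K i f).fn z ^ 2 := by
  simp only [Fintype.sum_sum_type, AA, H856.B.Ak_inl, H856.B.Ak_inr]

theorem d2Q2 (hs : Sz S Z del h eta) (f : TE E) {z : E} (hz : z ∈ Z) {d : ℝ}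
    (hd : del z ^ 2 ≤ d) :
    del z ^ 2 * Q2 S f z ≤ d * ∑ i, ∑ j, (S.D i (S.K j f)).fn z ^ 2 + eta ^ 2 * L1c w f z := by
  have hd2 : del z ^ 2 ≤ eta ^ 2 * (w.mi : E → ℝ) z ^ 2 := by
    rw [← mul_pow]
    exact pow_le_pow_left₀ (hs.d0 z hz) (del_le w hs hz) 2
  have e3 : ∑ i, ∑ j, ((S.D i (S.D j f)).fn z ^ 2 + (S.K i (S.K j f)).fn z ^ 2) =
      ∑ i, ∑ j, (S.D i (S.D j f)).fn z ^ 2 + ∑ i, ∑ j, (S.K i (S.K j f)).fn z ^ 2 := by
    rw [Finset.sum_congr rfl fun i _ => Finset.sum_add_distrib, Finset.sum_add_distrib]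
  have hm : 0 ≤ (mu S : E → ℝ) z := by linarith [H856.B.mu_ge w z]
  rw [Q2, L1c, sumAA2 w, sumAA1 w, e3]
  exact d_num (H856.B.e'_val (S := S) z) (H856.B.mi_val w z) (w.he z) (H856.B.e'_pos w z)
    (H856.B.mi_pos w z) hm (sq_nonneg eta) hd hd2 (by positivity) (by positivity)
    (by positivity) (by positivity) (by positivity) (by positivity) (by positivity)

/-- The square of the bound of `R`, for `c`. -/
theorem dRc_pw (hZ : Zn S Z N Lam eps) (hs : Sz S Z del h eta) {f : TE E} {t d : ℝ} {z : E}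
    (hz : z ∈ Z) (hd : del z ^ 2 ≤ d) (ht : |t| ≤ del z * P2 S f z + h z * P1 S f z) :
    t ^ 2 ≤ 20 * ((Fintype.card ι : ℝ) + 1) ^ 2 *
        (d * ∑ i, ∑ j, (S.D i (S.K j f)).fn z ^ 2) +
      44 * ((Fintype.card ι : ℝ) + 1) ^ 2 * eta ^ 2 * L1c w f z := by
  have h10 : h z ^ 2 ≤ eta ^ 2 * (S.e' : E → ℝ) z ^ 2 := by
    rw [← mul_pow]
    exact pow_le_pow_left₀ (hs.h0 z hz) (h_le w hs hz) 2
  have a1 : t ^ 2 ≤ 2 * (del z ^ 2 * P2 S f z ^ 2) + 2 * (h z ^ 2 * P1 S f z ^ 2) := by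
    calc t ^ 2 = |t| ^ 2 := (sq_abs t).symm
      _ ≤ (del z * P2 S f z + h z * P1 S f z) ^ 2 := by gcongr
      _ ≤ _ := by nlinarith [sq_nonneg (del z * P2 S f z - h z * P1 S f z)]
  exact r_num a1 (sq_nonneg _) (sq_nonneg _) (P2_sq w f z) (P1_sq w f z) (sq_nonneg _)
    (Q1_nn w f z) (d2Q2 w hs f hz hd) (h2Q1 w hZ f hz) h10 (sq_nonneg _)

end pw

/-! ## Norms -/

variable [MeasurableSpace E] [BorelSpace E] [FiniteDimensional ℝ E]
  (μ : Measure E) [μ.IsAddHaarMeasure]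

/-- The list for `b`. -/
def Lb (w : Wd S) (f : TE E) : ℝ :=
  ∑ k, ∑ l, nn μ (w.mi * w.mi) (AA S k (AA S l f)) + ∑ k, nn μ (S.e * w.mi) (AA S k f) +
    nn μ (S.e * S.e) f

/-- The list for `c`. -/
def Lc (w : Wd S) (f : TE E) : ℝ :=
  ∑ k, ∑ l, nn μ (S.e' * w.mi) (AA S k (AA S l f)) + ∑ k, nn μ 1 (AA S k f) +
    ∑ j, nn μ (S.e * w.mi) (S.K j f) + nn μ (S.e * w.mi) f

/-- `|St b - S b|²`. -/
theorem dS_b (hZ : Zn S Z N Lam eps) (hs : Sz S Z del h eta) {f d : TE E} (hd : Su Z d)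
    (hle : ∀ z ∈ Z, |d.fn z| ≤ (del z + h z) * P1 S f z) :
    nn μ 1 d ≤ 48 * ((Fintype.card ι : ℝ) + 1) ^ 2 * eta ^ 2 * Lb μ w f := by
  have e : 48 * ((Fintype.card ι : ℝ) + 1) ^ 2 * eta ^ 2 * Lb μ w f =
      In μ ((48 * ((Fintype.card ι : ℝ) + 1) ^ 2 * eta ^ 2) •
        (∑ k, ∑ l, mS (ml (w.mi * w.mi) (AA S k (AA S l f))) (AA S k (AA S l f)) +
          ∑ k, mS (ml (S.e * w.mi) (AA S k f)) (AA S k f) + mS (ml (S.e * S.e) f) f)) := by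
    rw [map_smul, map_add, map_add, map_sum, map_sum, Lb]
    simp only [map_sum, smul_eq_mul]
    rfl
  rw [e]
  refine H856.B.nn_le μ _ _ fun z => ?_
  rw [H856.B.sm_one, one_mul, ← sq]
  simp only [TE.smul_fn, TE.add_fn, sum_fn, mS_fn, ml_apply, H856.B.sm_mul]
  have h4 := (H856.B.mi_pos w z).le
  have h5 := (w.he z).le
  have key : (w.mi : E → ℝ) z ^ 2 * Q1 S f z ≤
      ∑ k, ∑ l, (w.mi : E → ℝ) z * (w.mi : E → ℝ) z * (AA S k (AA S l f)).fn z *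
          (AA S k (AA S l f)).fn z +
        ∑ k, (S.e : E → ℝ) z * (w.mi : E → ℝ) z * (AA S k f).fn z * (AA S k f).fn z +
        (S.e : E → ℝ) z * (S.e : E → ℝ) z * f.fn z * f.fn z := by
    have h6 := H856.B.mi_val w z
    have h9 := H856.B.mi_le w z
    have s1 : ∑ k, ∑ l, (w.mi : E → ℝ) z * (w.mi : E → ℝ) z * (AA S k (AA S l f)).fn z *
          (AA S k (AA S l f)).fn z = (w.mi : E → ℝ) z ^ 2 *
          ∑ k, ∑ l, (AA S k (AA S l f)).fn z ^ 2 := by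
      rw [Finset.mul_sum]
      refine Finset.sum_congr rfl fun k _ => ?_
      rw [Finset.mul_sum]
      exact Finset.sum_congr rfl fun l _ => by ring
    have s2 : ∑ k, (S.e : E → ℝ) z * (w.mi : E → ℝ) z * (AA S k f).fn z * (AA S k f).fn z =
        (S.e : E → ℝ) z * (w.mi : E → ℝ) z * ∑ k, (AA S k f).fn z ^ 2 := by
      rw [Finset.mul_sum]
      exact Finset.sum_congr rfl fun l _ => by ring
    rw [s1, s2, Q1]
    have t2 : (w.mi : E → ℝ) z ^ 2 * ((S.e : E → ℝ) z * (mu S : E → ℝ) z *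
        ∑ k, (AA S k f).fn z ^ 2) = ((mu S : E → ℝ) z * (w.mi : E → ℝ) z) *
        ((S.e : E → ℝ) z * (w.mi : E → ℝ) z * ∑ k, (AA S k f).fn z ^ 2) := by ring
    rw [h6, one_mul] at t2
    have t3 : (w.mi : E → ℝ) z ^ 2 * ((S.e : E → ℝ) z ^ 2 * f.fn z ^ 2) ≤
        1 * ((S.e : E → ℝ) z ^ 2 * f.fn z ^ 2) := by
      gcongr
      exact pow_le_one₀ h4 h9
    linarith
  by_cases hz : z ∈ Z
  · refine (dS_pw w hZ hs hz (hle z hz)).trans ?_
    exact mul_le_mul_of_nonneg_left key (by positivity)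
  · rw [H856.B.su_zero hd hz]
    have h10 := Q1_nn w f z
    have h11 : 0 ≤ (w.mi : E → ℝ) z ^ 2 * Q1 S f z := by positivity
    have h12 := mul_nonneg (by positivity : 0 ≤ 48 * ((Fintype.card ι : ℝ) + 1) ^ 2 * eta ^ 2)
      (h11.trans key)
    calc (0 : ℝ) ^ 2 = 0 := by norm_num
      _ ≤ _ := h12

omit [MeasurableSpace E] [BorelSpace E] [FiniteDimensional ℝ E] in
theorem L1c_nn (f : TE E) (z : E) : 0 ≤ L1c w f z := by
  have h4 := (H856.B.mi_pos w z).le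
  have h5 := (w.he z).le
  have h2 := (H856.B.e'_pos w z).le
  unfold L1c
  positivity

/-- The list for `c` as a function. -/
def FLc (w : Wd S) (f : TE E) : TE E :=
  ∑ k, ∑ l, mS (ml (S.e' * w.mi) (AA S k (AA S l f))) (AA S k (AA S l f)) +
    ∑ k, mS (ml 1 (AA S k f)) (AA S k f) + ∑ j, mS (ml (S.e * w.mi) (S.K j f)) (S.K j f) +
    mS (ml (S.e * w.mi) f) f

omit [MeasurableSpace E] [BorelSpace E] [FiniteDimensional ℝ E] in
theorem FLc_fn (f : TE E) (z : E) : (FLc w f).fn z = L1c w f z := by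
  have s1 : ∑ k, ∑ l, (S.e' : E → ℝ) z * (w.mi : E → ℝ) z * (AA S k (AA S l f)).fn z *
        (AA S k (AA S l f)).fn z = (S.e' : E → ℝ) z * (w.mi : E → ℝ) z *
        ∑ k, ∑ l, (AA S k (AA S l f)).fn z ^ 2 := by
    rw [Finset.mul_sum]
    refine Finset.sum_congr rfl fun k _ => ?_
    rw [Finset.mul_sum]
    exact Finset.sum_congr rfl fun l _ => by ring
  have s2 : ∑ k, (AA S k f).fn z * (AA S k f).fn z = ∑ k, (AA S k f).fn z ^ 2 :=
    Finset.sum_congr rfl fun l _ => by ring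
  have s3 : ∑ j, (S.e : E → ℝ) z * (w.mi : E → ℝ) z * (S.K j f).fn z * (S.K j f).fn z =
      (S.e : E → ℝ) z * (w.mi : E → ℝ) z * ∑ j, (S.K j f).fn z ^ 2 := by
    rw [Finset.mul_sum]
    exact Finset.sum_congr rfl fun l _ => by ring
  have s4 : (S.e : E → ℝ) z * (w.mi : E → ℝ) z * f.fn z * f.fn z =
      (S.e : E → ℝ) z * (w.mi : E → ℝ) z * f.fn z ^ 2 := by ring
  simp only [FLc, L1c, TE.add_fn, sum_fn, mS_fn, ml_apply, H856.B.sm_mul, H856.B.sm_one,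
    one_mul]
  rw [s1, s2, s3, s4]

theorem In_FLc (f : TE E) : In μ (FLc w f) = Lc μ w f := by
  rw [FLc, Lc, map_add, map_add, map_add, map_sum, map_sum, map_sum]
  simp only [map_sum]
  rfl

theorem sS_num {t e' m a mi2 q L : ℝ} (ht : t ≤ a * (mi2 * q)) (ha : 0 ≤ a) (hm : 0 ≤ e' * m)
    (h : e' * m * (mi2 * q) ≤ L) : e' * m * t ≤ a * L := by
  have h1 := mul_le_mul_of_nonneg_left ht hm
  have h2 := mul_le_mul_of_nonneg_left h ha
  have h3 : e' * m * (a * (mi2 * q)) = a * (e' * m * (mi2 * q)) := by ring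
  rw [h3] at h1
  exact h1.trans h2

theorem sc_num {e e' m mi X Y K F : ℝ} (h1 : e * e' = 1) (h6 : m * mi = 1) (he : 0 < e)
    (hmi : 0 < mi) (hK : 0 ≤ K) :
    e' * m * (mi ^ 2 * (X + e * m * Y + e ^ 2 * F)) ≤
      e' * mi * X + Y + e * mi * K + e * mi * F := by
  have t1 : e' * m * (mi ^ 2 * (X + e * m * Y + e ^ 2 * F)) =
      (m * mi) * (e' * mi * X) + (m * mi) * (m * mi) * (e * e') * Y +
        (m * mi) * (e * e') * (e * mi * F) := by ring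
  rw [t1, h1, h6]
  have : 0 ≤ e * mi * K := by positivity
  linarith

/-- `∫ (μ / E) |St c - S c|²`. -/
theorem dS_c (hZ : Zn S Z N Lam eps) (hs : Sz S Z del h eta) {f d : TE E} (hd : Su Z d)
    (hle : ∀ z ∈ Z, |d.fn z| ≤ (del z + h z) * P1 S f z) :
    nn μ (S.e' * mu S) d ≤ 48 * ((Fintype.card ι : ℝ) + 1) ^ 2 * eta ^ 2 * Lc μ w f := by
  have e : 48 * ((Fintype.card ι : ℝ) + 1) ^ 2 * eta ^ 2 * Lc μ w f =
      In μ ((48 * ((Fintype.card ι : ℝ) + 1) ^ 2 * eta ^ 2) • FLc w f) := by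
    rw [map_smul, In_FLc, smul_eq_mul]
  rw [e]
  refine H856.B.nn_le μ _ _ fun z => ?_
  rw [TE.smul_fn, FLc_fn, H856.B.sm_mul, ← sq]
  have ha : 0 ≤ 48 * ((Fintype.card ι : ℝ) + 1) ^ 2 * eta ^ 2 := by positivity
  by_cases hz : z ∈ Z
  · refine sS_num (dS_pw w hZ hs hz (hle z hz)) ha ?_ ?_
    · exact mul_nonneg (H856.B.e'_pos w z).le (by linarith [H856.B.mu_ge w z])
    · rw [Q1, L1c]
      exact sc_num (H856.B.e'_val (S := S) z) (H856.B.mi_val w z) (w.he z)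
        (H856.B.mi_pos w z) (by positivity)
  · rw [H856.B.su_zero hd hz]
    have h12 := mul_nonneg ha (L1c_nn w f z)
    calc (S.e' : E → ℝ) z * (mu S : E → ℝ) z * (0 : ℝ) ^ 2 = 0 := by ring
      _ ≤ _ := h12

/-- The fifth cost. -/
def F5 (S : Dat ι E) (d2 : Sm E) (f : TE E) : ℝ := ∑ i, ∑ j, nn μ d2 (S.D i (S.K j f))

/-- The density of the fifth cost. -/
def FD (S : Dat ι E) (d2 : Sm E) (f : TE E) : TE E :=
  ∑ i, ∑ j, mS (ml d2 (S.D i (S.K j f))) (S.D i (S.K j f))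

omit [MeasurableSpace E] [BorelSpace E] [FiniteDimensional ℝ E] in
theorem FD_fn (d2 : Sm E) (f : TE E) (z : E) :
    (FD S d2 f).fn z = (d2 : E → ℝ) z * ∑ i, ∑ j, (S.D i (S.K j f)).fn z ^ 2 := by
  simp only [FD, sum_fn, mS_fn, ml_apply]
  rw [Finset.mul_sum]
  refine Finset.sum_congr rfl fun k _ => ?_
  rw [Finset.mul_sum]
  exact Finset.sum_congr rfl fun l _ => by ring

theorem In_FD (d2 : Sm E) (f : TE E) : In μ (FD S d2 f) = F5 μ S d2 f := by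
  rw [FD, F5, map_sum]
  simp only [map_sum]
  rfl

/-- `|Rt c - R c|²`. -/
theorem dR_c (hZ : Zn S Z N Lam eps) (hs : Sz S Z del h eta) {d2 : Sm E}
    (hd2 : ∀ z ∈ Z, del z ^ 2 ≤ (d2 : E → ℝ) z) (hd2' : ∀ z, 0 ≤ (d2 : E → ℝ) z)
    {f d : TE E} (hd : Su Z d)
    (hle : ∀ z ∈ Z, |d.fn z| ≤ del z * P2 S f z + h z * P1 S f z) :
    nn μ 1 d ≤ 20 * ((Fintype.card ι : ℝ) + 1) ^ 2 * F5 μ S d2 f +
      44 * ((Fintype.card ι : ℝ) + 1) ^ 2 * eta ^ 2 * Lc μ w f := by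
  have e : 20 * ((Fintype.card ι : ℝ) + 1) ^ 2 * F5 μ S d2 f +
      44 * ((Fintype.card ι : ℝ) + 1) ^ 2 * eta ^ 2 * Lc μ w f =
      In μ ((20 * ((Fintype.card ι : ℝ) + 1) ^ 2) • FD S d2 f +
        (44 * ((Fintype.card ι : ℝ) + 1) ^ 2 * eta ^ 2) • FLc w f) := by
    rw [map_add, map_smul, map_smul, In_FLc, In_FD, smul_eq_mul, smul_eq_mul]
  rw [e]
  refine H856.B.nn_le μ _ _ fun z => ?_
  rw [TE.add_fn, TE.smul_fn, TE.smul_fn, FLc_fn, FD_fn, H856.B.sm_one, one_mul, ← sq]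
  by_cases hz : z ∈ Z
  · exact dRc_pw w hZ hs hz (hd2 z hz) (hle z hz)
  · rw [H856.B.su_zero hd hz]
    have h7 : 0 ≤ (d2 : E → ℝ) z * ∑ i, ∑ j, (S.D i (S.K j f)).fn z ^ 2 :=
      mul_nonneg (hd2' z) (Finset.sum_nonneg fun i _ => Finset.sum_nonneg fun j _ => sq_nonneg _)
    have ha : 0 ≤ 44 * ((Fintype.card ι : ℝ) + 1) ^ 2 * eta ^ 2 := by positivity
    have hb : 0 ≤ 20 * ((Fintype.card ι : ℝ) + 1) ^ 2 := by positivity
    calc (0 : ℝ) ^ 2 = 0 := by norm_num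
      _ ≤ _ := add_nonneg (mul_nonneg hb h7) (mul_nonneg ha (L1c_nn w f z))

end Vale.Agent.P088.R2.H593.B
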