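import Vale.Agent.P088.R2.H593.B.Inv
import Vale.Agent.P088.R2.H676.F.Oc

/-!
# Zone B1: the comparison of the star densities in the form of the one-cell theorem (`hFp`)
-/

open MeasureTheory Set Filter
open scoped ContDiff Topology

noncomputable section

namespace Vale.Agent.P088.R2.H593.B

open Vale.Agent.P088.HY.H593W
open Vale.Agent.P088.R2.H464.EP Vale.Agent.P088.R2.H961.B.T Vale.Agent.P088.R2.H516.B
open Vale.Agent.P088.R2.H961.GW (Sl)
open Vale.Agent.P088.R2.H464.B (Ge SX SY zr sX sY Hs)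

section scale

variable {ι E : Type} [Fintype ι] [DecidableEq ι] [NormedAddCommGroup E] [NormedSpace ℝ E]
  [MeasureSpace E] [BorelSpace E] [FiniteDimensional ℝ E] [(volume : Measure E).IsAddHaarMeasure]

variable {S : Dat ι E} {b c : TE E} (t : ℝ)

theorem Tf_smul : Tf volume S (t • b) (t • c) = t ^ 2 * Tf volume S b c := by
  have e1 : S.Ds2 (t • b) + (1 / 4 : ℝ) • K2s S (t • b) + Rs S (t • c) =
      t • (S.Ds2 b + (1 / 4 : ℝ) • K2s S b + Rs S c) := by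
    simp only [map_smul]; module
  have e2 : Ro S (t • b) - So S (t • c) = t • (Ro S b - So S c) := by
    simp only [map_smul]; module
  rw [Tf, Tf, e1, e2, nn_smul, nn_smul]
  ring

theorem Sq_smul : Sq volume S (t • b) (t • c) = t ^ 2 * Sq volume S b c := by
  rw [Sq, Sq]
  simp only [map_smul, nn_smul]
  ring

theorem Bd_smul {w : Wd S} {N : Sm E} {M MS : ℝ} (h : Bd volume S w N b c M MS) :
    Bd volume S w N (t • b) (t • c) (t ^ 2 * M) (t ^ 2 * MS) := by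
  have q : ∀ (θ : Sm E) (f : TE E) {K : ℝ}, nn volume θ f ≤ K →
      nn volume θ (t • f) ≤ t ^ 2 * K := fun θ f K hK => by
    rw [H856.B.nn_smul]; exact mul_le_mul_of_nonneg_left hK (sq_nonneg t)
  refine ⟨q _ _ h.b0, fun k i => ?_, fun k i k' j => ?_, q _ _ h.c0, fun i => ?_, fun i => ?_,
    fun i j => ?_, ?_⟩
  · rw [map_smul]; exact q _ _ (h.b1 k i)
  · rw [map_smul, map_smul]; exact q _ _ (h.b2 k i k' j)
  · rw [map_smul, map_smul]; exact ⟨q _ _ (h.c1 i).1, q _ _ (h.c1 i).2⟩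
  · rw [map_smul, map_smul]; exact ⟨q _ _ (h.c1K i).1, q _ _ (h.c1K i).2⟩
  · simp only [map_smul]
    exact ⟨q _ _ (h.c2 i j).1, q _ _ (h.c2 i j).2.1, q _ _ (h.c2 i j).2.2⟩
  · rw [map_smul]; exact q _ _ h.c3

end scale

section uni

variable {E ι : Type*} [NormedAddCommGroup E] [NormedSpace ℝ E] [Fintype ι] [MeasureSpace E]
  [BorelSpace E] [FiniteDimensional ℝ E] [(volume : Measure E).IsAddHaarMeasure]

omit [BorelSpace E] [FiniteDimensional ℝ E] [(volume : Measure E).IsAddHaarMeasure] in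
/-- `∫ sta` over the whole space is the integral over the cell. -/
theorem In_univ_sta {σ τ : Sl E ι} {v₁ v₂ W a b : E → ℝ} {Z : Set E}
    (ha : H961.GW.Te Z a) (hb : H961.GW.Te Z b) :
    H961.GW.In univ (fun _ => 1) (H551.E.sta σ τ v₁ v₂ W a b) =
      H961.GW.In Z (fun _ => 1) (H551.E.sta σ τ v₁ v₂ W a b) := by
  rw [H961.GW.In, H961.GW.In, setIntegral_univ]
  symm
  refine setIntegral_eq_integral_of_forall_compl_eq_zero fun z hz => ?_
  have za : ∀ {f : E → ℝ}, H961.GW.Te Z f → f =ᶠ[𝓝 z] fun _ => 0 := fun {f} hf => by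
    have h1 : z ∉ tsupport f := fun h => hz (hf.2.2 h)
    filter_upwards [(isClosed_tsupport f).isOpen_compl.mem_nhds h1] with w hw
    exact image_eq_zero_of_notMem_tsupport hw
  rw [H676.F.sta_zero σ τ v₁ v₂ W (za ha) (za hb), mul_zero]

end uni

section cd

open Vale.Agent.P088.LR Vale.Agent.P088.HY
open Vale.Agent.P088.R2.H961.GW (slx sly)
open Vale.Agent.P088.R2.H961.F (CD cX cY)

variable {n : ℕ}

local instance haarVV' : (volume : Measure (VV n)).IsAddHaarMeasure :=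
  Measure.prod.instIsAddHaarMeasure (volume : Measure (V n)) (volume : Measure (V n))

variable {s₁ s₂ : MF n} (c₁ : ∀ i j, ContDiff ℝ ∞ fun x => s₁ x i j)
  (c₂ : ∀ i j, ContDiff ℝ ∞ fun x => s₂ x i j) (y₁ : ∀ x i j, s₁ x i j = s₁ x j i)
  (y₂ : ∀ x i j, s₂ x i j = s₂ x j i)
include c₁ c₂ y₁ y₂

/-- **Hypothesis `hFp` of the one-cell theorem `cd_one`, true slots.** -/
theorem hFp_cd (c : CD n) {α : Type*} {G : Ge α (Fin n) (VV n)}
    {s d : Fin n → Fin n → α → VV n → ℝ} (h : Hs G s d) (x : α)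
    (ha : G.a x = c.T.a) (hb : G.b x = c.T.b)
    (h1 : ∀ i j, ∀ z ∈ G.Z x, sX s d i j x z = (cX c.N c₁ i j : VV n → ℝ) z)
    (h2 : ∀ i j, ∀ z ∈ G.Z x, sY s d i j x z = (cY c.N c₂ i j : VV n → ℝ) z)
    {W : Sm (VV n)} {W' W₀ : α → VV n → ℝ} {k : ℝ} (hW' : H961.GW.Sm (G.Z x) (W' x))
    (hW : ∀ z ∈ G.Z x, W' x z = (W : VV n → ℝ) z + k) {e μ ν η : α → VV n → ℝ} {C : ℝ}
    (hC : 0 ≤ C)
    (hfr : ∀ β γ D : VV n → ℝ,
      H961.GW.Te (G.Z x) β → H961.GW.Te (G.Z x) γ → IntegrableOn D (G.Z x) →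
      (∀ z ∈ G.Z x, η x z * H464.B.Qd G W₀ e μ ν (fun _ => β) (fun _ => γ) x z ≤ D z) →
      |H961.GW.In (G.Z x) (fun _ => 1) (H551.E.sta (SX G s d x) (SY G s d x) (fun _ => 0)
          (fun _ => 0) (W' x) (fun z => β z + γ z) fun z => β z - γ z) -
        H961.GW.In (G.Z x) (fun _ => 1) (H551.E.sta (SX G zr zr x) (SY G zr zr x) (fun _ => 0)
          (fun _ => 0) (W₀ x) (fun z => β z + γ z) fun z => β z - γ z)| ≤
            C * ∫ z in G.Z x, D z)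
    {w : Wd c.T} {N : Sm (VV n)}
    (hW₀ : W₀ x = (c.T.w : VV n → ℝ)) {B eta : ℝ} (hB0 : 0 ≤ B) (he0 : 0 ≤ eta)
    (hη : ∀ z ∈ G.Z x, η x z ≤ eta)
    (q1 : ∀ z ∈ G.Z x, e x z ^ 2 ≤ B * (c.T.e : VV n → ℝ) z ^ 2)
    (q2 : ∀ z ∈ G.Z x, e x z / μ x z ≤ B * ((c.T.e : VV n → ℝ) z * (w.mi : VV n → ℝ) z))
    (q3 : ∀ z ∈ G.Z x, e x z / μ x z * ν x z ^ 2 ≤
      B * ((c.T.e : VV n → ℝ) z * (w.mi : VV n → ℝ) z *
        ((N : VV n → ℝ) z + (mu c.T : VV n → ℝ) z) ^ 2)) (hB1 : 1 ≤ B)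
    (hQ0 : ∀ z ∈ G.Z x, 0 ≤ e x z / μ x z) :
    H676.F.hFp (slx (fun _ => 1) s₁) (sly (fun _ => 1) s₂) c.T w W 0 0 N (G.Z x)
      (C * B * (2 * (n : ℝ) + 1)) eta := by
  intro a b hA hB f g ef eg sf sg M MS hBd
  have k1 : Su (G.Z x) ((1 / 2 : ℝ) • f) := H856.B.su_smul sf _
  have k2 : Su (G.Z x) ((1 / 2 : ℝ) • g) := H856.B.su_smul sg _
  have h3 := hF_cd c₁ c₂ y₁ y₂ c h x ha hb h1 h2 hW' hW hC hfr hW₀ hB0 he0 hη q1 q2 q3 hB1
    k1 k2 (Bd_smul (1 / 2) hBd) fun z hz => Qd_nn (hQ0 z hz)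
  have ea : ((1 / 2 : ℝ) • f + (1 / 2 : ℝ) • g).fn = a := by
    funext z
    change 1 / 2 * f.fn z + 1 / 2 * g.fn z = a z
    rw [ef, eg]; ring
  have eb : ((1 / 2 : ℝ) • f - (1 / 2 : ℝ) • g).fn = b := by
    funext z
    change 1 / 2 * f.fn z - 1 / 2 * g.fn z = b z
    rw [ef, eg]; ring
  rw [ea, eb, Tf_smul, Sq_smul] at h3
  have e0 : H961.GW.In univ (fun _ => 1) (H551.E.sta (slx (fun _ => 1) s₁) (sly (fun _ => 1) s₂)
      ((0 : Sm (VV n)) : VV n → ℝ) ((0 : Sm (VV n)) : VV n → ℝ) (W : VV n → ℝ) a b) =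
      H961.GW.In (G.Z x) (fun _ => 1) (H551.E.sta (slx (fun _ => 1) s₁) (sly (fun _ => 1) s₂)
        (fun _ => 0) (fun _ => 0) (W : VV n → ℝ) a b) := In_univ_sta hA hB
  rw [e0]
  rw [abs_le] at h3 ⊢
  constructor <;> linarith [h3.1, h3.2]

end cd

end Vale.Agent.P088.R2.H593.B
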