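import Vale.Agent.P088.R2.H593.B.Hf
import Vale.Agent.P088.R2.H961.F.CellD

/-!
# Zone B1: the star form does not depend on the frame

`∫ sta` only depends on the operators `P`, `Q` of the two slots on the test functions. Hence the
star form of two flat slots is the one of helper464's slots `SX`, `SY` in an adapted frame.
-/

open MeasureTheory Set Filter
open scoped ContDiff Topology

noncomputable section

namespace Vale.Agent.P088.R2.H593.B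

open Vale.Agent.P088.HY.H593W
open Vale.Agent.P088.R2.H464.EP Vale.Agent.P088.R2.H961.B.T Vale.Agent.P088.R2.H516.B
open Vale.Agent.P088.R2.H961.GW (Sl)
open Vale.Agent.P088.R2.H961.F (dd Pv Xv Yv id1 Ad mS)
open Vale.Agent.P088.R2.H464.B (Ge SX SY zr sX sY Hs)
open Vale.Agent.P088.R2.H856.O (Flt)

section gen

variable {E ι κ : Type*} [NormedAddCommGroup E] [NormedSpace ℝ E] [Fintype ι] [Fintype κ]
  [MeasureSpace E] [FiniteDimensional ℝ E] [BorelSpace E] [(volume : Measure E).IsAddHaarMeasure]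

/-- `∫ sta` depends on the operators only. -/
theorem sta_inv {σ τ : Sl E ι} {σ' τ' : Sl E κ} {U : Set E} {θ : E → ℝ} (ok : σ.Ok U θ)
    (ot : τ.Ok U θ) (cm : H961.GW.Cm σ τ U) (ok' : σ'.Ok U θ) (ot' : τ'.Ok U θ)
    (cm' : H961.GW.Cm σ' τ' U) {W W' a b : E → ℝ} (hW : H961.GW.Sm U W) (hW' : H961.GW.Sm U W')
    (ha : H961.GW.Te U a) (hb : H961.GW.Te U b)
    (p1 : ∀ z ∈ U, σ.P (fun _ => 0) W a z = σ'.P (fun _ => 0) W' a z)
    (p2 : ∀ z ∈ U, σ.P (fun _ => 0) W b z = σ'.P (fun _ => 0) W' b z)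
    (p3 : ∀ z ∈ U, τ.P (fun _ => 0) W a z = τ'.P (fun _ => 0) W' a z)
    (p4 : ∀ z ∈ U, τ.P (fun _ => 0) W b z = τ'.P (fun _ => 0) W' b z)
    (q1 : ∀ z ∈ U, σ.Q (fun _ => 0) W a z = σ'.Q (fun _ => 0) W' a z)
    (q2 : ∀ z ∈ U, τ.Q (fun _ => 0) W b z = τ'.Q (fun _ => 0) W' b z) :
    H961.GW.In U θ (H551.E.sta σ τ (fun _ => 0) (fun _ => 0) W a b) =
      H961.GW.In U θ (H551.E.sta σ' τ' (fun _ => 0) (fun _ => 0) W' a b) := by
  have hU := ok.op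
  have z0 : H961.GW.Sm U (fun _ : E => (0 : ℝ)) := contDiffOn_const
  have d0 : ∀ (s : Sl E ι), ∀ z ∈ U, ∀ k, s.D k (fun _ => 0) z = 0 := fun s z _ k => by
    rw [Sl.D]; simp
  have d0' : ∀ (s : Sl E κ), ∀ z ∈ U, ∀ k, s.D k (fun _ => 0) z = 0 := fun s z _ k => by
    rw [Sl.D]; simp
  have e1 := H551.E.T_dn ok ot cm z0 z0 (d0 τ) (d0 σ) hW ha hb
  have e1' := H551.E.T_dn ok' ot' cm' z0 z0 (d0' τ') (d0' σ') hW' ha hb
  have e2 : H961.GW.In U θ (H551.E.dn σ τ (fun _ => 0) (fun _ => 0) W a b) =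
      H961.GW.In U θ (H551.E.sqd σ τ (fun _ => 0) (fun _ => 0) W a b) +
      H961.GW.In U θ (H551.E.sta σ τ (fun _ => 0) (fun _ => 0) W a b) := by
    unfold H551.E.dn
    exact H961.GW.In_add hU ok.ts (H551.E.tsqd ok ot z0 z0 hW ha hb)
      (H551.E.tsta ok ot z0 z0 hW ha hb)
  have e2' : H961.GW.In U θ (H551.E.dn σ' τ' (fun _ => 0) (fun _ => 0) W' a b) =
      H961.GW.In U θ (H551.E.sqd σ' τ' (fun _ => 0) (fun _ => 0) W' a b) +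
      H961.GW.In U θ (H551.E.sta σ' τ' (fun _ => 0) (fun _ => 0) W' a b) := by
    unfold H551.E.dn
    exact H961.GW.In_add hU ok'.ts (H551.E.tsqd ok' ot' z0 z0 hW' ha hb)
      (H551.E.tsta ok' ot' z0 z0 hW' ha hb)
  have e3 : H961.GW.In U θ (H551.E.sqd σ τ (fun _ => 0) (fun _ => 0) W a b) =
      H961.GW.In U θ (H551.E.sqd σ' τ' (fun _ => 0) (fun _ => 0) W' a b) :=
    H961.GW.In_congr hU fun z hz => by
      unfold H551.E.sqd
      rw [p1 z hz, p2 z hz, p3 z hz, p4 z hz]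
  have e4 : H961.GW.TT σ τ U θ (fun _ => 0) (fun _ => 0) W a b =
      H961.GW.TT σ' τ' U θ (fun _ => 0) (fun _ => 0) W' a b := by
    unfold H961.GW.TT
    congr 1
    · exact H961.GW.In_congr hU fun z hz => by rw [q1 z hz, q2 z hz]
    · exact H961.GW.In_congr hU fun z hz => by rw [p3 z hz, p2 z hz]
  linarith

end gen

section loc

variable {E ι : Type*} [NormedAddCommGroup E] [NormedSpace ℝ E] [Fintype ι]

/-- Two slots with the same directions and the same metric on `U`. -/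
structure Sim (σ σ' : Sl E ι) (U : Set E) : Prop where
  r : σ.ρ = σ'.ρ
  e : σ.e = σ'.e
  k : σ.k = σ'.k
  s : ∀ i j, ∀ z ∈ U, σ.s i j z = σ'.s i j z

variable {σ σ' : Sl E ι} {U : Set E} {W W' f v : E → ℝ} {c : ℝ}

omit [Fintype ι] in
theorem Sim.D (h : Sim σ σ' U) (i : ι) (f : E → ℝ) : σ.D i f = σ'.D i f := by
  funext z
  rw [Sl.D, Sl.D, h.r, h.e]

/-- Locality of `P` and `Q`. -/
theorem Sim.PQ (h : Sim σ σ' U) (hU : IsOpen U) (hW : ∀ z ∈ U, W z = W' z + c) {z : E}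
    (hz : z ∈ U) : σ.P v W f z = σ'.P v W' f z ∧ σ.Q v W f z = σ'.Q v W' f z := by
  have w1 : ∀ j, ∀ y ∈ U, σ'.D j W y = σ'.D j W' y := fun j y hy => by
    rw [H961.GW.D_congr σ' hU (g := fun z => W' z + c) hW j hy, Sl.D, Sl.D, fderiv_add_const]
  have w2 : ∀ i j, ∀ y ∈ U, σ'.D i (σ'.D j W) y = σ'.D i (σ'.D j W') y := fun i j y hy =>
    H961.GW.D_congr σ' hU (w1 j) i hy
  have s1 : ∀ l i j, ∀ y ∈ U, σ'.D l (σ.s i j) y = σ'.D l (σ'.s i j) y := fun l i j y hy =>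
    H961.GW.D_congr σ' hU (h.s i j) l hy
  have g1 : σ.Γ W f z = σ'.Γ W' f z := by
    unfold Sl.Γ
    refine Finset.sum_congr rfl fun i _ => Finset.sum_congr rfl fun j _ => ?_
    rw [h.D, h.D, h.s i j z hz, w1 i z hz]
  have g2 : σ.F W z = σ'.F W' z := by
    unfold Sl.F Sl.Γ
    refine Finset.sum_congr rfl fun i _ => Finset.sum_congr rfl fun j _ => ?_
    rw [h.D, h.D, h.s i j z hz, w1 i z hz, w1 j z hz]
  have g3 : σ.Λ W z = σ'.Λ W' z := by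
    unfold Sl.Λ
    refine Finset.sum_congr rfl fun i _ => Finset.sum_congr rfl fun j _ => ?_
    rw [h.D j, h.D i, h.D i, h.s i j z hz, h.k, s1 i i j z hz, w2 i j z hz, w1 j z hz]
  have g4 : σ.Λ f z = σ'.Λ f z := by
    unfold Sl.Λ
    refine Finset.sum_congr rfl fun i _ => Finset.sum_congr rfl fun j _ => ?_
    rw [h.D j, h.D i, h.D i, h.s i j z hz, h.k, s1 i i j z hz]
  unfold Sl.P Sl.Q Sl.K
  rw [g1, g2, g3, g4]
  exact ⟨rfl, rfl⟩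

end loc

section fr

variable {ι E : Type} [Fintype ι] [NormedAddCommGroup E] [NormedSpace ℝ E]

/-- `Q` of a flat slot in a frame. -/
theorem Q_fr {σ : Sl E ι} {U : Set E} {θ : E → ℝ} {W v : Sm E} {z : E} (h : Flt σ)
    (ok : σ.Ok U θ) {M : ι → ι → ℝ} {S : ι → ι → Sm E}
    (hs : ∀ i j, σ.s i j = (mS M S i j : E → ℝ)) {X : ι → E}
    (hX : ∀ k, X k = ∑ i, M i k • σ.e i) (hz : z ∈ U) (f : TE E) :
    σ.Q (v : E → ℝ) (W : E → ℝ) f.fn z = (Pv (-W) X S v f).fn z := by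
  rw [H961.GW.Q_neg ok _ (scd W).contDiffOn _ hz]
  exact H961.F.P_fr (W := -W) h ok hs hX hz f

variable [DecidableEq ι] [MeasureSpace E] [FiniteDimensional ℝ E] [BorelSpace E]
  [(volume : Measure E).IsAddHaarMeasure]

/-- **The star form in an adapted frame.** -/
theorem sta_fr {α : Type*} {G : Ge α ι E} {s d : ι → ι → α → E → ℝ} (h : Hs G s d) (x : α)
    {σ τ : Sl E ι} (fs : Flt σ) (ft : Flt τ) (ok : σ.Ok (G.Z x) fun _ => 1)
    (ot : τ.Ok (G.Z x) fun _ => 1) (cm : H961.GW.Cm σ τ (G.Z x)) {M : ι → ι → ℝ}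
    (ad : Ad σ τ M (G.a x) (G.b x)) {S₁ S₂ : ι → ι → Sm E}
    (y₁ : ∀ i j, S₁ i j = S₁ j i) (y₂ : ∀ i j, S₂ i j = S₂ j i)
    (hs : ∀ i j, σ.s i j = (mS M S₁ i j : E → ℝ)) (ht : ∀ i j, τ.s i j = (mS M S₂ i j : E → ℝ))
    (h1 : ∀ i j, ∀ z ∈ G.Z x, sX s d i j x z = (S₁ i j : E → ℝ) z)
    (h2 : ∀ i j, ∀ z ∈ G.Z x, sY s d i j x z = (S₂ i j : E → ℝ) z)
    {W : Sm E} {W' : E → ℝ} {c : ℝ} (hW' : H961.GW.Sm (G.Z x) W')
    (hW : ∀ z ∈ G.Z x, W' z = (W : E → ℝ) z + c) {a b : TE E} (sa : Su (G.Z x) a)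
    (sb : Su (G.Z x) b) :
    H961.GW.In (G.Z x) (fun _ => 1) (H551.E.sta (SX G s d x) (SY G s d x) (fun _ => 0)
        (fun _ => 0) W' a.fn b.fn) =
      H961.GW.In (G.Z x) (fun _ => 1) (H551.E.sta σ τ (fun _ => 0) (fun _ => 0) (W : E → ℝ)
        a.fn b.fn) := by
  have hU := G.op x
  have m1 : Sim (SX G s d x) (slo (Xv (G.a x) (G.b x)) S₁) (G.Z x) := ⟨rfl, rfl, rfl, h1⟩
  have m2 : Sim (SY G s d x) (slo (Yv (G.a x) (G.b x)) S₂) (G.Z x) := ⟨rfl, rfl, rfl, h2⟩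
  have P1 : ∀ (f : TE E), ∀ z ∈ G.Z x, (SX G s d x).P (fun _ => 0) W' f.fn z =
      σ.P (fun _ => 0) (W : E → ℝ) f.fn z := fun f z hz =>
    ((m1.PQ hU hW hz).1.trans (congrFun (P_slo _ S₁ y₁ 0 W f) z)).trans
      (H961.F.P_fr (v := 0) fs ok hs ad.X hz f).symm
  have P2 : ∀ (f : TE E), ∀ z ∈ G.Z x, (SY G s d x).P (fun _ => 0) W' f.fn z =
      τ.P (fun _ => 0) (W : E → ℝ) f.fn z := fun f z hz =>
    ((m2.PQ hU hW hz).1.trans (congrFun (P_slo _ S₂ y₂ 0 W f) z)).trans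
      (H961.F.P_fr (v := 0) ft ot ht ad.Y hz f).symm
  have Q1 : ∀ (f : TE E), ∀ z ∈ G.Z x, (SX G s d x).Q (fun _ => 0) W' f.fn z =
      σ.Q (fun _ => 0) (W : E → ℝ) f.fn z := fun f z hz =>
    ((m1.PQ hU hW hz).2.trans (congrFun (Q_slo _ S₁ y₁ 0 W f) z)).trans
      (Q_fr (v := 0) fs ok hs ad.X hz f).symm
  have Q2 : ∀ (f : TE E), ∀ z ∈ G.Z x, (SY G s d x).Q (fun _ => 0) W' f.fn z =
      τ.Q (fun _ => 0) (W : E → ℝ) f.fn z := fun f z hz =>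
    ((m2.PQ hU hW hz).2.trans (congrFun (Q_slo _ S₂ y₂ 0 W f) z)).trans
      (Q_fr (v := 0) ft ot ht ad.Y hz f).symm
  exact sta_inv (h.okx x) (h.oky x) (h.cm x) ok ot cm hW' (scd W).contDiffOn (te_fn sa) (te_fn sb)
    (P1 a) (P1 b) (P2 a) (P2 b) (Q1 a) (Q2 b)

end fr

/-! ## The cells -/

section cd

open Vale.Agent.P088.LR Vale.Agent.P088.HY
open Vale.Agent.P088.R2.H961.GW (slx sly Fr0 okx oky cmm tht)
open Vale.Agent.P088.R2.H961.F (CD cX cY ad_frM flt_x flt_y mS_cX mS_cY cX_symm cY_symm)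

variable {n : ℕ}

local instance haarVV : (volume : Measure (VV n)).IsAddHaarMeasure :=
  Measure.prod.instIsAddHaarMeasure (volume : Measure (V n)) (volume : Measure (V n))

theorem fr0 {s : MF n} (h : ∀ i j, ContDiff ℝ ∞ (fun x => s x i j))
    (sy : ∀ x i j, s x i j = s x j i) : Fr0 (fun _ => 1) s (univ : Set (V n)) where
  op := isOpen_univ
  rp _ _ := one_pos
  rs := contDiffOn_const
  ss i j := (h i j).contDiffOn
  sy := sy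

theorem tht1 : tht (n := n) (fun _ => 1) (fun _ => 1) = fun _ => 1 := by
  funext _
  simp [tht]

variable {s₁ s₂ : MF n} {U : Set (VV n)} (c₁ : ∀ i j, ContDiff ℝ ∞ fun x => s₁ x i j)
  (c₂ : ∀ i j, ContDiff ℝ ∞ fun x => s₂ x i j) (y₁ : ∀ x i j, s₁ x i j = s₁ x j i)
  (y₂ : ∀ x i j, s₂ x i j = s₂ x j i)
include c₁ c₂ y₁ y₂

/-- The flat slots on an open set. -/
theorem okx' (hU : IsOpen U) : (slx (fun _ => 1) s₁).Ok U (fun _ => 1) := by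
  have := okx (fr0 c₁ y₁) (fr0 c₂ y₂) hU (fun z _ => ⟨mem_univ _, mem_univ _⟩)
  rwa [tht1] at this

theorem oky' (hU : IsOpen U) : (sly (fun _ => 1) s₂).Ok U (fun _ => 1) := by
  have := oky (fr0 c₁ y₁) (fr0 c₂ y₂) hU (fun z _ => ⟨mem_univ _, mem_univ _⟩)
  rwa [tht1] at this

theorem cm' (hU : IsOpen U) :
    H961.GW.Cm (slx (fun _ => 1) s₁) (sly (fun _ => 1) s₂) U :=
  cmm (fr0 c₁ y₁) (fr0 c₂ y₂) hU (fun z _ => ⟨mem_univ _, mem_univ _⟩)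

/-- **The star form of the true slots** in the frame of the cell. -/
theorem sta_cd (c : CD n) {α : Type*} {G : Ge α (Fin n) (VV n)}
    {s d : Fin n → Fin n → α → VV n → ℝ} (h : Hs G s d) (x : α)
    (ha : G.a x = c.T.a) (hb : G.b x = c.T.b)
    (h1 : ∀ i j, ∀ z ∈ G.Z x, sX s d i j x z = (cX c.N c₁ i j : VV n → ℝ) z)
    (h2 : ∀ i j, ∀ z ∈ G.Z x, sY s d i j x z = (cY c.N c₂ i j : VV n → ℝ) z)
    {W : Sm (VV n)} {W' : VV n → ℝ} {k : ℝ} (hW' : H961.GW.Sm (G.Z x) W')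
    (hW : ∀ z ∈ G.Z x, W' z = (W : VV n → ℝ) z + k) {a b : TE (VV n)} (sa : Su (G.Z x) a)
    (sb : Su (G.Z x) b) :
    H961.GW.In (G.Z x) (fun _ => 1) (H551.E.sta (SX G s d x) (SY G s d x) (fun _ => 0)
        (fun _ => 0) W' a.fn b.fn) =
      H961.GW.In (G.Z x) (fun _ => 1) (H551.E.sta (slx (fun _ => 1) s₁) (sly (fun _ => 1) s₂)
        (fun _ => 0) (fun _ => 0) (W : VV n → ℝ) a.fn b.fn) :=
  sta_fr h x (flt_x s₁) (flt_y s₂) (okx' c₁ c₂ y₁ y₂ (G.op x)) (oky' c₁ c₂ y₁ y₂ (G.op x))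
    (cm' c₁ c₂ y₁ y₂ (G.op x))
    (by rw [ha, hb]; exact ad_frM c.M c.N c.nm s₁ s₂) (cX_symm c.N c₁ y₁) (cY_symm c.N c₂ y₂)
    (mS_cX c.M c.N c.nm c₁) (mS_cY c.M c.N c.nm c₂) h1 h2 hW' hW sa sb

/-- **Hypothesis `hF` of the one-cell statement, true slots.** -/
theorem hF_cd (c : CD n) {α : Type*} {G : Ge α (Fin n) (VV n)}
    {s d : Fin n → Fin n → α → VV n → ℝ} (h : Hs G s d) (x : α)
    (ha : G.a x = c.T.a) (hb : G.b x = c.T.b)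
    (h1 : ∀ i j, ∀ z ∈ G.Z x, sX s d i j x z = (cX c.N c₁ i j : VV n → ℝ) z)
    (h2 : ∀ i j, ∀ z ∈ G.Z x, sY s d i j x z = (cY c.N c₂ i j : VV n → ℝ) z)
    {W : Sm (VV n)} {W' W₀ : α → VV n → ℝ} {k : ℝ} (hW' : H961.GW.Sm (G.Z x) (W' x))
    (hW : ∀ z ∈ G.Z x, W' x z = (W : VV n → ℝ) z + k) {e μ ν η : α → VV n → ℝ} {C : ℝ}
    (hC : 0 ≤ C)
    (hfr : ∀ β γ D : VV n → ℝ,
      H961.GW.Te (G.Z x) β → H961.GW.Te (G.Z x) γ → IntegrableOn D (G.Z x) →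
      (∀ z ∈ G.Z x, η x z * H464.B.Qd G W₀ e μ ν (fun _ => β) (fun _ => γ) x z ≤ D z) →
      |H961.GW.In (G.Z x) (fun _ => 1) (H551.E.sta (SX G s d x) (SY G s d x) (fun _ => 0)
          (fun _ => 0) (W' x) (fun z => β z + γ z) fun z => β z - γ z) -
        H961.GW.In (G.Z x) (fun _ => 1) (H551.E.sta (SX G zr zr x) (SY G zr zr x) (fun _ => 0)
          (fun _ => 0) (W₀ x) (fun z => β z + γ z) fun z => β z - γ z)| ≤
            C * ∫ z in G.Z x, D z)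
    {w : Wd c.T} {N : Sm (VV n)}
    (hW₀ : W₀ x = (c.T.w : VV n → ℝ)) {B eta : ℝ} (hB0 : 0 ≤ B) (he0 : 0 ≤ eta)
    (hη : ∀ z ∈ G.Z x, η x z ≤ eta)
    (q1 : ∀ z ∈ G.Z x, e x z ^ 2 ≤ B * (c.T.e : VV n → ℝ) z ^ 2)
    (q2 : ∀ z ∈ G.Z x, e x z / μ x z ≤ B * ((c.T.e : VV n → ℝ) z * (w.mi : VV n → ℝ) z))
    (q3 : ∀ z ∈ G.Z x, e x z / μ x z * ν x z ^ 2 ≤
      B * ((c.T.e : VV n → ℝ) z * (w.mi : VV n → ℝ) z *
        ((N : VV n → ℝ) z + (mu c.T : VV n → ℝ) z) ^ 2)) (hB1 : 1 ≤ B)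
    {b g : TE (VV n)} (sb : Su (G.Z x) b) (sg : Su (G.Z x) g) {M MS : ℝ}
    (hBd : Bd volume c.T w N b g M MS)
    (hQ0 : ∀ z ∈ G.Z x, 0 ≤ H464.B.Qd G W₀ e μ ν (fun _ => b.fn) (fun _ => g.fn) x z) :
    |1 / 4 * H961.GW.In (G.Z x) (fun _ => 1) (H551.E.sta (slx (fun _ => 1) s₁)
        (sly (fun _ => 1) s₂) (fun _ => 0) (fun _ => 0) (W : VV n → ℝ) (b + g).fn (b - g).fn) -
        (Tf volume c.T b g - Sq volume c.T b g)| ≤
      (C * B * (2 * (n : ℝ) + 1)) * eta * (M + MS) := by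
  have h3 := hF_of hC hfr ha hb hW₀ hB0 he0 hη q1 q2 q3 hB1 sb sg hBd hQ0
  rw [sta_cd c₁ c₂ y₁ y₂ c h x ha hb h1 h2 hW' hW (H856.B.su_add sb sg) (H856.B.su_sub sb sg),
    Fintype.card_fin] at h3
  exact h3

end cd

end Vale.Agent.P088.R2.H593.B
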