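import Vale.Agent.P088.R2.H593.B.Box

/-!
# Zone B1: operators near the model operators

`P1`, `P2`: the pointwise bounds of `St - So`, `Rt - Ro`; their squares; the weighted norms of
elements bounded by them.
-/

open MeasureTheory Set

noncomputable section

namespace Vale.Agent.P088.R2.H593.B

open Vale.Agent.P088.R2.H464.EP Vale.Agent.P088.R2.H961.B.T Vale.Agent.P088.R2.H516.B

variable {ι E : Type} [Fintype ι] [DecidableEq ι] [NormedAddCommGroup E] [NormedSpace ℝ E]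
  (S : Dat ι E)

/-- `D_i` and `K_i`. -/
abbrev AA (k : ι ⊕ ι) : Op E := Ak (H856.B.vv S) S.w k

/-- `∑ |A_k A_l f| + (E μ)^(1/2) ∑ |A_k f| + E |f|`. -/
def P1 (f : TE E) (z : E) : ℝ :=
  ∑ k, ∑ l, |(AA S k (AA S l f)).fn z| +
    √((S.e : E → ℝ) z * (mu S : E → ℝ) z) * ∑ k, |(AA S k f).fn z| + (S.e : E → ℝ) z * |f.fn z|

/-- `∑ |D_i K_j f| + (μ / E)^(1/2) ∑ (|D_i D_j f| + |K_i K_j f|) + (E μ)^(1/2) ∑ |K_j f| +
μ ∑ |D_j f| + (E μ)^(1/2) |f|`. -/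
def P2 (f : TE E) (z : E) : ℝ :=
  ∑ i, ∑ j, |(S.D i (S.K j f)).fn z| +
    √((mu S : E → ℝ) z / (S.e : E → ℝ) z) *
      ∑ i, ∑ j, (|(S.D i (S.D j f)).fn z| + |(S.K i (S.K j f)).fn z|) +
    √((S.e : E → ℝ) z * (mu S : E → ℝ) z) * ∑ j, |(S.K j f).fn z| +
    (mu S : E → ℝ) z * ∑ j, |(S.D j f).fn z| +
    √((S.e : E → ℝ) z * (mu S : E → ℝ) z) * |f.fn z|

/-- `∑ |A_k A_l f|² + E μ ∑ |A_k f|² + E² |f|²`. -/
def Q1 (f : TE E) (z : E) : ℝ :=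
  ∑ k, ∑ l, (AA S k (AA S l f)).fn z ^ 2 +
    (S.e : E → ℝ) z * (mu S : E → ℝ) z * ∑ k, (AA S k f).fn z ^ 2 +
    (S.e : E → ℝ) z ^ 2 * f.fn z ^ 2

/-- The squares of the terms of `P2`. -/
def Q2 (f : TE E) (z : E) : ℝ :=
  ∑ i, ∑ j, (S.D i (S.K j f)).fn z ^ 2 +
    (mu S : E → ℝ) z / (S.e : E → ℝ) z *
      ∑ i, ∑ j, ((S.D i (S.D j f)).fn z ^ 2 + (S.K i (S.K j f)).fn z ^ 2) +
    (S.e : E → ℝ) z * (mu S : E → ℝ) z * ∑ j, (S.K j f).fn z ^ 2 +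
    (mu S : E → ℝ) z ^ 2 * ∑ j, (S.D j f).fn z ^ 2 +
    (S.e : E → ℝ) z * (mu S : E → ℝ) z * f.fn z ^ 2

theorem sum_abs_sq {κ : Type*} [Fintype κ] (a : κ → ℝ) :
    (∑ k, |a k|) ^ 2 ≤ Fintype.card κ * ∑ k, a k ^ 2 := by
  have h := sq_sum_le_card_mul_sum_sq (s := Finset.univ) (f := fun k => |a k|)
  simpa only [sq_abs, Finset.card_univ] using h

theorem sum2_abs_sq {κ κ' : Type*} [Fintype κ] [Fintype κ'] (a : κ → κ' → ℝ) :
    (∑ k, ∑ l, |a k l|) ^ 2 ≤ Fintype.card κ * Fintype.card κ' * ∑ k, ∑ l, a k l ^ 2 := by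
  have h := sq_sum_le_card_mul_sum_sq (s := Finset.univ) (f := fun k => ∑ l, |a k l|)
  rw [Finset.card_univ] at h
  refine h.trans ?_
  rw [mul_assoc]
  refine mul_le_mul_of_nonneg_left ?_ (Nat.cast_nonneg _)
  rw [Finset.mul_sum]
  exact Finset.sum_le_sum fun k _ => sum_abs_sq _

theorem add3_sq (a b c : ℝ) : (a + b + c) ^ 2 ≤ 3 * (a ^ 2 + b ^ 2 + c ^ 2) := by
  nlinarith [sq_nonneg (a - b), sq_nonneg (a - c), sq_nonneg (b - c)]

theorem add5_sq (a b c d e : ℝ) :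
    (a + b + c + d + e) ^ 2 ≤ 5 * (a ^ 2 + b ^ 2 + c ^ 2 + d ^ 2 + e ^ 2) := by
  nlinarith [sq_nonneg (a - b), sq_nonneg (a - c), sq_nonneg (a - d), sq_nonneg (a - e),
    sq_nonneg (b - c), sq_nonneg (b - d), sq_nonneg (b - e), sq_nonneg (c - d),
    sq_nonneg (c - e), sq_nonneg (d - e)]

variable {S} (w : Wd S)
include w

theorem em_nn (z : E) : 0 ≤ (S.e : E → ℝ) z * (mu S : E → ℝ) z :=
  mul_nonneg (w.he z).le (by linarith [H856.B.mu_ge w z])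

theorem Q1_nn (f : TE E) (z : E) : 0 ≤ Q1 S f z := by
  have h1 := em_nn w z
  unfold Q1
  positivity

theorem P1_nn (f : TE E) (z : E) : 0 ≤ P1 S f z := by
  have h1 := (w.he z).le
  unfold P1
  positivity

theorem P2_nn (f : TE E) (z : E) : 0 ≤ P2 S f z := by
  have h1 := (w.he z).le
  have h2 : 0 ≤ (mu S : E → ℝ) z := by linarith [H856.B.mu_ge w z]
  unfold P2
  positivity

theorem Q2_nn (f : TE E) (z : E) : 0 ≤ Q2 S f z := by
  have h1 := (w.he z).le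
  have h2 : 0 ≤ (mu S : E → ℝ) z := by linarith [H856.B.mu_ge w z]
  unfold Q2
  positivity

theorem P1_sq (f : TE E) (z : E) :
    P1 S f z ^ 2 ≤ 12 * ((Fintype.card ι : ℝ) + 1) ^ 2 * Q1 S f z := by
  have h1 := em_nn w z
  have h2 := (w.he z).le
  have hn : (0 : ℝ) ≤ Fintype.card ι := Nat.cast_nonneg _
  have hc : (Fintype.card (ι ⊕ ι) : ℝ) = 2 * Fintype.card ι := by
    rw [Fintype.card_sum, Nat.cast_add]; ring
  have a1 := sum2_abs_sq (fun k l => (AA S k (AA S l f)).fn z)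
  have a2 := sum_abs_sq (fun k => (AA S k f).fn z)
  rw [hc] at a1 a2
  rw [P1, Q1]
  refine (add3_sq _ _ _).trans ?_
  rw [mul_pow √_, Real.sq_sqrt h1, mul_pow _ |f.fn z|, sq_abs]
  set X := ∑ k, ∑ l, (AA S k (AA S l f)).fn z ^ 2
  set Y := ∑ k, (AA S k f).fn z ^ 2
  have hX : 0 ≤ X := by positivity
  have hY : 0 ≤ Y := by positivity
  have hF : 0 ≤ (S.e : E → ℝ) z ^ 2 * f.fn z ^ 2 := by positivity
  have hEY : 0 ≤ (S.e : E → ℝ) z * (mu S : E → ℝ) z * Y := by positivity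
  have b2 := mul_le_mul_of_nonneg_left a2 h1
  have c1 : 2 * (Fintype.card ι : ℝ) * (2 * Fintype.card ι) * X ≤
      4 * ((Fintype.card ι : ℝ) + 1) ^ 2 * X := by
    apply mul_le_mul_of_nonneg_right _ hX
    nlinarith
  have c2 : 2 * (Fintype.card ι : ℝ) * ((S.e : E → ℝ) z * (mu S : E → ℝ) z * Y) ≤
      4 * ((Fintype.card ι : ℝ) + 1) ^ 2 * ((S.e : E → ℝ) z * (mu S : E → ℝ) z * Y) := by
    apply mul_le_mul_of_nonneg_right _ hEY
    nlinarith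
  have c3 : 1 * ((S.e : E → ℝ) z ^ 2 * f.fn z ^ 2) ≤
      4 * ((Fintype.card ι : ℝ) + 1) ^ 2 * ((S.e : E → ℝ) z ^ 2 * f.fn z ^ 2) := by
    apply mul_le_mul_of_nonneg_right _ hF
    nlinarith
  linarith

theorem P2_sq (f : TE E) (z : E) :
    P2 S f z ^ 2 ≤ 10 * ((Fintype.card ι : ℝ) + 1) ^ 2 * Q2 S f z := by
  have h1 := em_nn w z
  have h2 := (w.he z).le
  have h3 : 0 ≤ (mu S : E → ℝ) z := by linarith [H856.B.mu_ge w z]
  have h4 : 0 ≤ (mu S : E → ℝ) z / (S.e : E → ℝ) z := by positivity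
  have hn : (0 : ℝ) ≤ Fintype.card ι := Nat.cast_nonneg _
  have a1 := sum2_abs_sq (fun i j => (S.D i (S.K j f)).fn z)
  have a2 := sum2_abs_sq (fun i j => (S.D i (S.D j f)).fn z)
  have a3 := sum2_abs_sq (fun i j => (S.K i (S.K j f)).fn z)
  have a4 := sum_abs_sq (fun j => (S.K j f).fn z)
  have a5 := sum_abs_sq (fun j => (S.D j f).fn z)
  rw [P2, Q2]
  refine (add5_sq _ _ _ _ _).trans ?_
  simp only [mul_pow, Real.sq_sqrt h1, Real.sq_sqrt h4, sq_abs, Finset.sum_add_distrib]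
  set X1 := ∑ i, ∑ j, (S.D i (S.K j f)).fn z ^ 2
  set X2 := ∑ i, ∑ j, (S.D i (S.D j f)).fn z ^ 2
  set X3 := ∑ i, ∑ j, (S.K i (S.K j f)).fn z ^ 2
  set X4 := ∑ j, (S.K j f).fn z ^ 2
  set X5 := ∑ j, (S.D j f).fn z ^ 2
  set Y2 := ∑ i, ∑ j, |(S.D i (S.D j f)).fn z|
  set Y3 := ∑ i, ∑ j, |(S.K i (S.K j f)).fn z|
  set n := (Fintype.card ι : ℝ)
  set e := (S.e : E → ℝ) z
  set m := (mu S : E → ℝ) z
  have hX1 : 0 ≤ X1 := by positivity
  have hX2 : 0 ≤ X2 := by positivity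
  have hX3 : 0 ≤ X3 := by positivity
  have hX4 : 0 ≤ X4 := by positivity
  have hX5 : 0 ≤ X5 := by positivity
  have b0 : (Y2 + Y3) ^ 2 ≤ 2 * (n * n * X2) + 2 * (n * n * X3) := by
    nlinarith [sq_nonneg (Y2 - Y3)]
  have b1 := mul_le_mul_of_nonneg_left b0 h4
  have b2 := mul_le_mul_of_nonneg_left a4 h1
  have b3 := mul_le_mul_of_nonneg_left a5 (sq_nonneg m)
  have n1 : n * n ≤ 2 * (n + 1) ^ 2 := by nlinarith
  have n2 : 2 * (n * n) ≤ 2 * (n + 1) ^ 2 := by nlinarith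
  have n3 : n ≤ 2 * (n + 1) ^ 2 := by nlinarith
  have n4 : 1 ≤ 2 * (n + 1) ^ 2 := by nlinarith
  have c1 := mul_le_mul_of_nonneg_right n1 hX1
  have c2 := mul_le_mul_of_nonneg_right n2 (mul_nonneg h4 (add_nonneg hX2 hX3))
  have c4 := mul_le_mul_of_nonneg_right n3 (mul_nonneg h1 hX4)
  have c5 := mul_le_mul_of_nonneg_right n3 (mul_nonneg (sq_nonneg m) hX5)
  have c6 := mul_le_mul_of_nonneg_right n4 (mul_nonneg h1 (sq_nonneg (f.fn z)))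
  linarith

/-- `P2 ≤ P1` on the zone. -/
theorem P2_le {Z : Set E} {N : Sm E} {Lam eps : ℝ} (hZ : Zn S Z N Lam eps) (f : TE E) {z : E}
    (hz : z ∈ Z) : P2 S f z ≤ P1 S f z := by
  have he := w.he z
  have hm := H856.B.mu_ge w z
  have hem := H856.B.e_ge w hZ hz
  have s1 : √((mu S : E → ℝ) z / (S.e : E → ℝ) z) ≤ 1 :=
    Real.sqrt_le_one.2 ((div_le_one he).2 hem)
  have s2 : (mu S : E → ℝ) z ≤ √((S.e : E → ℝ) z * (mu S : E → ℝ) z) := by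
    apply Real.le_sqrt_of_sq_le
    nlinarith
  have s3 : √((S.e : E → ℝ) z * (mu S : E → ℝ) z) ≤ (S.e : E → ℝ) z := by
    apply Real.sqrt_le_iff.2
    refine ⟨he.le, ?_⟩
    nlinarith
  rw [P2, P1]
  have e1 : ∑ k, ∑ l, |(AA S k (AA S l f)).fn z| =
      ∑ i, ∑ j, |(S.D i (S.D j f)).fn z| + ∑ i, ∑ j, |(S.D i (S.K j f)).fn z| +
        (∑ i, ∑ j, |(S.K i (S.D j f)).fn z| + ∑ i, ∑ j, |(S.K i (S.K j f)).fn z|) := by
    simp only [Fintype.sum_sum_type, AA, H856.B.Ak_inl, H856.B.Ak_inr, Finset.sum_add_distrib]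
    ring
  have e2 : ∑ k, |(AA S k f).fn z| = ∑ i, |(S.D i f).fn z| + ∑ i, |(S.K i f).fn z| := by
    simp only [Fintype.sum_sum_type, AA, H856.B.Ak_inl, H856.B.Ak_inr]
  rw [e1, e2, Finset.sum_congr rfl fun i _ => Finset.sum_add_distrib, Finset.sum_add_distrib]
  have p1 : 0 ≤ ∑ i, ∑ j, |(S.D i (S.D j f)).fn z| := by positivity
  have p2 : 0 ≤ ∑ i, ∑ j, |(S.K i (S.K j f)).fn z| := by positivity
  have p3 : 0 ≤ ∑ i, ∑ j, |(S.K i (S.D j f)).fn z| := by positivity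
  have p4 : 0 ≤ ∑ i, |(S.D i f).fn z| := by positivity
  have b1 := mul_le_mul_of_nonneg_right s1 (add_nonneg p1 p2)
  have b2 := mul_le_mul_of_nonneg_right s2 p4
  have b3 := mul_le_mul_of_nonneg_right s3 (abs_nonneg (f.fn z))
  linarith

end Vale.Agent.P088.R2.H593.B
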